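import Vale.Agent.P068.Wave

/-!
# The countable iteration, Rado-type compactness for the finite classes, and the finitary theorem.
-/

namespace Vale.Agent.P068

open Set Matroid

variable {α ι : Type*}

/-- The union of the first `n` pieces. -/
def Upto (T : ℕ → Set α) (n : ℕ) : Set α := ⋃ k, ⋃ (_ : k < n), T k

lemma upto_zero (T : ℕ → Set α) : Upto T 0 = ∅ := by simp [Upto]

lemma upto_succ (T : ℕ → Set α) (n : ℕ) : Upto T (n + 1) = T n ∪ Upto T n := by
  ext y
  simp only [Upto, mem_iUnion, mem_union, exists_prop]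
  constructor
  · rintro ⟨k, hk, hy⟩
    rcases Nat.lt_succ_iff_lt_or_eq.1 hk with h | rfl
    · exact Or.inr ⟨k, h, hy⟩
    · exact Or.inl hy
  · rintro (hy | ⟨k, hk, hy⟩)
    · exact ⟨n, Nat.lt_succ_self n, hy⟩
    · exact ⟨k, Nat.lt_succ_of_lt hk, hy⟩

lemma upto_mono (T : ℕ → Set α) {m n : ℕ} (h : m ≤ n) : Upto T m ⊆ Upto T n := by
  intro y hy
  simp only [Upto, mem_iUnion, exists_prop] at hy ⊢
  obtain ⟨k, hk, hy⟩ := hy
  exact ⟨k, lt_of_lt_of_le hk h, hy⟩

lemma upto_subset (T : ℕ → Set α) (n : ℕ) : Upto T n ⊆ ⋃ k, T k := by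
  intro y hy
  simp only [Upto, mem_iUnion, exists_prop] at hy
  obtain ⟨k, _, hy⟩ := hy
  exact mem_iUnion.2 ⟨k, hy⟩

lemma finite_subset_upto (T : ℕ → Set α) {F : Set α} (hF : F.Finite) (hFT : F ⊆ ⋃ k, T k) :
    ∃ N, F ⊆ Upto T N := by
  induction F, hF using Set.Finite.induction_on with
  | empty => exact ⟨0, empty_subset _⟩
  | @insert x F _ _ ih =>
    obtain ⟨N, hN⟩ := ih ((subset_insert _ _).trans hFT)
    obtain ⟨k, hk⟩ := mem_iUnion.1 (hFT (mem_insert x F))
    refine ⟨max N (k + 1), insert_subset ?_ (hN.trans (upto_mono T (le_max_left _ _)))⟩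
    simp only [Upto, mem_iUnion, exists_prop]
    exact ⟨k, by omega, hk⟩

/-- A sequence of successive systems. -/
structure Seq (M0 : Matroid α) (c : α → ι) (Ms : ℕ → Matroid α) (T : ℕ → Set α) : Prop where
  zero : Ms 0 = M0
  fin : ∀ n, (Ms n).Finitary
  unh : ∀ n, Unhind (Ms n) c
  rel : ∀ n, Rel (Ms n) (Ms (n + 1)) c (T n)

/-- Iterating the step handles countably many classes. -/
lemma exists_seq (M0 : Matroid α) [hfin : M0.Finitary] (c : α → ι) (hu : Unhind M0 c)
    (K : Set ι) (hK : K.Countable) :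
    ∃ Ms T, Seq M0 c Ms T ∧ ∀ x ∈ K, ∃ n, ∀ f ∈ (Ms n).E, c f ≠ x := by
  classical
  have : Countable K := hK.to_subtype
  obtain ⟨e, he⟩ := exists_surjective_nat (Option K)
  let St := {M' : Matroid α // M'.Finitary ∧ Unhind M' c}
  have step' : ∀ (s : St) (x : Option K), ∃ (s' : St) (T : Set α), Rel s.1 s'.1 c T ∧
      ∀ y : K, x = some y → ∀ f ∈ s'.1.E, c f ≠ y.1 := by
    rintro ⟨M, hM, hMu⟩ x
    cases x with
    | none =>
      refine ⟨⟨M, hM, hMu⟩, ∅, ⟨injOn_empty _, fun S hS => ?_, Subset.rfl, fun e he he' => ?_,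
        fun _ _ _ ht => ht.elim⟩, fun y hy => ?_⟩
      · simpa using hS
      · exact absurd he he'
      · simp at hy
    | some x =>
      have := hM
      obtain ⟨M', T, h1, h2, h3, h4⟩ := step M c hMu x.1
      refine ⟨⟨M', h1, h2⟩, T, h3, fun y hy => ?_⟩
      rw [Option.some.injEq] at hy
      subst hy
      exact h4
  choose next Tf hrel hx using step'
  let s : ℕ → St := fun n => Nat.rec ⟨M0, hfin, hu⟩ (fun n sn => next sn (e n)) n
  have hss : ∀ n, s (n + 1) = next (s n) (e n) := fun _ => rfl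
  refine ⟨fun n => (s n).1, fun n => Tf (s n) (e n), ⟨rfl, fun n => (s n).2.1, fun n => (s n).2.2,
    fun n => ?_⟩, fun x hx' => ?_⟩
  · show Rel (s n).1 (s (n + 1)).1 c (Tf (s n) (e n))
    rw [hss]; exact hrel _ _
  · obtain ⟨n, hn⟩ := he (some ⟨x, hx'⟩)
    refine ⟨n + 1, ?_⟩
    show ∀ f ∈ (s (n + 1)).1.E, c f ≠ x
    rw [hss]
    exact hx (s n) (e n) ⟨x, hx'⟩ hn

namespace Seq

variable {M0 : Matroid α} {c : α → ι} {Ms : ℕ → Matroid α} {T : ℕ → Set α}

lemma indep_upto (h : Seq M0 c Ms T) (n : ℕ) (S : Set α) (hS : (Ms n).Indep S) :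
    M0.Indep (S ∪ Upto T n) := by
  induction n generalizing S with
  | zero =>
    rw [upto_zero, union_empty, ← h.zero]
    exact hS
  | succ n ih =>
    have := ih _ ((h.rel n).indep S hS)
    rw [upto_succ, ← union_assoc]
    exact this

lemma ground_anti (h : Seq M0 c Ms T) {n k : ℕ} (hkn : k ≤ n) : (Ms n).E ⊆ (Ms k).E := by
  induction hkn with
  | refl => exact Subset.rfl
  | step _ ih => exact (h.rel _).ground.trans ih

lemma T_sub (h : Seq M0 c Ms T) (k : ℕ) : T k ⊆ (Ms k).E := by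
  have := (h.rel k).indep ∅ (Ms (k + 1)).empty_indep
  rw [empty_union] at this
  exact this.subset_ground

lemma indep_union [M0.Finitary] (h : Seq M0 c Ms T) : M0.Indep (⋃ n, T n) := by
  refine indep_of_forall_finite_subset_indep _ fun F hFT hF => ?_
  obtain ⟨N, hN⟩ := finite_subset_upto T hF hFT
  have := h.indep_upto N ∅ (Ms N).empty_indep
  rw [empty_union] at this
  exact this.subset hN

lemma injOn_union (h : Seq M0 c Ms T) : InjOn c (⋃ n, T n) := by
  intro x hx' y hy hxy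
  obtain ⟨j, hj⟩ := mem_iUnion.1 hx'
  obtain ⟨k, hk⟩ := mem_iUnion.1 hy
  rcases lt_trichotomy j k with hlt | rfl | hlt
  · exact absurd hxy ((h.rel j).fresh y (h.ground_anti hlt (h.T_sub k hk)) x hj)
  · exact (h.rel j).inj hj hk hxy
  · exact absurd hxy.symm ((h.rel k).fresh x (h.ground_anti hlt (h.T_sub j hj)) y hk)

/-- An element either stays forever or its class is hit. -/
lemma stays_or_hit (h : Seq M0 c Ms T) {f : α} (hf : f ∈ M0.E) :
    (∀ n, f ∈ (Ms n).E) ∨ ∃ t ∈ ⋃ n, T n, c t = c f := by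
  classical
  by_cases hall : ∀ n, f ∈ (Ms n).E
  · exact Or.inl hall
  · right
    push Not at hall
    have hk0 := Nat.find_spec hall
    have hmin := fun m => Nat.find_min hall (m := m)
    cases hk : Nat.find hall with
    | zero =>
      rw [hk, h.zero] at hk0
      exact absurd hf hk0
    | succ m =>
      rw [hk] at hk0
      have hm : f ∈ (Ms m).E := by
        by_contra hcon
        exact hmin m (by omega) hcon
      obtain ⟨t, ht, htf⟩ := (h.rel m).removed f hm hk0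
      exact ⟨t, mem_iUnion.2 ⟨m, ht⟩, htf⟩

/-- The elements staying forever have fresh classes. -/
lemma stays_fresh (h : Seq M0 c Ms T) {f t : α} (hf : ∀ n, f ∈ (Ms n).E)
    (ht : t ∈ ⋃ n, T n) : c t ≠ c f := by
  obtain ⟨k, hk⟩ := mem_iUnion.1 ht
  exact (h.rel k).fresh f (hf (k + 1)) t hk

/-- The set of staying elements is saturated in each system. -/
lemma stays_sat (h : Seq M0 c Ms T) {f g : α} (hf : ∀ n, f ∈ (Ms n).E) (hg : g ∈ M0.E)
    (hc : c g = c f) : ∀ n, g ∈ (Ms n).E := by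
  rcases h.stays_or_hit hg with h1 | ⟨t, ht, htg⟩
  · exact h1
  · exact absurd (htg.trans hc) (h.stays_fresh hf ht)

end Seq

/-- An unhindered system with countably many classes has a full independent transversal. -/
theorem exists_transversal (M0 : Matroid α) [M0.Finitary] (c : α → ι)
    (hc : (c '' M0.E).Countable) (hu : Unhind M0 c) :
    ∃ T, M0.Indep T ∧ InjOn c T ∧ ∀ f ∈ M0.E, ∃ t ∈ T, c t = c f := by
  obtain ⟨Ms, T, hS, hK⟩ := exists_seq M0 c hu _ hc
  refine ⟨⋃ n, T n, hS.indep_union, hS.injOn_union, fun f hf => ?_⟩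
  rcases hS.stays_or_hit hf with h1 | h1
  · obtain ⟨n, hn⟩ := hK (c f) ⟨f, hf, rfl⟩
    exact absurd rfl (hn f (h1 n))
  · exact h1

/-- A restriction to a union of classes stays unhindered. -/
lemma unhind_restrict {M : Matroid α} {c : α → ι} (hu : Unhind M c) {R : Set α} (hR : R ⊆ M.E)
    (hsat : Sat M c R) : Unhind (M ↾ R) c := by
  intro W J hw e he
  have hWR : W ⊆ R := hw.sub
  have hJ : M.Indep J := (restrict_indep_iff.1 hw.indep).1
  refine hu W J ⟨hWR.trans hR, ?_, hw.JW, hJ, hw.inj, ?_⟩ e he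
  · intro x hx f hf hcf
    exact hw.sat x hx f (hsat x (hWR hx) f hf hcf) hcf
  · intro x hx
    have := hw.span hx
    rw [restrict_closure_eq _ (hw.JW.trans hWR) hR] at this
    exact this.1

/-- The finite step: a finite union of staying classes has a transversal independent over
everything chosen during the iteration. -/
lemma rado_step {M0 : Matroid α} [M0.Finitary] {c : α → ι} {Ms : ℕ → Matroid α} {T : ℕ → Set α}
    (hS : Seq M0 c Ms T) {R : Set α} (hR : R.Finite) 
    (hRs : ∀ e ∈ R, ∀ n, e ∈ (Ms n).E) (hRsat : ∀ e ∈ R, ∀ f ∈ M0.E, c f = c e → f ∈ R) :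
    ∃ S ⊆ R, InjOn c S ∧ (∀ e ∈ R, ∃ t ∈ S, c t = c e) ∧ M0.Indep (S ∪ ⋃ n, T n) := by
  classical
  -- for each dependent candidate, a level at which it is already dependent
  have hlevel : ∀ S : Set α, S ⊆ R → ¬ M0.Indep (S ∪ ⋃ n, T n) →
      ∃ N, ¬ M0.Indep (S ∪ Upto T N) := by
    intro S hSR hdep
    by_contra hcon
    push Not at hcon
    apply hdep
    refine indep_of_forall_finite_subset_indep _ fun F hF hFfin => ?_
    have hFT : F \ S ⊆ ⋃ n, T n := by
      intro y hy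
      rcases hF hy.1 with h | h
      · exact absurd h hy.2
      · exact h
    obtain ⟨N, hN⟩ := finite_subset_upto T (hFfin.subset sdiff_subset) hFT
    refine (hcon N).subset fun y hy => ?_
    by_cases hyS : y ∈ S
    · exact Or.inl hyS
    · exact Or.inr (hN ⟨hy, hyS⟩)
  choose! lev hlev using hlevel
  have hfin : (𝒫 R).Finite := hR.powerset
  obtain ⟨N, hN⟩ : ∃ N, ∀ S ∈ 𝒫 R, lev S ≤ N := by
    obtain ⟨N, hN⟩ := (hfin.image lev).bddAbove
    exact ⟨N, fun S hS => hN ⟨S, hS, rfl⟩⟩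
  -- apply the countable theorem in the system at level `N`
  have hfinN : (Ms N).Finitary := hS.fin N
  have hRN : R ⊆ (Ms N).E := fun e he => hRs e he N
  have hsatN : Sat (Ms N) c R := by
    intro e he f hf hcf
    exact hRsat e he f (hS.ground_anti (Nat.zero_le N) hf |> fun h => by rwa [hS.zero] at h) hcf
  have huR := unhind_restrict (hS.unh N) hRN hsatN
  obtain ⟨S, hS1, hS2, hS3⟩ := exists_transversal ((Ms N) ↾ R) c (hR.image c).countable huR
  have hSR : S ⊆ R := hS1.subset_ground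
  have hSind : (Ms N).Indep S := (restrict_indep_iff.1 hS1).1
  refine ⟨S, hSR, hS2, hS3, ?_⟩
  by_contra hdep
  have hdepN := hlev S hSR hdep
  apply hdepN
  exact (hS.indep_upto N S hSind).subset
    (union_subset_union_right _ (upto_mono T (hN S hSR)))

/-- Tychonoff selection for finite fibres. -/
lemma tychonoff_select {Y : Type*} {B : Y → Type*} [∀ i, Finite (B i)] [∀ i, Nonempty (B i)]
    (P : Finset Y → ((i : Y) → B i) → Prop)
    (hloc : ∀ (Y₀ : Finset Y) (σ τ : (i : Y) → B i), (∀ i ∈ Y₀, σ i = τ i) → P Y₀ σ → P Y₀ τ)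
    (hmono : ∀ (Y₀ Y₁ : Finset Y), Y₀ ⊆ Y₁ → ∀ σ, P Y₁ σ → P Y₀ σ)
    (hne : ∀ Y₀ : Finset Y, ∃ σ, P Y₀ σ) : ∃ σ, ∀ Y₀, P Y₀ σ := by
  classical
  let _ : ∀ i, TopologicalSpace (B i) := fun _ => ⊥
  have : ∀ i, DiscreteTopology (B i) := fun _ => ⟨rfl⟩
  let t : Finset Y → Set ((i : Y) → B i) := fun Y₀ => {σ | P Y₀ σ}
  have hcl : ∀ Y₀, IsClosed (t Y₀) := by
    intro Y₀
    rw [← isOpen_compl_iff, isOpen_iff_forall_mem_open]
    intro σ hσ
    refine ⟨⋂ i ∈ Y₀, (fun τ => τ i) ⁻¹' {σ i}, ?_, ?_, ?_⟩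
    · intro τ hτ hP
      apply hσ
      refine hloc Y₀ τ σ (fun i hi => ?_) hP
      have := mem_iInter₂.1 hτ i hi
      simpa using this
    · exact isOpen_biInter_finset fun i _ => (isOpen_discrete _).preimage (continuous_apply i)
    · exact mem_iInter₂.2 fun i _ => rfl
  have hdir : Directed (· ⊇ ·) t := by
    intro a b
    refine ⟨a ∪ b, fun σ hσ => hmono _ _ Finset.subset_union_left σ hσ,
      fun σ hσ => hmono _ _ Finset.subset_union_right σ hσ⟩
  have hnon := IsCompact.nonempty_iInter_of_directed_nonempty_isCompact_isClosed t hdir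
    (fun i => hne i) (fun i => (hcl i).isCompact) hcl
  obtain ⟨σ, hσ⟩ := hnon
  exact ⟨σ, fun Y₀ => mem_iInter.1 hσ Y₀⟩

/-- Unhindered system with all but countably many classes finite: full independent transversal. -/
theorem exists_transversal' (M0 : Matroid α) [M0.Finitary] (c : α → ι) (K : Set ι)
    (hK : K.Countable) (hfinite : ∀ i ∉ K, {e ∈ M0.E | c e = i}.Finite) (hu : Unhind M0 c) :
    ∃ T, M0.Indep T ∧ InjOn c T ∧ ∀ f ∈ M0.E, ∃ t ∈ T, c t = c f := by
  classical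
  obtain ⟨Ms, T, hS, hKs⟩ := exists_seq M0 c hu K hK
  -- the staying elements
  set Es := {f ∈ M0.E | ∀ n, f ∈ (Ms n).E} with hEs
  let Y := {i : ι // ∃ f ∈ Es, c f = i}
  let B : Y → Type _ := fun i => {e : α // e ∈ Es ∧ c e = i.1}
  have hYK : ∀ i : Y, i.1 ∉ K := by
    rintro ⟨i, f, hf, rfl⟩ hi
    obtain ⟨n, hn⟩ := hKs _ hi
    exact hn f (hf.2 n) rfl
  have hBfin : ∀ i : Y, Finite (B i) := by
    intro i
    have hf := hfinite i.1 (hYK i)
    have hsub : {e | e ∈ Es ∧ c e = i.1} ⊆ {e ∈ M0.E | c e = i.1} := fun e he => ⟨he.1.1, he.2⟩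
    exact (hf.subset hsub).to_subtype
  have hBne : ∀ i : Y, Nonempty (B i) := by
    rintro ⟨i, f, hf, rfl⟩
    exact ⟨⟨f, hf, rfl⟩⟩
  let TT := ⋃ n, T n
  let P : Finset Y → ((i : Y) → B i) → Prop := fun Y₀ σ =>
    M0.Indep ((fun i : Y => ((σ i : B i) : α)) '' (Y₀ : Set Y) ∪ TT)
  have hloc : ∀ (Y₀ : Finset Y) (σ τ : (i : Y) → B i), (∀ i ∈ Y₀, σ i = τ i) → P Y₀ σ → P Y₀ τ := by
    intro Y₀ σ τ h hP
    have : (fun i : Y => ((τ i : B i) : α)) '' (Y₀ : Set Y)
        = (fun i : Y => ((σ i : B i) : α)) '' (Y₀ : Set Y) := by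
      apply image_congr
      intro i hi
      rw [h i hi]
    show M0.Indep _
    rw [this]
    exact hP
  have hmono : ∀ (Y₀ Y₁ : Finset Y), Y₀ ⊆ Y₁ → ∀ σ, P Y₁ σ → P Y₀ σ := by
    intro Y₀ Y₁ h σ hP
    refine Indep.subset hP (union_subset_union_left _ (image_mono ?_))
    exact_mod_cast h
  have hne : ∀ Y₀ : Finset Y, ∃ σ, P Y₀ σ := by
    intro Y₀
    -- the finite union of the classes
    set R : Set α := {e | e ∈ Es ∧ ∃ i ∈ Y₀, c e = i.1} with hR
    have hRfin : R.Finite := by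
      have : R ⊆ ⋃ i ∈ Y₀, {e | e ∈ Es ∧ c e = i.1} := by
        rintro e ⟨he, i, hi, hei⟩
        exact mem_iUnion₂.2 ⟨i, hi, he, hei⟩
      refine Set.Finite.subset (Set.Finite.biUnion Y₀.finite_toSet fun i _ => ?_) this
      exact Set.finite_coe_iff.1 (hBfin i)
    have hRsat : ∀ e ∈ R, ∀ f ∈ M0.E, c f = c e → f ∈ R := by
      rintro e ⟨he, i, hi, hei⟩ f hf hcf
      exact ⟨⟨hf, hS.stays_sat he.2 hf hcf⟩, i, hi, hcf.trans hei⟩
    obtain ⟨S, hSR, _, hS3, hS4⟩ := rado_step hS hRfin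
      (fun e he n => he.1.2 n) hRsat
    -- build `σ`
    have hch : ∀ i : Y, ∃ b : B i, i ∈ Y₀ → (b : α) ∈ S := by
      intro i
      by_cases hi : i ∈ Y₀
      · obtain ⟨f, hf, hcf⟩ := i.2
        obtain ⟨t, ht, htc⟩ := hS3 f ⟨hf, i, hi, hcf⟩
        exact ⟨⟨t, (hSR ht).1, htc.trans hcf⟩, fun _ => ht⟩
      · exact ⟨(hBne i).some, fun h => absurd h hi⟩
    choose σ hσ using hch
    refine ⟨σ, hS4.subset (union_subset_union_left _ ?_)⟩
    rintro _ ⟨i, hi, rfl⟩
    exact hσ i hi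
  obtain ⟨σ, hσ⟩ := tychonoff_select P hloc hmono hne
  let Tf : Set α := range (fun i : Y => ((σ i : B i) : α))
  have hTfstay : ∀ x ∈ Tf, x ∈ Es := by
    rintro _ ⟨i, rfl⟩
    exact (σ i).2.1
  refine ⟨Tf ∪ TT, ?_, ?_, ?_⟩
  · refine indep_of_forall_finite_subset_indep _ fun F hF hFfin => ?_
    -- the classes used by `F`
    have hinj : Function.Injective (fun i : Y => ((σ i : B i) : α)) := by
      intro i j hij
      have hi := (σ i).2.2
      have hj := (σ j).2.2
      have hcij : c ((σ i : B i) : α) = c ((σ j : B j) : α) := congrArg c hij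
      exact Subtype.ext (by rw [← hi, ← hj]; exact hcij)
    have hfin2 : ((fun i : Y => ((σ i : B i) : α)) ⁻¹' F).Finite :=
      hFfin.preimage hinj.injOn
    have := hσ hfin2.toFinset
    refine Indep.subset this fun x hx => ?_
    by_cases hxT : x ∈ TT
    · exact Or.inr hxT
    · left
      rcases hF hx with h | h
      · obtain ⟨i, rfl⟩ := h
        refine ⟨i, ?_, rfl⟩
        simpa using hx
      · exact absurd h hxT
  · -- injectivity
    have hTf : ∀ x ∈ Tf, ∀ y ∈ Tf, c x = c y → x = y := by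
      rintro _ ⟨i, rfl⟩ _ ⟨j, rfl⟩ hij
      have hi := (σ i).2.2
      have hj := (σ j).2.2
      have : i = j := Subtype.ext (by rw [← hi, ← hj]; exact hij)
      subst this
      rfl
    rintro x (hx | hx) y (hy | hy) hxy
    · exact hTf x hx y hy hxy
    · exact absurd hxy.symm (hS.stays_fresh (hTfstay x hx).2 hy)
    · exact absurd hxy (hS.stays_fresh (hTfstay y hy).2 hx)
    · exact hS.injOn_union hx hy hxy
  · intro f hf
    rcases hS.stays_or_hit hf with h1 | ⟨t, ht, htf⟩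
    · have hfE : f ∈ Es := ⟨hf, h1⟩
      let i : Y := ⟨c f, f, hfE, rfl⟩
      refine ⟨((σ i : B i) : α), Or.inl ⟨i, rfl⟩, (σ i).2.2⟩
    · exact ⟨t, Or.inr ht, htf⟩

/-- The theorem for finitary `M`: all but countably many classes finite, arbitrary ground set. -/
theorem finitary_main (M : Matroid α) [M.Finitary] (c : α → ι) (K : Set ι) (hK : K.Countable)
    (hfinite : ∀ i ∉ K, {e ∈ M.E | c e = i}.Finite) :
    ∃ JM JN, Disjoint JM JN ∧ M.Indep (JM ∪ JN) ∧ InjOn c (JM ∪ JN) ∧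
      ∀ f ∈ M.E, f ∈ M.closure JM ∨ ∃ t ∈ JN, c t = c f := by
  obtain ⟨W, J, hwave, hno⟩ := exists_max_wave M c
  have hB : M.IsBasis J W := hwave.indep.isBasis_of_subset_of_subset_closure hwave.JW hwave.span
  have hfin' : ∀ i ∉ K, {e ∈ (M ／ W).E | c e = i}.Finite := fun i hi =>
    (hfinite i hi).subset fun e he => ⟨he.1.1, he.2⟩
  obtain ⟨T, hT, hTinj, hThit⟩ := exists_transversal' (M ／ W) c K hK hfin' hno.unhind
  have hTE : T ⊆ M.E \ W := hT.subset_ground
  refine ⟨J, T, ?_, ?_, ?_, ?_⟩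
  · exact disjoint_left.2 fun x hx hx' => (hTE hx').2 (hwave.JW hx)
  · rw [union_comm]
    exact (hB.contract_indep_iff.1 hT).1
  · have hfresh : ∀ x ∈ J, ∀ y ∈ T, c x ≠ c y := by
      intro x hx y hy hxy
      exact (hTE hy).2 (hwave.sat x (hwave.JW hx) y (hTE hy).1 hxy.symm)
    rintro x (hx | hx) y (hy | hy) hxy
    · exact hwave.inj hx hy hxy
    · exact absurd hxy (hfresh x hx y hy)
    · exact absurd hxy.symm (hfresh y hy x hx)
    · exact hTinj hx hy hxy
  · intro f hf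
    by_cases hfW : f ∈ W
    · exact Or.inl (hwave.span hfW)
    · exact Or.inr (hThit f ⟨hf, hfW⟩)

end Vale.Agent.P068
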