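import Vale.Agent.P068.Defs
import Vale.Agent.P068.Limit

/-!
# Reduction of the general statement to `finitary_main`: finitarization and parallel copies.
-/

namespace Vale.Agent.P068

open Set Matroid

variable {α ι : Type*}

/-- The finitarization of a matroid. -/
def finitize (M : Matroid α) : Matroid α :=
  (IndepMatroid.ofFinitaryCardAugment M.E (fun I => ∀ J, J ⊆ I → J.Finite → M.Indep J)
    (fun J hJ _ => by
      rw [subset_empty_iff.1 hJ]; exact M.empty_indep)
    (fun _ _ hJ hIJ K hK hKf => hJ K (hK.trans hIJ) hKf)
    (fun I J hI hIfin hJ hJfin hcard => by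
      have hI' := hI I Subset.rfl hIfin
      have hJ' := hJ J Subset.rfl hJfin
      have hlt : I.encard < J.encard := by
        rw [← hIfin.cast_ncard_eq, ← hJfin.cast_ncard_eq]
        exact_mod_cast hcard
      obtain ⟨e, he, heI⟩ := hI'.augment hJ' hlt
      exact ⟨e, he.1, he.2, fun K hK _ => heI.subset hK⟩)
    (fun I hI K hK hKf => hI K hK hKf K Subset.rfl hKf)
    (fun I hI x hx => (M.indep_singleton.1 (hI {x} (singleton_subset_iff.2 hx)
      (finite_singleton x))).mem_ground)).matroid

@[simp] lemma finitize_E (M : Matroid α) : (finitize M).E = M.E := rfl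

lemma finitize_indep_iff {M : Matroid α} {I : Set α} :
    (finitize M).Indep I ↔ ∀ J, J ⊆ I → J.Finite → M.Indep J := Iff.rfl

instance finitize_finitary (M : Matroid α) : (finitize M).Finitary := by
  rw [finitary_iff]
  intro I h K hK hKf
  exact h K hK hKf K Subset.rfl hKf

lemma Indep.finitize {M : Matroid α} {I : Set α} (h : M.Indep I) : (finitize M).Indep I :=
  fun _ hJ _ => h.subset hJ

lemma closure_finitize_subset {M : Matroid α} {S : Set α} {x : α} (hS : M.Indep S)
    (hx : x ∈ (finitize M).closure S) : x ∈ M.closure S := by
  by_contra hcon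
  have hxE : x ∈ M.E := (finitize M).closure_subset_ground S hx
  have hxS : x ∉ S := fun h => hcon (M.subset_closure S hS.subset_ground h)
  have hins : M.Indep (insert x S) := (hS.insert_indep_iff_of_notMem hxS).2 ⟨hxE, hcon⟩
  have hins' := Indep.finitize hins
  have := ((Indep.finitize hS).insert_indep_iff_of_notMem hxS).1 hins'
  exact this.2 hx

/-- The main reduction. -/
theorem cap_main (M : Matroid α) (c : α → ι) (r : ι → ℕ∞)
    (hcount : {i | r i ≠ ⊤ ∧ (M.E ∩ c ⁻¹' {i}).Infinite}.Countable)
    (hM : ∀ C, M.IsCircuit C → (capMatroid M.E c r).Indep C → C.Finite) :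
    SatisfiesIntersection M (capMatroid M.E c r) := by
  classical
  set N := capMatroid M.E c r with hN
  set Mf := finitize M with hMf
  have hMfE : Mf.E = M.E := rfl
  set F := M.E ∩ c ⁻¹' {i | r i = ⊤} with hF
  have hFE : F ⊆ Mf.E := inter_subset_left
  obtain ⟨BF, hBF⟩ := Mf.exists_isBasis F hFE
  set M1 := Mf ／ F with hM1
  let E' : Set (α × ℕ) := {p | p.1 ∈ M.E \ F ∧ ((p.2 : ℕ) : ℕ∞) < r (c p.1)}
  let M' : Matroid (α × ℕ) := M1.comapOn E' Prod.fst
  let c' : α × ℕ → ι × ℕ := fun p => (c p.1, p.2)
  let K' : Set (ι × ℕ) := {i | r i ≠ ⊤ ∧ (M.E ∩ c ⁻¹' {i}).Infinite} ×ˢ univ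
  have hK' : K'.Countable := hcount.prod countable_univ
  have hfin' : ∀ x ∉ K', {p ∈ M'.E | c' p = x}.Finite := by
    rintro ⟨i, j⟩ hx
    have hi : ¬ (r i ≠ ⊤ ∧ (M.E ∩ c ⁻¹' {i}).Infinite) := fun h => hx ⟨h, mem_univ _⟩
    by_cases hri : r i = ⊤
    · refine (finite_empty (α := α × ℕ)).subset ?_
      rintro ⟨e, j'⟩ ⟨hp, hcp⟩
      have hce : c e = i := congrArg Prod.fst hcp
      exact hp.1.2 ⟨hp.1.1, by simp only [mem_preimage, mem_ofPred_eq, hce]; exact hri⟩
    · have hfinA : (M.E ∩ c ⁻¹' {i}).Finite := by
        by_contra h
        exact hi ⟨hri, h⟩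
      refine (hfinA.image (fun e => (e, j))).subset ?_
      rintro ⟨e, j'⟩ ⟨hp, hcp⟩
      have hce : c e = i := congrArg Prod.fst hcp
      have hj : j' = j := congrArg Prod.snd hcp
      exact ⟨e, ⟨hp.1.1, hce⟩, by simp [hj]⟩
  obtain ⟨J1, J2, hdisj, hind, hinj, hcov⟩ := finitary_main M' c' K' hK' hfin'
  -- unpack the independence in the comap
  have hind' : M1.Indep (Prod.fst '' (J1 ∪ J2)) ∧ InjOn Prod.fst (J1 ∪ J2) ∧ J1 ∪ J2 ⊆ E' :=
    comapOn_indep_iff.1 hind
  obtain ⟨hi1, hfstinj, hJE'⟩ := hind'
  have hcontr := hBF.contract_indep_iff.1 hi1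
  have hMfI : Mf.Indep (Prod.fst '' (J1 ∪ J2) ∪ BF) := hcontr.1
  set JM := Prod.fst '' J1 ∪ BF with hJM
  set JN := Prod.fst '' J2 with hJN
  have hunion : JM ∪ JN = Prod.fst '' (J1 ∪ J2) ∪ BF := by
    rw [hJM, hJN, image_union]
    ext x
    simp only [mem_union]
    tauto
  have hBFF : BF ⊆ F := hBF.subset
  -- capacity
  have hNind : N.Indep (JM ∪ JN) := by
    rw [hN, capMatroid_indep_iff]
    refine ⟨?_, fun i => ?_⟩
    · rw [hunion]
      exact union_subset (image_subset_iff.2 fun p hp => (hJE' hp).1.1)
        (hBFF.trans inter_subset_left)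
    · by_cases hri : r i = ⊤
      · rw [hri]; exact le_top
      · obtain ⟨n, hn⟩ := ENat.ne_top_iff_exists.1 hri
        set Ji := (J1 ∪ J2) ∩ {p | c p.1 = i} with hJi
        have hsub : (JM ∪ JN) ∩ c ⁻¹' {i} ⊆ Prod.fst '' Ji := by
          rw [hunion]
          rintro x ⟨hx | hx, hxi⟩
          · obtain ⟨p, hp, rfl⟩ := hx
            exact ⟨p, ⟨hp, hxi⟩, rfl⟩
          · have hxF := hBFF hx
            have h3 : r (c x) = ⊤ := hxF.2
            rw [show c x = i from hxi] at h3
            exact absurd h3 hri
        have hsndinj : InjOn Prod.snd Ji := by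
          intro p hp q hq hpq
          apply hinj hp.1 hq.1
          show (c p.1, p.2) = (c q.1, q.2)
          rw [show c p.1 = i from hp.2, show c q.1 = i from hq.2, hpq]
        have hsndsub : Prod.snd '' Ji ⊆ (↑(Finset.range n) : Set ℕ) := by
          rintro _ ⟨p, hp, rfl⟩
          have h4 := (hJE' hp.1).2
          rw [show c p.1 = i from hp.2, ← hn] at h4
          simp only [Finset.coe_range, mem_Iio]
          exact_mod_cast h4
        calc ((JM ∪ JN) ∩ c ⁻¹' {i}).encard ≤ (Prod.fst '' Ji).encard := encard_le_encard hsub
          _ ≤ Ji.encard := encard_image_le _ _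
          _ = (Prod.snd '' Ji).encard := (hsndinj.encard_image).symm
          _ ≤ (↑(Finset.range n) : Set ℕ).encard := encard_le_encard hsndsub
          _ = r i := by rw [encard_coe_eq_coe_finsetCard, Finset.card_range, hn]
  -- independence in `M`
  have hMI : M.Indep (JM ∪ JN) := by
    by_contra hdep
    have hsubE : JM ∪ JN ⊆ M.E := (capMatroid_indep_iff.1 hNind).1
    have hdep' : M.Dep (JM ∪ JN) := ⟨hdep, hsubE⟩
    obtain ⟨C, hCsub, hC⟩ := hdep'.exists_isCircuit_subset
    have hCfin := hM C hC (hNind.subset hCsub)
    have hMfI' : Mf.Indep (JM ∪ JN) := by rw [hunion]; exact hMfI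
    exact hC.not_indep (hMfI' C hCsub hCfin)
  have hJMind : M.Indep JM := hMI.subset subset_union_left
  have hJNind : N.Indep JN := hNind.subset subset_union_right
  refine ⟨JM ∪ JN, JM, JN, hMI, hNind, rfl, ?_, ?_⟩
  · -- disjointness
    rw [disjoint_left]
    rintro x (⟨p, hp, rfl⟩ | hx) ⟨q, hq, hqx⟩
    · have hpq : q = p := hfstinj (Or.inr hq) (Or.inl hp) hqx
      subst hpq
      exact disjoint_left.1 hdisj hp hq
    · have := hBFF hx
      rw [← hqx] at this
      exact (hJE' (Or.inr hq)).1.2 this
  · apply Subset.antisymm
    · refine union_subset (M.closure_subset_ground _) ?_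
      exact N.closure_subset_ground _
    · intro f hf
      by_cases hfF : f ∈ F
      · left
        have h5 : f ∈ Mf.closure BF := hBF.subset_closure hfF
        exact closure_finitize_subset hJMind
          (Mf.closure_subset_closure subset_union_right h5)
      · -- a class of finite capacity
        have hri : r (c f) ≠ ⊤ := fun h => hfF ⟨hf, h⟩
        obtain ⟨n, hn⟩ := ENat.ne_top_iff_exists.1 hri
        by_cases hex : ∃ j : ℕ, j < n ∧ (f, j) ∈ M'.closure J1
        · -- spanned on the `M` side
          left
          obtain ⟨j, hjn, hjcl⟩ := hex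
          have hJ1ind : M'.Indep J1 := hind.subset subset_union_left
          have hfj : (f, j) ∈ E' := ⟨⟨hf, hfF⟩, by
            simp only [← hn]; exact_mod_cast hjn⟩
          have h6 : f ∈ M1.closure (Prod.fst '' J1) := by
            by_cases hmem : (f, j) ∈ J1
            · have hsub1 : Prod.fst '' J1 ⊆ M1.E :=
                (hi1.subset (image_mono subset_union_left)).subset_ground
              exact M1.subset_closure _ hsub1 ⟨(f, j), hmem, rfl⟩
            · have hdep := (hJ1ind.mem_closure_iff_of_notMem hmem).1 hjcl
              have hni := hdep.not_indep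
              rw [comapOn_indep_iff] at hni
              have hsubE' : insert (f, j) J1 ⊆ E' :=
                insert_subset hfj (subset_union_left.trans hJE')
              have hfJ1 : M1.Indep (Prod.fst '' J1) := hi1.subset (image_mono subset_union_left)
              by_cases hf1 : f ∈ Prod.fst '' J1
              · exact M1.subset_closure _ hfJ1.subset_ground hf1
              · have hinj2 : InjOn Prod.fst (insert (f, j) J1) := by
                  rintro p (rfl | hp) q (rfl | hq) hpq
                  · rfl
                  · exact absurd ⟨q, hq, hpq.symm⟩ hf1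
                  · exact absurd ⟨p, hp, hpq⟩ hf1
                  · exact hfstinj (Or.inl hp) (Or.inl hq) hpq
                have hnotind : ¬ M1.Indep (insert f (Prod.fst '' J1)) := by
                  intro h
                  apply hni
                  refine ⟨?_, hinj2, hsubE'⟩
                  rwa [image_insert_eq]
                have hfE1 : f ∈ M1.E := ⟨hf, hfF⟩
                by_contra hncl
                exact hnotind ((hfJ1.insert_indep_iff_of_notMem hf1).2 ⟨hfE1, hncl⟩)
          rw [hM1, contract_closure_eq] at h6
          have h7 : f ∈ Mf.closure JM := by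
            refine Mf.closure_subset_closure_of_subset_closure ?_ h6.1
            refine union_subset ?_ ?_
            · refine subset_trans ?_ (Mf.subset_closure JM ?_)
              · exact subset_union_left
              · have : Mf.Indep JM := hMfI.subset
                  (union_subset_union_left _ (image_mono subset_union_left))
                exact this.subset_ground
            · exact hBF.subset_closure.trans
                (Mf.closure_subset_closure subset_union_right)
          exact closure_finitize_subset hJMind h7
        · -- all copies lead to a hit class: the class is saturated on the `N` side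
          right
          push Not at hex
          have hhit : ∀ j : ℕ, j < n → ∃ t ∈ J2, c' t = (c f, j) := by
            intro j hjn
            have hfj : (f, j) ∈ M'.E := ⟨⟨hf, hfF⟩, by
              simp only [← hn]; exact_mod_cast hjn⟩
            rcases hcov (f, j) hfj with h | h
            · exact absurd h (hex j hjn)
            · exact h
          have : Nonempty (α × ℕ) := ⟨(f, 0)⟩
          choose! t ht htc using hhit
          by_cases hfJN : f ∈ JN
          · exact N.subset_closure JN hJNind.subset_ground hfJN
          · rw [hJNind.mem_closure_iff_of_notMem hfJN]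
            refine ⟨fun hcon => ?_, insert_subset hf hJNind.subset_ground⟩
            have hcap := (capMatroid_indep_iff.1 hcon).2 (c f)
            -- count the class
            have hinjt : InjOn (fun j => (t j).1) (↑(Finset.range n) : Set ℕ) := by
              intro a ha b hb hab
              have ha' : a < n := by simpa using ha
              have hb' : b < n := by simpa using hb
              have h8 : t a = t b := hfstinj (Or.inr (ht a ha')) (Or.inr (ht b hb')) hab
              have h9 := congrArg Prod.snd (htc a ha')
              have h10 := congrArg Prod.snd (htc b hb')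
              simp only [c'] at h9 h10
              rw [← h9, ← h10, h8]
            have hsub : insert f ((fun j => (t j).1) '' (↑(Finset.range n) : Set ℕ)) ⊆
                insert f JN ∩ c ⁻¹' {c f} := by
              rintro x (rfl | ⟨j, hj, rfl⟩)
              · exact ⟨mem_insert _ _, rfl⟩
              · have hj' : j < n := by simpa using hj
                refine ⟨Or.inr ⟨t j, ht j hj', rfl⟩, ?_⟩
                have h11 := congrArg Prod.fst (htc j hj')
                exact h11
            have hnotin : f ∉ (fun j => (t j).1) '' (↑(Finset.range n) : Set ℕ) := by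
              rintro ⟨j, hj, rfl⟩
              have hj' : j < n := by simpa using hj
              exact hfJN ⟨t j, ht j hj', rfl⟩
            have hcount2 : (insert f ((fun j => (t j).1) '' (↑(Finset.range n) : Set ℕ))).encard
                = (n : ℕ∞) + 1 := by
              rw [encard_insert_of_notMem hnotin, hinjt.encard_image,
                encard_coe_eq_coe_finsetCard, Finset.card_range]
            have h12 := (encard_le_encard hsub).trans hcap
            rw [hcount2, ← hn] at h12
            have : n + 1 ≤ n := by exact_mod_cast h12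
            omega

end Vale.Agent.P068
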