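import Mathlib

/-!
# Waves in a matroid with a partition into classes

`c : α → ι` is the class map.  A wave is a union of classes `W` with a partial transversal `J`
(independent) that spans `W`.  The key lemma `good`: if `M` has no nonempty wave and `a` is such that
`insert a J` is independent and spans `W` then `J` hits every class of `W`.
-/

namespace Vale.Agent.P068

open Set Matroid

variable {α ι : Type*}

/-- `W` is a union of classes of `M.E`. -/
def Sat (M : Matroid α) (c : α → ι) (W : Set α) : Prop :=
  ∀ e ∈ W, ∀ f ∈ M.E, c f = c e → f ∈ W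

/-- A wave. -/
structure IsWave (M : Matroid α) (c : α → ι) (W J : Set α) : Prop where
  sub : W ⊆ M.E
  sat : Sat M c W
  JW : J ⊆ W
  indep : M.Indep J
  inj : InjOn c J
  span : W ⊆ M.closure J

/-- Only the empty wave. -/
def NoWave (M : Matroid α) (c : α → ι) : Prop := ∀ W J, IsWave M c W J → W = ∅

/-- Every wave hits all classes of its union. -/
def Unhind (M : Matroid α) (c : α → ι) : Prop :=
  ∀ W J, IsWave M c W J → ∀ e ∈ W, ∃ t ∈ J, c t = c e

lemma NoWave.unhind {M : Matroid α} {c : α → ι} (h : NoWave M c) : Unhind M c := by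
  intro W J hW e he
  have := h W J hW
  simp [this] at he

/-- The level sets: classes from which a free element of `W` can be reached in `≤ n` exchange steps. -/
def Lvl (M : Matroid α) (c : α → ι) (W J : Set α) : ℕ → Set ι
  | 0 => {x | ∃ w ∈ W, c w = x ∧ w ∉ M.closure J}
  | n + 1 => Lvl M c W J n ∪
      {x | ∃ b ∈ W, c b = x ∧ ∃ t ∈ J, c t ∈ Lvl M c W J n ∧ b ∉ M.closure (J \ {t})}

lemma lvl_mono (M : Matroid α) (c : α → ι) (W J : Set α) {i j : ℕ} (h : i ≤ j) :
    Lvl M c W J i ⊆ Lvl M c W J j := by
  induction h with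
  | refl => exact Subset.rfl
  | step _ ih => exact ih.trans subset_union_left

lemma lvl_step {M : Matroid α} {c : α → ι} {W J : Set α} {n : ℕ} {b t : α} (hb : b ∈ W) (ht : t ∈ J)
    (htn : c t ∈ Lvl M c W J n) (hbt : b ∉ M.closure (J \ {t})) : c b ∈ Lvl M c W J (n + 1) :=
  Or.inr ⟨b, hb, rfl, t, ht, htn, hbt⟩

/-- The exchange step transports the levels up to the exact distance. -/
lemma lvl_transport {M : Matroid α} {c : α → ι} {W J : Set α} {n : ℕ} {b t : α}
    (hJ : M.Indep J) (hJE : J ⊆ M.E) (hb : b ∈ W) (hbJ : b ∉ J)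
    (hk : c b ∉ Lvl M c W J n)
    (hcl : M.closure (insert b (J \ {t})) = M.closure J) :
    ∀ j, j ≤ n → Lvl M c W J j ⊆ Lvl M c W (insert b (J \ {t})) j := by
  intro j
  induction j with
  | zero =>
    intro _ x hx
    obtain ⟨w, hw, hcw, hwcl⟩ := hx
    exact ⟨w, hw, hcw, by rwa [hcl]⟩
  | succ j ih =>
    intro hj x hx
    have ihj := ih (by omega)
    rcases hx with hx | ⟨bx, hbx, hcbx, tx, htx, hctx, hbxt⟩
    · exact Or.inl (ihj hx)
    · -- `tx ≠ t` because otherwise `c b` would be in level `j+1`
      right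
      refine ⟨bx, hbx, hcbx, tx, ?_, ihj hctx, ?_⟩
      · -- tx ∈ J₁
        have hne : tx ≠ t := by
          rintro rfl
          -- then `b ∉ closure (J \ {tx})`, or else ...
          by_contra _
          have hb1 : b ∈ M.closure (J \ {tx}) := by
            by_contra hcon
            exact hk (lvl_mono M c W J hj (lvl_step hb htx hctx hcon))
          -- `b` in closure of `J \ {tx}`: then closure (insert b (J \ {tx})) = closure (J \ {tx})
          have hh : M.closure (insert b (J \ {tx})) = M.closure (J \ {tx}) := by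
            rw [← closure_insert_closure_eq_closure_insert, insert_eq_of_mem hb1, closure_closure]
          rw [hh] at hcl
          -- so `tx` would lie in the closure of `J \ {tx}`, contradiction with independence
          have : tx ∈ M.closure (J \ {tx}) := by
            rw [hcl]; exact M.subset_closure J hJE htx
          exact (hJ.notMem_closure_sdiff_of_mem htx) this
        exact Or.inr ⟨htx, by simpa using hne⟩
      · intro hmem
        apply hbxt
        have hsub : insert b (J \ {t}) \ {tx} ⊆ M.closure (J \ {tx}) := by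
          rintro y ⟨hy, hyne⟩
          rcases hy with rfl | hy
          · by_contra hcon
            exact hk (lvl_mono M c W J hj (lvl_step hb htx hctx hcon))
          · exact M.subset_closure (J \ {tx}) (sdiff_subset.trans hJE) ⟨hy.1, hyne⟩
        exact (M.closure_subset_closure_of_subset_closure hsub) hmem

/-- Exchange along a path of levels. -/
lemma exch_main {M : Matroid α} {c : α → ι} {W : Set α} (hW : W ⊆ M.E) (n : ℕ) :
    ∀ (J : Set α) (k : ι), M.Indep J → J ⊆ W → InjOn c J → k ∉ c '' J → k ∈ Lvl M c W J n →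
      ∃ J' w, M.Indep J' ∧ J' ⊆ W ∧ InjOn c J' ∧ M.closure J' = M.closure J ∧ w ∈ W ∧
        w ∉ M.closure J ∧ c w ∉ c '' J' := by
  induction n with
  | zero =>
    intro J k hJ hJW hinj hk hl
    obtain ⟨w, hw, hcw, hwcl⟩ := hl
    exact ⟨J, w, hJ, hJW, hinj, rfl, hw, hwcl, by rwa [hcw]⟩
  | succ n ih =>
    intro J k hJ hJW hinj hk hl
    by_cases hkn : k ∈ Lvl M c W J n
    · exact ih J k hJ hJW hinj hk hkn
    rcases hl with hl | ⟨b, hb, rfl, t, ht, hctn, hbt⟩
    · exact absurd hl hkn
    have hbJ : b ∉ J := fun h => hk ⟨b, h, rfl⟩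
    have hbE : b ∈ M.E := hW hb
    have hJE : J ⊆ M.E := hJ.subset_ground
    have hbcl : b ∈ M.closure J := by
      by_contra hcon
      exact hkn (lvl_mono M c W J (Nat.zero_le n) ⟨b, hb, rfl, hcon⟩)
    set J₁ := insert b (J \ {t}) with hJ₁
    have hJt : M.Indep (J \ {t}) := hJ.subset sdiff_subset
    have hJ₁ind : M.Indep J₁ := hJt.insert_indep_iff.2 (Or.inl ⟨hbE, hbt⟩)
    have hinsert : insert t (J \ {t}) = J := by
      simp [ht]
    have hcl : M.closure J₁ = M.closure J := by
      have h1 : b ∈ M.closure (insert t (J \ {t})) \ M.closure (J \ {t}) := by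
        rw [hinsert]; exact ⟨hbcl, hbt⟩
      have := closure_insert_congr h1
      rw [hinsert] at this
      exact this
    have hJ₁W : J₁ ⊆ W := by
      rintro y (rfl | hy)
      · exact hb
      · exact hJW hy.1
    have hJ₁inj : InjOn c J₁ := by
      rintro x (rfl | hx) y (rfl | hy) hxy
      · rfl
      · exact absurd ⟨y, hy.1, hxy.symm⟩ hk
      · exact absurd ⟨x, hx.1, hxy⟩ hk
      · exact hinj hx.1 hy.1 hxy
    have hct : c t ∉ c '' J₁ := by
      rintro ⟨y, (rfl | hy), hyt⟩
      · exact hk ⟨t, ht, hyt.symm⟩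
      · exact hy.2 (hinj hy.1 ht hyt)
    have hlvl : c t ∈ Lvl M c W J₁ n :=
      lvl_transport hJ hJE hb hbJ hkn hcl n le_rfl hctn
    obtain ⟨J', w, h1, h2, h3, h4, h5, h6, h7⟩ := ih J₁ (c t) hJ₁ind hJ₁W hJ₁inj hct hlvl
    exact ⟨J', w, h1, h2, h3, h4.trans hcl, h5, by rwa [hcl] at h6, h7⟩

/-- The key lemma: in a system without nonempty waves, adding a single element to a partial
transversal cannot span an unhit class. -/
lemma good {M : Matroid α} {c : α → ι} (hno : NoWave M c) {W J : Set α} {a : α}
    (hWE : W ⊆ M.E) (hsat : Sat M c W) (hJW : J ⊆ W) (hind : M.Indep (insert a J)) (haJ : a ∉ J)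
    (hinj : InjOn c J) (hspan : W ⊆ M.closure (insert a J)) :
    ∀ e ∈ W, ∃ t ∈ J, c t = c e := by
  intro e0 he0
  by_contra hcon
  have hk : c e0 ∉ c '' J := by
    rintro ⟨t, ht, hte⟩
    exact hcon ⟨t, ht, hte⟩
  have hJ : M.Indep J := hind.subset (subset_insert _ _)
  by_cases hD : ∃ n, c e0 ∈ Lvl M c W J n
  · obtain ⟨n, hn⟩ := hD
    obtain ⟨J', w, h1, h2, h3, h4, h5, h6, h7⟩ := exch_main hWE n J (c e0) hJ hJW hinj hk hn
    have hwE : w ∈ M.E := hWE h5
    have hindI : M.Indep (insert w J') :=
      h1.insert_indep_iff.2 (Or.inl ⟨hwE, by rwa [h4]⟩)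
    have hwa : w ∈ M.closure (insert a J) \ M.closure J := ⟨hspan h5, h6⟩
    have hae := (closure_exchange hwa).1
    have hcl2 : M.closure (insert w J') = M.closure (insert w J) :=
      closure_insert_congr_right h4
    have hW2 : IsWave M c W (insert w J') := by
      refine ⟨hWE, hsat, ?_, hindI, ?_, ?_⟩
      · rintro y (rfl | hy)
        · exact h5
        · exact h2 hy
      · rintro x (rfl | hx) y (rfl | hy) hxy
        · rfl
        · exact absurd ⟨y, hy, hxy.symm⟩ h7
        · exact absurd ⟨x, hx, hxy⟩ h7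
        · exact h3 hx hy hxy
      · refine hspan.trans (M.closure_subset_closure_of_subset_closure ?_)
        rw [hcl2]
        rintro y (rfl | hy)
        · exact hae
        · exact M.closure_subset_closure (subset_insert _ _)
            (M.subset_closure J hJ.subset_ground hy)
    have := hno _ _ hW2
    simp [this] at he0
  · -- the complement of the levels is a wave
    push Not at hD
    set R := {e ∈ W | ∀ n, c e ∉ Lvl M c W J n} with hR
    set J0 := J ∩ R with hJ0
    have hspan0 : R ⊆ M.closure J0 := by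
      intro b hb
      have hbcl : b ∈ M.closure J := by
        by_contra h
        exact hb.2 0 ⟨b, hb.1, rfl, h⟩
      have hall : ∀ t ∈ J, t ∉ R → b ∈ M.closure (J \ {t}) := by
        intro t ht htR
        by_contra h
        have : ∃ n, c t ∈ Lvl M c W J n := by
          by_contra h2
          push Not at h2
          exact htR ⟨hJW ht, h2⟩
        obtain ⟨n, hn⟩ := this
        exact hb.2 (n + 1) (lvl_step hb.1 ht hn h)
      by_cases hemp : J \ R = ∅
      · have : J0 = J := by
          rw [hJ0]; exact inter_eq_left.2 (sdiff_eq_empty.1 hemp)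
        rwa [this]
      · obtain ⟨t0, ht0⟩ := nonempty_iff_ne_empty.2 hemp
        let Js : Set (Set α) := (fun t => J \ {t}) '' (J \ R)
        have hJsne : Js.Nonempty := ⟨_, t0, ht0, rfl⟩
        have hJssub : ∀ K ∈ Js, K ⊆ J := by
          rintro K ⟨t, _, rfl⟩
          exact sdiff_subset
        have hcl := hJ.closure_sInter_eq_biInter_closure_of_forall_subset hJsne hJssub
        have hinter : ⋂₀ Js = J0 := by
          ext y
          constructor
          · intro hy
            have hyJ : y ∈ J := (hy _ ⟨t0, ht0, rfl⟩).1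
            refine ⟨hyJ, ?_⟩
            by_contra hyR
            have := hy _ ⟨y, ⟨hyJ, hyR⟩, rfl⟩
            exact this.2 rfl
          · rintro ⟨hyJ, hyR⟩
            rintro K ⟨t, ht, rfl⟩
            refine ⟨hyJ, ?_⟩
            rintro rfl
            exact ht.2 hyR
        rw [hinter] at hcl
        rw [hcl]
        simp only [mem_iInter]
        rintro K ⟨t, ht, rfl⟩
        exact hall t ht.1 ht.2
    have hW0 : IsWave M c R J0 := by
      refine ⟨fun x hx => hWE hx.1, ?_, inter_subset_right, hJ.subset inter_subset_left,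
        hinj.mono inter_subset_left, hspan0⟩
      intro x hx f hf hcf
      refine ⟨hsat x hx.1 f hf hcf, ?_⟩
      rw [hcf]
      exact hx.2
    have he0R : e0 ∈ R := ⟨he0, hD⟩
    have := hno _ _ hW0
    simp [this] at he0R

end Vale.Agent.P068
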