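import Mathlib

/-!
# Statement-level definitions for P068: generalized partition matroids and the intersection property.
-/

namespace Vale.Agent.P068

open Set Matroid

variable {α ι : Type*}

/-- `(M, N)` satisfies intersection: a common independent set `J = JM ⊔ JN` with
`cl_M JM ∪ cl_N JN = E`. -/
def SatisfiesIntersection (M N : Matroid α) : Prop :=
  ∃ J JM JN, M.Indep J ∧ N.Indep J ∧ J = JM ∪ JN ∧ Disjoint JM JN ∧
    M.closure JM ∪ N.closure JN = M.E

/-- Auxiliary independence predicate of the generalized partition matroid. -/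
def CapIndep (E : Set α) (c : α → ι) (r : ι → ℕ∞) (I : Set α) : Prop :=
  I ⊆ E ∧ ∀ i, (I ∩ c ⁻¹' {i}).encard ≤ r i

lemma capIndep_subset {E : Set α} {c : α → ι} {r : ι → ℕ∞} {I J : Set α}
    (hJ : CapIndep E c r J) (hIJ : I ⊆ J) : CapIndep E c r I :=
  ⟨hIJ.trans hJ.1, fun i => (encard_le_encard (inter_subset_inter_left _ hIJ)).trans (hJ.2 i)⟩

lemma capIndep_compact {E : Set α} {c : α → ι} {r : ι → ℕ∞} (I : Set α)
    (h : ∀ J, J ⊆ I → J.Finite → CapIndep E c r J) : CapIndep E c r I := by
  refine ⟨fun x hx => (h {x} (singleton_subset_iff.2 hx) (finite_singleton x)).1 rfl, fun i => ?_⟩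
  by_contra hcon
  push Not at hcon
  obtain ⟨n, hn⟩ := ENat.ne_top_iff_exists.1 (ne_top_of_lt hcon)
  have hle : ((n + 1 : ℕ) : ℕ∞) ≤ (I ∩ c ⁻¹' {i}).encard := by
    rw [← hn] at hcon
    exact Order.add_one_le_of_lt hcon |> fun h => by simpa using h
  obtain ⟨K, hK, hKcard⟩ := exists_subset_encard_eq hle
  have hKfin : K.Finite := finite_of_encard_eq_coe hKcard
  have h1 := (h K (hK.trans inter_subset_left) hKfin).2 i
  have h2 : K ∩ c ⁻¹' {i} = K := inter_eq_left.2 (hK.trans inter_subset_right)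
  rw [h2, hKcard, ← hn] at h1
  have : n + 1 ≤ n := by exact_mod_cast h1
  omega

lemma capIndep_aug {E : Set α} {c : α → ι} {r : ι → ℕ∞} ⦃I J : Set α⦄
    (hI : CapIndep E c r I) (hIfin : I.Finite) (hJ : CapIndep E c r J) (hJfin : J.Finite)
    (hcard : I.ncard < J.ncard) :
    ∃ e ∈ J, e ∉ I ∧ CapIndep E c r (insert e I) := by
  classical
  -- pigeonhole on classes
  obtain ⟨i, hi⟩ : ∃ i, (I ∩ c ⁻¹' {i}).ncard < (J ∩ c ⁻¹' {i}).ncard := by
    by_contra hcon
    push Not at hcon
    have h1 : J.ncard = ∑ b ∈ hJfin.toFinset.image c, (J ∩ c ⁻¹' {b}).ncard := by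
      rw [ncard_eq_toFinset_card J hJfin,
        Finset.card_eq_sum_card_image c hJfin.toFinset]
      refine Finset.sum_congr rfl fun b _ => ?_
      rw [ncard_eq_toFinset_card _ (hJfin.inter_of_left _)]
      congr 1
      ext x
      simp
    have h2 : ∑ b ∈ hJfin.toFinset.image c, (I ∩ c ⁻¹' {b}).ncard ≤ I.ncard := by
      have h3 : I.ncard = ∑ b ∈ hIfin.toFinset.image c ∪ hJfin.toFinset.image c,
          (I ∩ c ⁻¹' {b}).ncard := by
        rw [ncard_eq_toFinset_card I hIfin,
          Finset.card_eq_sum_card_fiberwise (f := c)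
            (t := hIfin.toFinset.image c ∪ hJfin.toFinset.image c)
            (fun x hx => Finset.mem_coe.2 (Finset.mem_union_left _
              (Finset.mem_image_of_mem c (Finset.mem_coe.1 hx))))]
        refine Finset.sum_congr rfl fun b _ => ?_
        rw [ncard_eq_toFinset_card _ (hIfin.inter_of_left _)]
        congr 1
        ext x
        simp
      rw [h3]
      exact Finset.sum_le_sum_of_subset Finset.subset_union_right
    have h4 := Finset.sum_le_sum (s := hJfin.toFinset.image c) (fun b _ => hcon b)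
    rw [← h1] at h4
    omega
  -- a new element in that class
  have hfinJi : (J ∩ c ⁻¹' {i}).Finite := hJfin.inter_of_left _
  have hfinIi : (I ∩ c ⁻¹' {i}).Finite := hIfin.inter_of_left _
  obtain ⟨e, he, heI⟩ := exists_mem_notMem_of_ncard_lt_ncard hi hfinIi
  have heI' : e ∉ I := fun h => heI ⟨h, he.2⟩
  refine ⟨e, he.1, heI', insert_subset (hJ.1 he.1) hI.1, fun k => ?_⟩
  by_cases hk : k = i
  · subst hk
    have h5 : insert e I ∩ c ⁻¹' {k} = insert e (I ∩ c ⁻¹' {k}) := by
      ext x
      simp only [mem_inter_iff, mem_insert_iff, mem_preimage, mem_singleton_iff]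
      constructor
      · rintro ⟨rfl | h, h2⟩
        · exact Or.inl rfl
        · exact Or.inr ⟨h, h2⟩
      · rintro (rfl | ⟨h, h2⟩)
        · exact ⟨Or.inl rfl, he.2⟩
        · exact ⟨Or.inr h, h2⟩
    rw [h5, encard_insert_of_notMem (fun h => heI h)]
    refine le_trans ?_ (hJ.2 k)
    rw [← hfinIi.cast_ncard_eq, ← hfinJi.cast_ncard_eq]
    exact_mod_cast hi
  · have h5 : insert e I ∩ c ⁻¹' {k} = I ∩ c ⁻¹' {k} := by
      ext x
      simp only [mem_inter_iff, mem_insert_iff, mem_preimage, mem_singleton_iff]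
      constructor
      · rintro ⟨rfl | h, h2⟩
        · exact absurd (h2.symm.trans he.2) hk
        · exact ⟨h, h2⟩
      · rintro ⟨h, h2⟩
        exact ⟨Or.inr h, h2⟩
    rw [h5]
    exact hI.2 k

/-- The generalized partition matroid on `E`, that is the direct sum of the uniform matroids
`U_{r i}(E ∩ c⁻¹{i})` of (possibly infinite) rank `r i`: a set is independent iff it is contained in
`E` and meets the class `c⁻¹{i}` in at most `r i` elements, for each `i`. -/
def capMatroid (E : Set α) (c : α → ι) (r : ι → ℕ∞) : Matroid α :=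
  (IndepMatroid.ofFinitaryCardAugment E (CapIndep E c r)
    ⟨empty_subset _, fun i => by simp⟩
    (fun _ _ hJ hIJ => capIndep_subset hJ hIJ)
    (fun _ _ hI hIfin hJ hJfin hcard => capIndep_aug hI hIfin hJ hJfin hcard)
    capIndep_compact
    (fun _ hI => hI.1)).matroid

@[simp] lemma capMatroid_E (E : Set α) (c : α → ι) (r : ι → ℕ∞) : (capMatroid E c r).E = E := rfl

lemma capMatroid_indep_iff {E : Set α} {c : α → ι} {r : ι → ℕ∞} {I : Set α} :
    (capMatroid E c r).Indep I ↔ I ⊆ E ∧ ∀ i, (I ∩ c ⁻¹' {i}).encard ≤ r i := Iff.rfl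

end Vale.Agent.P068
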