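import Mathlib

/-!
# General pairs of matroids: waves, dead sets, and augmenting exchanges.

For a common independent set `H` of `M` and `N`, the exchange digraph has arcs `x → y`
(`x ∉ H`, `y ∈ H`, `x ∉ cl_M (H - y)`) and `y → z` (`y ∈ H`, `z ∉ H`, `z ∈ cl_N H`,
`z ∉ cl_N (H - y)`).  `Lv n` is the set of elements reaching a sink (`∉ cl_M H`) in `≤ n` arcs, and
`Dead` the set of elements reaching no sink (the largest set closed under arcs without sinks).
-/

namespace Vale.Agent.P068.Gen

open Set Matroid

variable {α : Type*} {M N : Matroid α} {H : Set α}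

lemma mem_closure_of_forall_sdiff {M : Matroid α} {H A : Set α} (hH : M.Indep H) (hA : A ⊆ H) {x : α}
    (hx : x ∈ M.closure H) (h : ∀ y ∈ H \ A, x ∈ M.closure (H \ {y})) : x ∈ M.closure A := by
  by_cases hemp : H \ A = ∅
  · have : A = H := Subset.antisymm hA (sdiff_eq_empty.1 hemp)
    rwa [this]
  · obtain ⟨t0, ht0⟩ := nonempty_iff_ne_empty.2 hemp
    let Js : Set (Set α) := (fun t => H \ {t}) '' (H \ A)
    have hJsne : Js.Nonempty := ⟨_, t0, ht0, rfl⟩
    have hJssub : ∀ K ∈ Js, K ⊆ H := by
      rintro K ⟨t, _, rfl⟩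
      exact sdiff_subset
    have hcl := hH.closure_sInter_eq_biInter_closure_of_forall_subset hJsne hJssub
    have hinter : ⋂₀ Js = A := by
      ext y
      constructor
      · intro hy
        have hyH : y ∈ H := (hy _ ⟨t0, ht0, rfl⟩).1
        by_contra hyA
        have := hy _ ⟨y, ⟨hyH, hyA⟩, rfl⟩
        exact this.2 rfl
      · intro hyA
        rintro K ⟨t, ht, rfl⟩
        refine ⟨hA hyA, ?_⟩
        rintro rfl
        exact ht.2 hyA
    rw [hinter] at hcl
    rw [hcl]
    simp only [mem_iInter]
    rintro K ⟨t, ht, rfl⟩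
    exact h t ht

lemma mem_closure_inter {M : Matroid α} {K A B : Set α} (hK : M.Indep K) (hA : A ⊆ K) (hB : B ⊆ K)
    {x : α} (hxA : x ∈ M.closure A) (hxB : x ∈ M.closure B) : x ∈ M.closure (A ∩ B) := by
  rw [(hK.subset (union_subset hA hB)).closure_inter_eq_inter_closure]
  exact ⟨hxA, hxB⟩

/-- A wave: `I` is an `M`-basis of `W` and independent in `N / (E - W)`. -/
structure IsWave (M N : Matroid α) (W I : Set α) : Prop where
  sub : W ⊆ M.E
  IW : I ⊆ W
  indep : M.Indep I
  span : W ⊆ M.closure I
  skew : ∀ e ∈ I, e ∉ N.closure ((I \ {e}) ∪ (N.E \ W))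

/-- Only the empty wave. -/
def NoWave (M N : Matroid α) : Prop := ∀ W I, IsWave M N W I → W = ∅

/-- A set closed under arcs and without sinks. -/
structure Closed (M N : Matroid α) (H Q : Set α) : Prop where
  sub : Q ⊆ M.E
  mspan : ∀ x ∈ Q, x ∉ H → x ∈ M.closure (H ∩ Q)
  nclosed : ∀ y ∈ Q, y ∈ H → ∀ z ∈ M.E, z ∈ N.closure H → z ∉ N.closure (H \ {y}) → z ∈ Q

/-- The elements from which no sink can be reached. -/
def Dead (M N : Matroid α) (H : Set α) : Set α := {z | ∃ Q, Closed M N H Q ∧ z ∈ Q}

lemma closed_dead : Closed M N H (Dead M N H) := by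
  refine ⟨?_, ?_, ?_⟩
  · rintro z ⟨Q, hQ, hz⟩
    exact hQ.sub hz
  · rintro x ⟨Q, hQ, hx⟩ hxH
    refine M.closure_subset_closure (inter_subset_inter_right _ ?_) (hQ.mspan x hx hxH)
    intro w hw
    exact ⟨Q, hQ, hw⟩
  · rintro y ⟨Q, hQ, hy⟩ hyH z hz h1 h2
    exact ⟨Q, hQ, hQ.nclosed y hy hyH z hz h1 h2⟩

/-- Levels: elements reaching a sink in at most `n` arcs. -/
def Lv (M N : Matroid α) (H : Set α) : ℕ → Set α
  | 0 => M.E \ M.closure H
  | n + 1 => Lv M N H n ∪
      ({x | x ∈ M.E ∧ x ∉ H ∧ ∃ y ∈ H, y ∈ Lv M N H n ∧ x ∉ M.closure (H \ {y})} ∪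
       {y | y ∈ H ∧ ∃ z ∈ M.E, z ∉ H ∧ z ∈ N.closure H ∧ z ∉ N.closure (H \ {y}) ∧
          z ∈ Lv M N H n})

lemma lv_mono (M N : Matroid α) (H : Set α) {i j : ℕ} (h : i ≤ j) : Lv M N H i ⊆ Lv M N H j := by
  induction h with
  | refl => exact Subset.rfl
  | step _ ih => exact ih.trans subset_union_left

lemma lv_marc {n : ℕ} {x y : α} (hx : x ∈ M.E) (hxH : x ∉ H) (hy : y ∈ H)
    (hyn : y ∈ Lv M N H n) (hxy : x ∉ M.closure (H \ {y})) : x ∈ Lv M N H (n + 1) :=
  Or.inr (Or.inl ⟨hx, hxH, y, hy, hyn, hxy⟩)

lemma lv_narc {n : ℕ} {y z : α} (hy : y ∈ H) (hz : z ∈ M.E) (hzH : z ∉ H)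
    (hzcl : z ∈ N.closure H) (hzy : z ∉ N.closure (H \ {y})) (hzn : z ∈ Lv M N H n) :
    y ∈ Lv M N H (n + 1) :=
  Or.inr (Or.inr ⟨hy, z, hz, hzH, hzcl, hzy, hzn⟩)

/-- The complement of the levels is closed. -/
lemma closed_compl_lv (hM : M.Indep H) (hN : N.Indep H) :
    Closed M N H (M.E \ ⋃ n, Lv M N H n) := by
  refine ⟨sdiff_subset, ?_, ?_⟩
  · rintro x ⟨hxE, hxL⟩ hxH
    have hx0 : x ∈ M.closure H := by
      by_contra hcon
      exact hxL (mem_iUnion.2 ⟨0, hxE, hcon⟩)
    refine mem_closure_of_forall_sdiff hM inter_subset_left hx0 ?_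
    rintro y ⟨hyH, hyQ⟩
    by_contra hcon
    have hyL : y ∈ ⋃ n, Lv M N H n := by
      by_contra hy
      exact hyQ ⟨hyH, hM.subset_ground hyH, hy⟩
    obtain ⟨n, hn⟩ := mem_iUnion.1 hyL
    exact hxL (mem_iUnion.2 ⟨n + 1, lv_marc hxE hxH hyH hn hcon⟩)
  · rintro y ⟨hyE, hyL⟩ hyH z hzE hzcl hzy
    refine ⟨hzE, fun hzL => ?_⟩
    obtain ⟨n, hn⟩ := mem_iUnion.1 hzL
    by_cases hzH : z ∈ H
    · by_cases hzy' : z = y
      · subst hzy'
        exact hyL hzL
      · exact hzy (N.subset_closure _ (sdiff_subset.trans hN.subset_ground) ⟨hzH, hzy'⟩)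
    · exact hyL (mem_iUnion.2 ⟨n + 1, lv_narc hyH hzE hzH hzcl hzy hn⟩)

/-- Elements outside `Dead` lie on a level. -/
lemma exists_lv_of_not_dead (hM : M.Indep H) (hN : N.Indep H) {z : α} (hz : z ∈ M.E)
    (hzd : z ∉ Dead M N H) : ∃ n, z ∈ Lv M N H n := by
  by_contra hcon
  push Not at hcon
  exact hzd ⟨_, closed_compl_lv hM hN, hz, fun h => (hcon _) (mem_iUnion.1 h).choose_spec⟩

/-- Elements on a level are not dead. -/
lemma not_dead_of_lv (hM : M.Indep H) {n : ℕ} {z : α} (hz : z ∈ Lv M N H n) :
    z ∉ Dead M N H := by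
  induction n generalizing z with
  | zero =>
    intro hd
    have hcd := closed_dead (M := M) (N := N) (H := H)
    by_cases hzH : z ∈ H
    · exact hz.2 (M.subset_closure _ hM.subset_ground hzH)
    · exact hz.2 (M.closure_subset_closure inter_subset_left (hcd.mspan z hd hzH))
  | succ n ih =>
    intro hd
    have hcd := closed_dead (M := M) (N := N) (H := H)
    rcases hz with hz | ⟨_, hzH, y, hy, hyn, hzy⟩ | ⟨hzH, w, hw, _, hwcl, hwz, hwn⟩
    · exact ih hz hd
    · have h1 := hcd.mspan z hd hzH
      by_cases hyd : y ∈ Dead M N H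
      · exact ih hyn hyd
      · apply hzy
        refine M.closure_subset_closure ?_ h1
        rintro w ⟨hwH, hwd⟩
        refine ⟨hwH, ?_⟩
        rintro rfl
        exact hyd hwd
    · exact ih hwn (hcd.nclosed z hd hzH w hw hwcl hwz)

/-- The recursive form of the augmentation along a shortest path. -/
lemma aug_rec (hM : M.Indep H) (hN : N.Indep H) :
    ∀ n, ∀ x, x ∈ M.E → x ∉ H → x ∈ Lv M N H n → (∀ m, m < n → x ∉ Lv M N H m) →
    ∃ K s, M.Indep K ∧ s ∈ M.E ∧ s ∉ M.closure H ∧ M.closure K = M.closure (insert s H) ∧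
      x ∈ K ∧ s ∈ K ∧ N.Indep (K \ {x}) ∧ N.closure (K \ {x}) = N.closure H ∧
      (∀ w ∈ K, w ∉ H → w ∈ Lv M N H n) ∧ (∀ w ∈ H, w ∉ K → w ∈ Lv M N H n) ∧
      (∀ w ∈ K, w ∉ H → w ≠ x → ∃ m, m < n ∧ w ∈ Lv M N H m) ∧ (K \ H).Finite ∧ (H \ K).Finite := by
  intro n
  induction n using Nat.strong_induction_on with
  | _ n ih =>
    intro x hxE hxH hxn hxmin
    by_cases hx0 : x ∈ M.closure H
    · -- the inner step
      have hHE : H ⊆ M.E := hM.subset_ground
      have hHcl : H ⊆ M.closure H := M.subset_closure H hHE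
      cases n with
      | zero => exact absurd hx0 hxn.2
      | succ n1 =>
        have hxn' := hxn
        rcases hxn with h | ⟨_, _, y, hyH, hyn1, hxy⟩ | ⟨h, _⟩
        · exact absurd h (hxmin n1 (by omega))
        · cases n1 with
          | zero => exact absurd (hHcl hyH) hyn1.2
          | succ n2 =>
            have hyn1' := hyn1
            rcases hyn1 with h | ⟨_, h, _⟩ | ⟨_, z, hzE, hzH, hzcl, hzy, hzn2⟩
            · exact absurd (lv_marc hxE hxH hyH h hxy) (hxmin _ (by omega))
            · exact absurd hyH h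
            · have hzmin : ∀ m, m < n2 → z ∉ Lv M N H m := by
                intro m hm hzm
                have h1 := lv_narc hyH hzE hzH hzcl hzy hzm
                exact hxmin _ (by omega) (lv_marc hxE hxH hyH h1 hxy)
              obtain ⟨K, s, hK, hsE, hscl, hclK, hzK, hsK, hNK, hNcl, hKH, hHK, hKm, hfin1, hfin2⟩ :=
                ih n2 (by omega) z hzE hzH hzn2 hzmin
              have hyK : y ∈ K := by
                by_contra hcon
                exact hxmin _ (by omega) (lv_marc hxE hxH hyH (hHK y hyH hcon) hxy)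
              have hxK : x ∉ K := fun hcon => hxmin n2 (by omega) (hKH x hcon hxH)
              have hzy' : z ≠ y := fun h => hzH (h ▸ hyH)
              -- the `M` side
              have hxA : x ∈ M.closure (H ∩ K) := by
                refine mem_closure_of_forall_sdiff hM inter_subset_left hx0 ?_
                rintro y1 ⟨hy1, hy1A⟩
                by_contra hcon
                have hy1K : y1 ∉ K := fun h => hy1A ⟨hy1, h⟩
                exact hxmin _ (by omega) (lv_marc hxE hxH hy1 (hHK y1 hy1 hy1K) hcon)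
              have hxKcl : x ∈ M.closure K := M.closure_subset_closure inter_subset_right hxA
              have hxKy : x ∉ M.closure (K \ {y}) := by
                intro hcon
                have h1 := mem_closure_inter hK inter_subset_right sdiff_subset hxA hcon
                apply hxy
                refine M.closure_subset_closure ?_ h1
                rintro w ⟨⟨hwH, _⟩, _, hwy⟩
                exact ⟨hwH, hwy⟩
              have hKy : M.Indep (K \ {y}) := hK.subset sdiff_subset
              have hK'ind : M.Indep (insert x (K \ {y})) :=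
                hKy.insert_indep_iff.2 (Or.inl ⟨hxE, hxKy⟩)
              have hinsy : insert y (K \ {y}) = K := by simp [hyK]
              have hclK' : M.closure (insert x (K \ {y})) = M.closure K := by
                have h1 : x ∈ M.closure (insert y (K \ {y})) \ M.closure (K \ {y}) := by
                  rw [hinsy]; exact ⟨hxKcl, hxKy⟩
                have := closure_insert_congr h1
                rw [hinsy] at this
                exact this
              -- the `N` side
              have hyG : y ∈ K \ {z} := ⟨hyK, by simpa using hzy'.symm⟩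
              have hzG : z ∈ N.closure (K \ {z}) := by rw [hNcl]; exact hzcl
              have hGy : (K \ {z}) \ {y} ⊆ N.closure (H \ {y}) := by
                rintro w ⟨⟨hwK, hwz⟩, hwy⟩
                by_cases hwH : w ∈ H
                · exact N.subset_closure _ (sdiff_subset.trans hN.subset_ground) ⟨hwH, hwy⟩
                · by_contra hcon
                  obtain ⟨m, hm, hwm⟩ := hKm w hwK hwH (by simpa using hwz)
                  have hwcl : w ∈ N.closure H := by
                    rw [← hNcl]
                    exact N.subset_closure _ hNK.subset_ground ⟨hwK, hwz⟩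
                  have h1 := lv_narc hyH (hK.subset_ground hwK) hwH hwcl hcon hwm
                  exact hxmin _ (by omega) (lv_marc hxE hxH hyH h1 hxy)
              have hzGy : z ∉ N.closure ((K \ {z}) \ {y}) := fun hcon =>
                hzy (N.closure_subset_closure_of_subset_closure hGy hcon)
              have hzNE : z ∈ N.E := N.closure_subset_ground _ hzcl
              have hGyind : N.Indep ((K \ {z}) \ {y}) := hNK.subset sdiff_subset
              have hNnew : N.Indep (insert z ((K \ {z}) \ {y})) :=
                hGyind.insert_indep_iff.2 (Or.inl ⟨hzNE, hzGy⟩)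
              have hinsy2 : insert y ((K \ {z}) \ {y}) = K \ {z} := by simp [hyG]
              have hNclnew : N.closure (insert z ((K \ {z}) \ {y})) = N.closure H := by
                have h1 : z ∈ N.closure (insert y ((K \ {z}) \ {y})) \
                    N.closure ((K \ {z}) \ {y}) := by
                  rw [hinsy2]; exact ⟨hzG, hzGy⟩
                have := closure_insert_congr h1
                rw [hinsy2, hNcl] at this
                exact this
              have hseq : insert x (K \ {y}) \ {x} = insert z ((K \ {z}) \ {y}) := by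
                ext w
                simp only [mem_sdiff, mem_insert_iff, mem_singleton_iff]
                constructor
                · rintro ⟨rfl | ⟨hw1, hw2⟩, hw3⟩
                  · exact absurd rfl hw3
                  · by_cases hwz : w = z
                    · exact Or.inl hwz
                    · exact Or.inr ⟨⟨hw1, hwz⟩, hw2⟩
                · rintro (rfl | ⟨⟨hw1, _⟩, hw3⟩)
                  · refine ⟨Or.inr ⟨hzK, hzy'⟩, ?_⟩
                    rintro rfl
                    exact hxK hzK
                  · refine ⟨Or.inr ⟨hw1, hw3⟩, ?_⟩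
                    rintro rfl
                    exact hxK hw1
              refine ⟨insert x (K \ {y}), s, hK'ind, hsE, hscl, hclK'.trans hclK, mem_insert _ _, ?_,
                ?_, ?_, ?_, ?_, ?_, ?_, ?_⟩
              · refine Or.inr ⟨hsK, ?_⟩
                rintro rfl
                exact hscl (hHcl hyH)
              · rw [hseq]; exact hNnew
              · rw [hseq]; exact hNclnew
              · rintro w (rfl | ⟨hw, _⟩) hwH
                · exact hxn'
                · exact lv_mono M N H (by omega) (hKH w hw hwH)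
              · intro w hw hwK'
                by_cases hwy : w = y
                · subst hwy
                  exact lv_mono M N H (by omega) hyn1'
                · have hwK : w ∉ K := fun h => hwK' (Or.inr ⟨h, by simpa using hwy⟩)
                  exact lv_mono M N H (by omega) (hHK w hw hwK)
              · rintro w (rfl | ⟨hw, _⟩) hwH hwx
                · exact absurd rfl hwx
                · exact ⟨n2, by omega, hKH w hw hwH⟩
              · refine (hfin1.insert x).subset ?_
                rintro w ⟨rfl | ⟨hw, _⟩, hwH⟩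
                · exact mem_insert _ _
                · exact Or.inr ⟨hw, hwH⟩
              · refine (hfin2.insert y).subset ?_
                rintro w ⟨hw, hwK'⟩
                by_cases hwy : w = y
                · subst hwy; exact mem_insert _ _
                · exact Or.inr ⟨hw, fun h => hwK' (Or.inr ⟨h, by simpa using hwy⟩)⟩
        · exact absurd h hxH
    · -- `x` is a sink
      have hxn0 : x ∈ Lv M N H 0 := ⟨hxE, hx0⟩
      have hne : insert x H \ {x} = H := by simp [hxH]
      refine ⟨insert x H, x, hM.insert_indep_iff.2 (Or.inl ⟨hxE, hx0⟩), hxE, hx0, rfl,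
        mem_insert _ _, mem_insert _ _, ?_, ?_, ?_, ?_, ?_, ?_, ?_⟩
      · rw [hne]; exact hN
      · rw [hne]
      · rintro w (rfl | hw) hwH
        · exact lv_mono M N H (Nat.zero_le n) hxn0
        · exact absurd hw hwH
      · intro w hw hwK
        exact absurd (mem_insert_of_mem _ hw) hwK
      · rintro w (rfl | hw) hwH hwx
        · exact absurd rfl hwx
        · exact absurd hw hwH
      · refine (finite_singleton x).subset ?_
        rintro w ⟨rfl | hw, hwH⟩
        · rfl
        · exact absurd hw hwH
      · refine finite_empty.subset ?_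
        rintro w ⟨hw, hwK⟩
        exact absurd (mem_insert_of_mem _ hw) hwK

/-- An augmentation from a source which is not dead. -/
lemma aug (hE : M.E = N.E) (hM : M.Indep H) (hN : N.Indep H) {d : α} (hdE : d ∈ M.E)
    (hdN : d ∉ N.closure H) (hdD : d ∉ Dead M N H) :
    ∃ K s, M.Indep K ∧ N.Indep K ∧ N.closure K = N.closure (insert d H) ∧ d ∈ K ∧ s ∈ K ∧
      s ∈ M.E ∧ s ∉ M.closure H ∧ M.closure K = M.closure (insert s H) ∧
      (∀ w ∈ K, w ∉ H → w ∉ Dead M N H) ∧ (∀ w ∈ H, w ∉ K → w ∉ Dead M N H) ∧
      K \ {d} ⊆ N.closure H ∧ (K \ H).Finite ∧ (H \ K).Finite := by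
  classical
  have hdH : d ∉ H := fun h => hdN (N.subset_closure H hN.subset_ground h)
  obtain ⟨n0, hn0⟩ := exists_lv_of_not_dead hM hN hdE hdD
  have hex : ∃ n, d ∈ Lv M N H n := ⟨n0, hn0⟩
  have hn := Nat.find_spec hex
  have hmin : ∀ m, m < Nat.find hex → d ∉ Lv M N H m := fun m hm => Nat.find_min hex hm
  obtain ⟨K, s, hK, hsE, hscl, hclK, hdK, hsK, hNK, hNcl, hKH, hHK, _, hfin1, hfin2⟩ :=
    aug_rec hM hN _ d hdE hdH hn hmin
  have hdNE : d ∈ N.E := hE ▸ hdE
  have hdKd : d ∉ N.closure (K \ {d}) := by rwa [hNcl]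
  have hins : insert d (K \ {d}) = K := by simp [hdK]
  refine ⟨K, s, hK, ?_, ?_, hdK, hsK, hsE, hscl, hclK, ?_, ?_, ?_, hfin1, hfin2⟩
  · rw [← hins]
    exact hNK.insert_indep_iff.2 (Or.inl ⟨hdNE, hdKd⟩)
  · rw [← hins, ← closure_insert_closure_eq_closure_insert, hNcl,
      closure_insert_closure_eq_closure_insert]
  · exact fun w hw hwH => not_dead_of_lv hM (hKH w hw hwH)
  · exact fun w hw hwK => not_dead_of_lv hM (hHK w hw hwK)
  · rw [← hNcl]
    exact N.subset_closure _ hNK.subset_ground

/-- Arcs out of dead elements persist through an augmentation. -/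
lemma aug_persist (hE : M.E = N.E) (hN : N.Indep H) {K : Set α} {d : α} (hdE : d ∈ M.E)
    (hdN : d ∉ N.closure H) (hKd : K \ {d} ⊆ N.closure H)
    (hKdead : ∀ w ∈ K, w ∉ H → w ∉ Dead M N H) (hKE : K ⊆ M.E) {y z : α} (hyD : y ∈ Dead M N H)
    (hyH : y ∈ H) (hzcl : z ∈ N.closure H) (hz : z ∉ N.closure (H \ {y})) :
    z ∉ N.closure (K \ {y}) := by
  intro hcon
  have hHE : H ⊆ N.E := hN.subset_ground
  have hdNE : d ∈ N.E := hE ▸ hdE
  have hsub : K \ {y} ⊆ N.closure (insert d (H \ {y})) := by
    rintro w ⟨hwK, hwy⟩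
    by_cases hwd : w = d
    · subst hwd
      exact N.subset_closure _ (insert_subset hdNE (sdiff_subset.trans hHE)) (mem_insert _ _)
    by_cases hwH : w ∈ H
    · exact N.subset_closure _ (insert_subset hdNE (sdiff_subset.trans hHE))
        (Or.inr ⟨hwH, hwy⟩)
    · refine N.closure_subset_closure (subset_insert _ _) ?_
      by_contra hw2
      have hw1 : w ∈ N.closure H := hKd ⟨hwK, by simpa using hwd⟩
      exact hKdead w hwK hwH (closed_dead.nclosed y hyD hyH w (hKE hwK) hw1 hw2)
  have h1 : z ∈ N.closure (insert d (H \ {y})) :=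
    N.closure_subset_closure_of_subset_closure hsub hcon
  have h2 := mem_closure_insert hz h1
  apply hdN
  refine N.closure_subset_closure_of_subset_closure ?_ h2
  rintro w (rfl | hw)
  · exact hzcl
  · exact N.subset_closure H hHE hw.1

/-- From a closed set containing all sources to a wave. -/
lemma wave_of_closed (hM : M.Indep H) (hN : N.Indep H) (hE : M.E = N.E) {Q : Set α}
    (hQ : Closed M N H Q) (hsrc : ∀ z ∈ M.E, z ∉ N.closure H → z ∈ Q) :
    IsWave M N Q (H ∩ Q) := by
  refine ⟨hQ.sub, inter_subset_right, hM.subset inter_subset_left, ?_, ?_⟩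
  · intro x hx
    by_cases hxH : x ∈ H
    · exact M.subset_closure _ (inter_subset_left.trans hM.subset_ground) ⟨hxH, hx⟩
    · exact hQ.mspan x hx hxH
  · rintro e ⟨heH, heQ⟩ hcon
    apply hN.notMem_closure_sdiff_of_mem heH
    refine N.closure_subset_closure_of_subset_closure ?_ hcon
    have hsubE : H \ {e} ⊆ N.E := sdiff_subset.trans hN.subset_ground
    refine union_subset ?_ ?_
    · rintro w ⟨⟨hwH, _⟩, hwe⟩
      exact N.subset_closure _ hsubE ⟨hwH, hwe⟩
    · rintro z ⟨hzE, hzQ⟩
      have hzE' : z ∈ M.E := hE ▸ hzE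
      have hzcl : z ∈ N.closure H := by
        by_contra h
        exact hzQ (hsrc z hzE' h)
      by_contra h
      exact hzQ (hQ.nclosed e heQ heH z hzE' hzcl h)

end Vale.Agent.P068.Gen
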