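import Vale.Agent.P068.Gen1

/-!
# Maximal waves for general pairs, the contraction lemma, and one augmentation step.
-/

namespace Vale.Agent.P068.Gen

open Set Matroid

variable {α : Type*} {M N : Matroid α} {H : Set α}

/-- The extension order on waves. -/
def WaveLE {M N : Matroid α} (p q : {p : Set α × Set α // IsWave M N p.1 p.2}) : Prop :=
  p.1.1 ⊆ q.1.1 ∧ p.1.2 = q.1.2 ∩ p.1.1

lemma WaveLE.trans' {p q r : {p : Set α × Set α // IsWave M N p.1 p.2}} (h1 : WaveLE p q)
    (h2 : WaveLE q r) : WaveLE p r := by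
  refine ⟨h1.1.trans h2.1, ?_⟩
  rw [h1.2, h2.2, inter_assoc, inter_eq_right.2 h1.1]

/-- Chains of waves have upper bounds, for finitary matroids. -/
lemma wave_chain_bound [M.Finitary] [N.Finitary]
    (C : Set {p : Set α × Set α // IsWave M N p.1 p.2}) (hC : IsChain WaveLE C) :
    ∃ ub, ∀ a ∈ C, WaveLE a ub := by
  classical
  have hcmp : ∀ p ∈ C, ∀ q ∈ C, p.1.2 ⊆ q.1.2 ∨ q.1.2 ⊆ p.1.2 := by
    intro p hp q hq
    by_cases hpq : p = q
    · subst hpq; exact Or.inl Subset.rfl
    · rcases hC hp hq hpq with h | h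
      · left
        rw [h.2]; exact inter_subset_left
      · right
        rw [h.2]; exact inter_subset_left
  set W := ⋃ p ∈ C, p.1.1 with hW
  set J := ⋃ p ∈ C, p.1.2 with hJ
  have hfin : ∀ F : Set α, F.Finite → F ⊆ J → F = ∅ ∨ ∃ p ∈ C, F ⊆ p.1.2 := by
    intro F hF
    induction F, hF using Set.Finite.induction_on with
    | empty => intro _; exact Or.inl rfl
    | @insert x F _ _ ih =>
      intro hsub
      right
      have hx : x ∈ J := hsub (mem_insert _ _)
      obtain ⟨p, hp, hxp⟩ := mem_iUnion₂.1 hx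
      rcases ih ((subset_insert _ _).trans hsub) with rfl | ⟨q, hq, hFq⟩
      · exact ⟨p, hp, by simpa using hxp⟩
      · rcases hcmp p hp q hq with h | h
        · exact ⟨q, hq, insert_subset (h hxp) hFq⟩
        · exact ⟨p, hp, insert_subset hxp (hFq.trans h)⟩
  have hind : M.Indep J := by
    refine indep_of_forall_finite_subset_indep _ fun F hFJ hF => ?_
    rcases hfin F hF hFJ with rfl | ⟨p, _, hp⟩
    · exact M.empty_indep
    · exact p.2.indep.subset hp
  have hJW : J ⊆ W := iUnion₂_subset fun p hp =>
    p.2.IW.trans (subset_biUnion_of_mem (u := fun p => p.1.1) hp)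
  have hWave : IsWave M N W J := by
    refine ⟨iUnion₂_subset fun p _ => p.2.sub, hJW, hind, ?_, ?_⟩
    · refine iUnion₂_subset fun p hp => p.2.span.trans (M.closure_subset_closure ?_)
      exact subset_biUnion_of_mem (u := fun p => p.1.2) hp
    · rintro e heJ hcon
      obtain ⟨F, hFsub, hFfin, -, heF⟩ := exists_mem_finite_closure_of_mem_closure hcon
      have hF1 : (insert e (F ∩ J)).Finite := (hFfin.inter_of_left J).insert e
      have hF1J : insert e (F ∩ J) ⊆ J := insert_subset heJ inter_subset_right
      rcases hfin _ hF1 hF1J with h | ⟨p, hp, hpF⟩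
      · exact absurd h (insert_nonempty _ _).ne_empty
      · refine p.2.skew e (hpF (mem_insert _ _)) (N.closure_subset_closure ?_ heF)
        intro f hf
        by_cases hfJ : f ∈ J
        · left
          refine ⟨hpF (Or.inr ⟨hf, hfJ⟩), ?_⟩
          rcases hFsub hf with h | h
          · exact h.2
          · exact absurd (hJW hfJ) h.2
        · right
          rcases hFsub hf with h | h
          · exact absurd h.1 hfJ
          · exact ⟨h.1, fun hfW => h.2 (subset_biUnion_of_mem (u := fun p => p.1.1) hp hfW)⟩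
  refine ⟨⟨(W, J), hWave⟩, fun a ha => ?_⟩
  refine ⟨subset_biUnion_of_mem (u := fun p => p.1.1) ha, ?_⟩
  apply Subset.antisymm
  · exact subset_inter (subset_biUnion_of_mem (u := fun p => p.1.2) ha) a.2.IW
  · rintro x ⟨hxJ, hxa⟩
    obtain ⟨q, hq, hxq⟩ := mem_iUnion₂.1 hxJ
    by_cases haq : a = q
    · subst haq; exact hxq
    · rcases hC ha hq haq with h | h
      · rw [h.2]; exact ⟨hxq, hxa⟩
      · rw [h.2] at hxq; exact hxq.1

/-- A set skew to `R`, added to a subset of `R`, does not span new elements of `R`. -/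
lemma notMem_closure_union_of_skew [N.Finitary] {A R I : Set α} {e : α} (hAR : A ⊆ R) (heR : e ∈ R)
    (he : e ∉ N.closure A) (hI : ∀ i ∈ I, i ∉ N.closure ((I \ {i}) ∪ R)) :
    e ∉ N.closure (A ∪ I) := by
  have key : ∀ G : Set α, G.Finite → G ⊆ I → e ∉ N.closure (A ∪ G) := by
    intro G hG
    induction G, hG using Set.Finite.induction_on with
    | empty => intro _; simpa using he
    | @insert i G hiG _ ih =>
      intro hsub hcon
      have hGI : G ⊆ I := (subset_insert _ _).trans hsub
      have h1 := ih hGI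
      rw [union_insert] at hcon
      have h2 := mem_closure_insert h1 hcon
      refine hI i (hsub (mem_insert _ _)) (N.closure_subset_closure ?_ h2)
      rintro x (rfl | hx | hx)
      · exact Or.inr heR
      · exact Or.inr (hAR hx)
      · refine Or.inl ⟨hGI hx, ?_⟩
        rintro rfl
        exact hiG hx
  intro hcon
  obtain ⟨F, hFsub, hFfin, -, heF⟩ := exists_mem_finite_closure_of_mem_closure hcon
  refine key (F ∩ I) (hFfin.inter_of_left I) inter_subset_right
    (N.closure_subset_closure ?_ heF)
  intro f hf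
  rcases hFsub hf with h | h
  · exact Or.inl h
  · exact Or.inr ⟨hf, h⟩

/-- Existence of a wave after whose removal no nonempty wave remains. -/
lemma exists_max_wave [M.Finitary] [N.Finitary] (hE : M.E = N.E) :
    ∃ W I, IsWave M N W I ∧ NoWave (M ／ W) (N ↾ (N.E \ W)) := by
  obtain ⟨m, hm⟩ := exists_maximal_of_chains_bounded (r := WaveLE (M := M) (N := N))
    wave_chain_bound (fun h1 h2 => h1.trans' h2)
  obtain ⟨⟨W, I⟩, hwave⟩ := m
  refine ⟨W, I, hwave, ?_⟩
  intro W' J' hw'
  simp only at hwave hm
  have hB : M.IsBasis I W := hwave.indep.isBasis_of_subset_of_subset_closure hwave.IW hwave.span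
  have hsubE : W' ⊆ M.E \ W := hw'.sub
  have hind := (hB.contract_indep_iff).1 hw'.indep
  have hspan' : W' ⊆ M.closure (J' ∪ I) := by
    intro x hx
    have h1 := hw'.span hx
    rw [contract_closure_eq] at h1
    refine M.closure_subset_closure_of_subset_closure ?_ h1.1
    rintro y (hy | hy)
    · exact M.subset_closure (J' ∪ I) hind.1.subset_ground (Or.inl hy)
    · exact M.closure_subset_closure subset_union_right (hwave.span hy)
  set R := N.E \ W with hR
  have hRE : R ⊆ N.E := sdiff_subset
  have hMR : M.E \ W = R := by rw [hR, hE]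
  have hJ'R : J' ⊆ R := hw'.IW.trans (hsubE.trans hMR.subset)
  have hW2 : IsWave M N (W ∪ W') (J' ∪ I) := by
    refine ⟨union_subset hwave.sub (hsubE.trans sdiff_subset),
      union_subset (hw'.IW.trans subset_union_right) (hwave.IW.trans subset_union_left),
      hind.1, union_subset ?_ hspan', ?_⟩
    · exact hwave.span.trans (M.closure_subset_closure subset_union_right)
    · have hcompl : N.E \ (W ∪ W') = R \ W' := by
        ext x
        simp only [hR, mem_sdiff, mem_union, not_or]
        tauto
      have hIskew : ∀ i ∈ I, i ∉ N.closure ((I \ {i}) ∪ R) := hwave.skew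
      rw [hcompl]
      rintro e (he | he) hcon
      · -- `e ∈ J'`
        have heR : e ∈ R := hJ'R he
        have hA : (J' \ {e}) ∪ (R \ W') ⊆ R :=
          union_subset (sdiff_subset.trans hJ'R) sdiff_subset
        have h1 : e ∉ N.closure ((J' \ {e}) ∪ (R \ W')) := by
          intro h
          apply hw'.skew e he
          show e ∈ (N ↾ R).closure ((J' \ {e}) ∪ (R \ W'))
          rw [restrict_closure_eq N hA hRE]
          exact ⟨h, heR⟩
        refine notMem_closure_union_of_skew hA heR h1 hIskew (N.closure_subset_closure ?_ hcon)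
        rintro x (⟨hx1 | hx1, hx2⟩ | hx)
        · exact Or.inl (Or.inl ⟨hx1, hx2⟩)
        · exact Or.inr hx1
        · exact Or.inl (Or.inr hx)
      · -- `e ∈ I`
        refine hIskew e he (N.closure_subset_closure ?_ hcon)
        rintro x (⟨hx1 | hx1, hx2⟩ | hx)
        · exact Or.inr (hJ'R hx1)
        · exact Or.inl ⟨hx1, hx2⟩
        · exact Or.inr hx.1
  have hle : WaveLE (⟨(W, I), hwave⟩ : {p : Set α × Set α // IsWave M N p.1 p.2})
      ⟨(W ∪ W', J' ∪ I), hW2⟩ := by
    refine ⟨subset_union_left, ?_⟩
    simp only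
    apply Subset.antisymm
    · exact subset_inter subset_union_right hwave.IW
    · rintro x ⟨hx | hx, hxW⟩
      · exact absurd hxW (hsubE (hw'.IW hx)).2
      · exact hx
  have hge := hm _ hle
  have hsub : W ∪ W' ⊆ W := hge.1
  apply eq_empty_of_forall_notMem
  intro x hx
  exact (hsubE hx).2 (hsub (Or.inr hx))

/-- The `M`-part of the system after freezing `H`. -/
def PM (M : Matroid α) (H : Set α) : Matroid α := M ／ M.closure H

/-- The `N`-part of the system after freezing `H`. -/
def PN (M N : Matroid α) (H : Set α) : Matroid α := (N ／ H) ↾ (M.E \ M.closure H)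

lemma PM_E (M : Matroid α) (H : Set α) : (PM M H).E = M.E \ M.closure H := rfl

lemma PN_E (M N : Matroid α) (H : Set α) : (PN M N H).E = M.E \ M.closure H := rfl

lemma PM_indep (hM : M.Indep H) {S : Set α} :
    (PM M H).Indep S ↔ M.Indep (S ∪ H) ∧ Disjoint (M.closure H) S :=
  hM.isBasis_closure.contract_indep_iff

lemma mem_PM_closure {S : Set α} {e : α} :
    e ∈ (PM M H).closure S ↔ e ∈ M.closure (S ∪ H) ∧ e ∉ M.closure H := by
  rw [PM, contract_closure_eq, closure_union_closure_right_eq]
  rfl

lemma subset_PN_ground (hE : M.E = N.E) (hM : M.Indep H) : M.E \ M.closure H ⊆ (N ／ H).E := by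
  rintro z ⟨hz, hzcl⟩
  refine ⟨hE ▸ hz, fun hzH => hzcl (M.subset_closure H hM.subset_ground hzH)⟩

lemma mem_PN_closure (hE : M.E = N.E) (hM : M.Indep H) {S : Set α} {e : α}
    (hS : S ⊆ M.E \ M.closure H) (he : e ∈ M.E \ M.closure H) :
    e ∈ (PN M N H).closure S ↔ e ∈ N.closure (S ∪ H) := by
  rw [PN, restrict_closure_eq _ hS (subset_PN_ground hE hM), contract_closure_eq]
  have heH : e ∉ H := (subset_PN_ground hE hM he).2
  constructor
  · rintro ⟨⟨h, _⟩, _⟩
    exact h
  · intro h
    exact ⟨⟨h, heH⟩, he⟩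

lemma PN_indep_of (hN : N.Indep H) {S : Set α} (h : (PN M N H).Indep S) : N.Indep (S ∪ H) := by
  have h1 : (N ／ H).Indep S := (restrict_indep_iff.1 h).1
  exact (hN.contract_indep_iff.1 h1).2

instance PM_finitary [M.Finitary] : (PM M H).Finitary := by
  unfold PM; infer_instance

instance PN_finitary [N.Finitary] : (PN M N H).Finitary := by
  unfold PN; infer_instance

/-- The contraction lemma: in a system without waves, a wave of the contraction by `t` is spanned. -/
lemma good_elem (hE : M.E = N.E) (hno : NoWave M N) {t : α} (htE : t ∈ M.E) {W I : Set α}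
    (hWE : W ⊆ M.E) (htW : t ∉ W) (hIW : I ⊆ W) (hind : M.Indep (insert t I))
    (hspan : W ⊆ M.closure (insert t I))
    (hskew : ∀ e ∈ I, e ∉ N.closure ((I \ {e}) ∪ insert t (N.E \ insert t W))) :
    W ⊆ N.closure (insert t I ∪ (N.E \ insert t W)) := by
  intro x hxW
  by_contra hxcl
  set Wp := insert t W with hWp
  set R := N.E \ Wp with hR
  have hWpE : Wp ⊆ M.E := insert_subset htE hWE
  have hWpN : Wp ⊆ N.E := hE ▸ hWpE
  set M1 := M ↾ Wp with hM1
  set C := N ／ R with hC
  have hCE : C.E = Wp := by
    rw [hC, contract_ground, hR]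
    ext y
    constructor
    · rintro ⟨h1, h2⟩
      by_contra h
      exact h2 ⟨h1, h⟩
    · intro h
      exact ⟨hWpN h, fun h2 => h2.2 h⟩
  have hE1 : M1.E = C.E := by rw [hCE]; rfl
  have hRdisj : ∀ y ∈ Wp, y ∉ R := fun y hy h => h.2 hy
  have hclC : ∀ (S : Set α) (y : α), y ∈ Wp → (y ∈ C.closure S ↔ y ∈ N.closure (S ∪ R)) := by
    intro S y hy
    rw [hC, contract_closure_eq]
    exact ⟨fun h => h.1, fun h => ⟨h, hRdisj y hy⟩⟩
  have hclM1 : ∀ S : Set α, S ⊆ Wp → M1.closure S = M.closure S ∩ Wp := fun S hS =>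
    restrict_closure_eq M hS hWpE
  -- no wave in the restricted system
  have hno1 : NoWave M1 C := by
    intro W2 I2 hw2
    have hW2p : W2 ⊆ Wp := hw2.sub
    have hI2p : I2 ⊆ Wp := hw2.IW.trans hW2p
    refine hno W2 I2 ⟨hW2p.trans hWpE, hw2.IW, (restrict_indep_iff.1 hw2.indep).1, ?_, ?_⟩
    · intro y hy
      have := hw2.span hy
      rw [hclM1 _ hI2p] at this
      exact this.1
    · intro e he hcon
      have heW : e ∈ Wp := hI2p he
      apply hw2.skew e he
      rw [hclC _ _ heW]
      refine N.closure_subset_closure ?_ hcon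
      rintro y (hy | ⟨hy1, hy2⟩)
      · exact Or.inl (Or.inl hy)
      · by_cases hyW : y ∈ Wp
        · exact Or.inl (Or.inr ⟨by rw [hCE]; exact hyW, hy2⟩)
        · exact Or.inr ⟨hy1, hyW⟩
  -- the common independent set `I`
  have hIWp : I ⊆ Wp := hIW.trans (subset_insert _ _)
  have hIM : M.Indep I := hind.subset (subset_insert _ _)
  have htI : t ∉ I := fun h => htW (hIW h)
  have hI1 : M1.Indep I := restrict_indep_iff.2 ⟨hIM, hIWp⟩
  have hI2 : C.Indep I := by
    rw [indep_iff_forall_notMem_closure_sdiff']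
    refine ⟨by rw [hCE]; exact hIWp, fun e he hcon => ?_⟩
    rw [hclC _ _ (hIWp he)] at hcon
    refine hskew e he (N.closure_subset_closure ?_ hcon)
    rintro y (hy | hy)
    · exact Or.inl hy
    · exact Or.inr (Or.inr hy)
  have hxWp : x ∈ Wp := Or.inr hxW
  have hxsrc : x ∉ C.closure I := by
    rw [hclC _ _ hxWp]
    intro h
    refine hxcl (N.closure_subset_closure ?_ h)
    rintro y (hy | hy)
    · exact Or.inl (Or.inr hy)
    · exact Or.inr hy
  by_cases hsrc : ∀ z ∈ M1.E, z ∉ C.closure I → z ∈ Dead M1 C I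
  · have hw := wave_of_closed hI1 hI2 hE1 closed_dead hsrc
    have hemp := hno1 _ _ hw
    have : x ∈ Dead M1 C I := hsrc x hxWp hxsrc
    rw [hemp] at this
    exact this
  · push Not at hsrc
    obtain ⟨d, hdE, hdN, hdD⟩ := hsrc
    obtain ⟨K, s, hK1, hK2, _, _, _, hsE, hscl, hclK, _⟩ := aug hE1 hI1 hI2 hdE hdN hdD
    have hsWp : s ∈ Wp := hsE
    have hscl' : s ∉ M.closure I := by
      intro h
      apply hscl
      rw [hclM1 _ hIWp]
      exact ⟨h, hsWp⟩
    have hs_in : s ∈ M.closure (insert t I) := by
      rcases hsWp with rfl | hsW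
      · exact M.subset_closure _ hind.subset_ground (mem_insert _ _)
      · exact hspan hsW
    have hcl2 : M.closure (insert s I) = M.closure (insert t I) :=
      closure_insert_congr ⟨hs_in, hscl'⟩
    have hKW : K ⊆ Wp := hK1.subset_ground
    have hwK : IsWave M1 C Wp K := by
      refine ⟨Subset.rfl, hKW, hK1, ?_, ?_⟩
      · rw [hclK]
        have hins : insert s I ⊆ Wp := insert_subset hsWp hIWp
        rw [hclM1 _ hins, hcl2]
        rintro y (rfl | hy)
        · exact ⟨M.subset_closure _ hind.subset_ground (mem_insert _ _), mem_insert _ _⟩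
        · exact ⟨hspan hy, Or.inr hy⟩
      · intro e he
        have : C.E \ Wp = ∅ := by rw [hCE]; exact Set.sdiff_self
        rw [this, union_empty]
        exact hK2.notMem_closure_sdiff_of_mem he
    have := hno1 _ _ hwK
    rw [this] at hxWp
    exact hxWp

/-- Every element is spanned by the frozen set and the remaining ground set. -/
def Good (M N : Matroid α) (H : Set α) : Prop := M.E ⊆ N.closure (H ∪ (M.E \ M.closure H))

/-- A state. -/
structure St (M N : Matroid α) (H : Set α) : Prop where
  mi : M.Indep H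
  ni : N.Indep H
  nw : NoWave (PM M H) (PN M N H)
  gd : Good M N H

/-- One augmentation step, followed by freezing a maximal wave. -/
lemma step [M.Finitary] [N.Finitary] (hE : M.E = N.E) (hS : St M N H) {d : α} (hdE : d ∈ M.E)
    (hdN : d ∉ N.closure H) (hdD : d ∉ Dead M N H) :
    ∃ H', St M N H' ∧ d ∈ N.closure H' ∧ N.closure H ⊆ N.closure H' ∧
      (∀ w ∈ Dead M N H, (w ∈ H ↔ w ∈ H')) ∧
      (∀ y ∈ Dead M N H, y ∈ H → ∀ z, z ∈ N.closure H → z ∉ N.closure (H \ {y}) →
        z ∉ N.closure (H' \ {y})) := by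
  obtain ⟨K, s, hKM, hKN, hKcl, hdK, hsK, hsE, hscl, hclK, hKdead, hHdead, hKd, -, -⟩ :=
    aug hE hS.mi hS.ni hdE hdN hdD
  have hHE : H ⊆ M.E := hS.mi.subset_ground
  have hKE : K ⊆ M.E := hKM.subset_ground
  have hHclK : M.closure H ⊆ M.closure K := by
    rw [hclK]
    exact M.closure_subset_closure (subset_insert _ _)
  have hHNK : H ⊆ N.closure K := by
    rw [hKcl]
    exact N.subset_closure_of_subset (subset_insert _ _)
      (insert_subset (hE ▸ hdE) hS.ni.subset_ground)
  obtain ⟨W', I', hw, hno'⟩ := exists_max_wave (M := PM M K) (N := PN M N K) rfl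
  set R1 := M.E \ M.closure K with hR1
  have hW'R : W' ⊆ R1 := hw.sub
  have hI'R : I' ⊆ R1 := hw.IW.trans hW'R
  have hI'M := (PM_indep hKM).1 hw.indep
  set H' := I' ∪ K with hH'
  have hH'M : M.Indep H' := hI'M.1
  have hKH' : K ⊆ H' := subset_union_right
  have hI'H' : I' ⊆ H' := subset_union_left
  set R2 := R1 \ W' with hR2
  have hsk : ∀ e ∈ I', e ∉ N.closure ((I' \ {e}) ∪ R2 ∪ K) := by
    intro e he hcon
    have hS1 : (I' \ {e}) ∪ ((PN M N K).E \ W') ⊆ M.E \ M.closure K :=
      union_subset (sdiff_subset.trans hI'R) sdiff_subset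
    exact hw.skew e he ((mem_PN_closure hE hKM hS1 (hI'R he)).2 hcon)
  have hH'N : N.Indep H' := by
    have h1 : (N ／ K).Indep I' := by
      rw [indep_iff_forall_notMem_closure_sdiff']
      refine ⟨hI'R.trans (subset_PN_ground hE hKM), fun e he hcon => ?_⟩
      rw [contract_closure_eq] at hcon
      refine hsk e he (N.closure_subset_closure ?_ hcon.1)
      rintro y (hy | hy)
      · exact Or.inl (Or.inl hy)
      · exact Or.inr hy
    exact (hKN.contract_indep_iff.1 h1).2
  -- the new remainder
  have hW'cl : W' ⊆ M.closure H' := fun z hz => (mem_PM_closure.1 (hw.span hz)).1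
  have hR'' : M.E \ M.closure H' = R2 := by
    ext z
    constructor
    · rintro ⟨hzE, hzcl⟩
      refine ⟨⟨hzE, fun h => hzcl (M.closure_subset_closure hKH' h)⟩, fun h => hzcl (hW'cl h)⟩
    · rintro ⟨⟨hzE, hzK⟩, hzW⟩
      refine ⟨hzE, fun hcl => ?_⟩
      have hw0 : IsWave (PM M K ／ W') (PN M N K ↾ ((PN M N K).E \ W')) {z} ∅ := by
        refine ⟨?_, empty_subset _, empty_indep _, ?_, ?_⟩
        · rw [singleton_subset_iff]
          exact ⟨⟨hzE, hzK⟩, hzW⟩
        · rw [singleton_subset_iff, contract_closure_eq]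
          refine ⟨?_, hzW⟩
          rw [empty_union]
          refine mem_PM_closure.2 ⟨M.closure_subset_closure ?_ hcl, hzK⟩
          exact union_subset_union_left _ hw.IW
        · intro e he
          exact absurd he (notMem_empty e)
      have := hno' _ _ hw0
      exact singleton_ne_empty z this
  -- the new `M`-part
  have hclH' : M.closure K ∪ W' = M.closure H' := by
    apply Subset.antisymm
    · exact union_subset (M.closure_subset_closure hKH') hW'cl
    · intro z hz
      by_cases hzK : z ∈ M.closure K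
      · exact Or.inl hzK
      · right
        by_contra hzW
        have hz2 : z ∈ R2 := ⟨⟨M.closure_subset_ground _ hz, hzK⟩, hzW⟩
        rw [← hR''] at hz2
        exact hz2.2 hz
  have hPM : PM M K ／ W' = PM M H' := by
    rw [PM, PM, contract_contract, hclH']
  have hnw : NoWave (PM M H') (PN M N H') := by
    intro W0 I0 hw0
    have hW0R : W0 ⊆ R2 := by
      have := hw0.sub
      rwa [PM_E, hR''] at this
    have hI0R : I0 ⊆ R2 := hw0.IW.trans hW0R
    have hR2N : R2 ⊆ (PN M N K).E := sdiff_subset
    refine hno' W0 I0 ⟨?_, hw0.IW, ?_, ?_, ?_⟩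
    · rw [hPM]; exact hw0.sub
    · rw [hPM]; exact hw0.indep
    · rw [hPM]; exact hw0.span
    · intro e he hcon
      have hER : (PN M N K ↾ ((PN M N K).E \ W')).E = R2 := rfl
      rw [hER] at hcon
      have hS2 : (I0 \ {e}) ∪ (R2 \ W0) ⊆ R2 :=
        union_subset (sdiff_subset.trans hI0R) sdiff_subset
      have h1 := hcon
      rw [show (PN M N K).E \ W' = R2 from rfl, restrict_closure_eq _ hS2 hR2N] at h1
      have h2 := (mem_PN_closure hE hKM (hS2.trans sdiff_subset) (hI0R he).1).1 h1.1
      apply hw0.skew e he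
      have hE' : (PN M N H').E = R2 := by rw [PN_E, hR'']
      rw [hE']
      have hS3 : (I0 \ {e}) ∪ (R2 \ W0) ⊆ M.E \ M.closure H' := by rw [hR'']; exact hS2
      have he3 : e ∈ M.E \ M.closure H' := by rw [hR'']; exact hI0R he
      refine (mem_PN_closure hE hH'M hS3 he3).2 (N.closure_subset_closure ?_ h2)
      exact union_subset_union_right _ hKH'
  -- goodness
  have hgd : Good M N H' := by
    have hsnot : s ∉ M.closure H := hscl
    set R := M.E \ M.closure H with hR
    have hsR : s ∈ R := ⟨hsE, hscl⟩
    have hsH' : s ∈ H' := hKH' hsK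
    set Z := {z | z ∈ R ∧ z ≠ s ∧ z ∈ M.closure H'} with hZ
    have hcompl : (PN M N H).E \ insert s Z = R2 := by
      rw [← hR'', PN_E]
      ext z
      constructor
      · rintro ⟨hzR, hzZ⟩
        refine ⟨hzR.1, fun hzcl => ?_⟩
        by_cases hzs : z = s
        · exact hzZ (Or.inl hzs)
        · exact hzZ (Or.inr ⟨hzR, hzs, hzcl⟩)
      · rintro ⟨hzE, hzcl⟩
        have hzH : z ∉ M.closure H := fun h =>
          hzcl (M.closure_subset_closure hKH' (hHclK h))
        refine ⟨⟨hzE, hzH⟩, ?_⟩
        rintro (rfl | hz)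
        · exact hzcl (M.subset_closure H' hH'M.subset_ground hsH')
        · exact hzcl hz.2.2
    have hZR : Z ⊆ R := fun z hz => hz.1
    have hsZ : s ∉ Z := fun h => h.2.1 rfl
    have hI'Z : I' ⊆ Z := by
      intro e he
      have heR1 := hI'R he
      refine ⟨⟨heR1.1, fun h => heR1.2 (hHclK h)⟩, ?_, M.subset_closure H' hH'M.subset_ground (hI'H' he)⟩
      rintro rfl
      exact heR1.2 (M.subset_closure K hKE hsK)
    have hbasis : M.IsBasis (insert s H) (M.closure K) := by
      rw [hclK]
      exact (hS.mi.insert_indep_iff.2 (Or.inl ⟨hsE, hscl⟩)).isBasis_closure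
    have hind3 := hbasis.contract_indep_iff.1 hw.indep
    have hsI' : s ∉ I' := fun h => hsZ (hI'Z h)
    have hIndS : (PM M H).Indep (insert s I') := by
      rw [PM_indep hS.mi]
      refine ⟨?_, ?_⟩
      · have heq : insert s I' ∪ H = I' ∪ insert s H := by
          ext y
          simp only [mem_union, mem_insert_iff]
          tauto
        rw [heq]
        exact hind3.1
      · rw [disjoint_right]
        rintro y (rfl | hy)
        · exact hscl
        · exact (hZR (hI'Z hy)).2
    have hcl3 : M.closure (insert s I' ∪ H) = M.closure H' := by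
      have h1 : insert s I' ∪ H = I' ∪ insert s H := by
        ext y
        simp only [mem_union, mem_insert_iff]
        tauto
      rw [h1, hH', ← closure_union_closure_right_eq M I' (insert s H), ← hclK,
        closure_union_closure_right_eq]
    have hspanZ : Z ⊆ (PM M H).closure (insert s I') := by
      rintro z ⟨hzR, _, hzcl⟩
      refine mem_PM_closure.2 ⟨?_, hzR.2⟩
      rw [hcl3]
      exact hzcl
    have hskewS : ∀ e ∈ I', e ∉ (PN M N H).closure
        ((I' \ {e}) ∪ insert s ((PN M N H).E \ insert s Z)) := by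
      intro e he hcon
      rw [hcompl] at hcon
      have hR2R : R2 ⊆ R := by
        rw [← hR'']
        rintro z ⟨hzE, hzcl⟩
        exact ⟨hzE, fun h => hzcl (M.closure_subset_closure hKH' (hHclK h))⟩
      have hS4 : (I' \ {e}) ∪ insert s R2 ⊆ R := by
        refine union_subset (sdiff_subset.trans (hI'Z.trans hZR)) (insert_subset hsR hR2R)
      have h5 := (mem_PN_closure hE hS.mi hS4 (hZR (hI'Z he))).1 hcon
      refine hsk e he (N.closure_subset_closure_of_subset_closure ?_ h5)
      have hsubE : (I' \ {e}) ∪ R2 ∪ K ⊆ N.E := by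
        refine union_subset (union_subset ?_ ?_) hKN.subset_ground
        · exact sdiff_subset.trans (hI'R.trans ((subset_PN_ground hE hKM).trans sdiff_subset))
        · exact (sdiff_subset.trans sdiff_subset).trans (hE ▸ Subset.rfl)
      rintro y ((hy | (rfl | hy)) | hy)
      · exact N.subset_closure _ hsubE (Or.inl (Or.inl hy))
      · exact N.subset_closure _ hsubE (Or.inr hsK)
      · exact N.subset_closure _ hsubE (Or.inl (Or.inr hy))
      · exact N.closure_subset_closure subset_union_right (hHNK hy)
    have hgood := good_elem (M := PM M H) (N := PN M N H) rfl hS.nw (t := s) hsR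
      (W := Z) (I := I') hZR hsZ hI'Z hIndS hspanZ hskewS
    rw [hcompl] at hgood
    -- conclude
    have hsubH'R : H' ∪ R2 ⊆ N.E := by
      refine union_subset hH'N.subset_ground ?_
      exact (sdiff_subset.trans sdiff_subset).trans (hE ▸ Subset.rfl)
    have hZsub : Z ⊆ N.closure (H' ∪ R2) := by
      intro z hz
      have hzE : z ∈ R := hZR hz
      have h6 := hgood hz
      have hS5 : insert s I' ∪ R2 ⊆ R := by
        refine union_subset (insert_subset hsR (hI'Z.trans hZR)) ?_
        rw [← hR'']
        rintro y ⟨hyE, hycl⟩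
        exact ⟨hyE, fun h => hycl (M.closure_subset_closure hKH' (hHclK h))⟩
      have h7 := (mem_PN_closure hE hS.mi hS5 hzE).1 h6
      refine N.closure_subset_closure_of_subset_closure ?_ h7
      rintro y (((rfl | hy) | hy) | hy)
      · exact N.subset_closure _ hsubH'R (Or.inl hsH')
      · exact N.subset_closure _ hsubH'R (Or.inl (hI'H' hy))
      · exact N.subset_closure _ hsubH'R (Or.inr hy)
      · exact N.closure_subset_closure (subset_union_left.trans' hKH') (hHNK hy)
    have hfinal : H ∪ R ⊆ N.closure (H' ∪ R2) := by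
      rintro y (hy | hy)
      · exact N.closure_subset_closure (subset_union_left.trans' hKH') (hHNK hy)
      · by_cases hys : y = s
        · subst hys
          exact N.subset_closure _ hsubH'R (Or.inl hsH')
        · by_cases hycl : y ∈ M.closure H'
          · exact hZsub ⟨hy, hys, hycl⟩
          · refine N.subset_closure _ hsubH'R (Or.inr ?_)
            rw [← hR'']
            exact ⟨hy.1, hycl⟩
    intro z hz
    have := N.closure_subset_closure_of_subset_closure hfinal (hS.gd hz)
    rw [hR'']
    exact this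
  refine ⟨H', ⟨hH'M, hH'N, hnw, hgd⟩, N.closure_subset_closure hKH' ?_, ?_, ?_, ?_⟩
  · exact N.subset_closure K hKN.subset_ground hdK
  · have hsub : H ⊆ N.closure H' := hHNK.trans (N.closure_subset_closure hKH')
    exact N.closure_subset_closure_of_subset_closure hsub
  · intro w hwd
    constructor
    · intro hwH
      by_contra hwH'
      exact hHdead w hwH (fun h => hwH' (hKH' h)) hwd
    · rintro (hwI | hwK)
      · exfalso
        have hwcl : w ∈ M.closure H := by
          by_cases hwH : w ∈ H
          · exact M.subset_closure H hHE hwH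
          · exact M.closure_subset_closure inter_subset_left (closed_dead.mspan w hwd hwH)
        exact (hI'R hwI).2 (hHclK hwcl)
      · by_contra hwH
        exact hKdead w hwK hwH hwd
  · intro y hyd hyH z hz1 hz2 hcon
    have h1 := aug_persist hE hS.ni hdE hdN hKd hKdead hKE hyd hyH hz1 hz2
    have hzK : z ∈ N.closure K := by
      rw [hKcl]
      exact N.closure_subset_closure (subset_insert _ _) hz1
    have h2 := mem_closure_inter hH'N hKH' sdiff_subset hzK hcon
    apply h1
    refine N.closure_subset_closure ?_ h2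
    rintro w ⟨hwK, _, hwy⟩
    exact ⟨hwK, hwy⟩

end Vale.Agent.P068.Gen
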