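import Vale.Agent.P068.Gen2

/-!
# The priority process and the limit wave.

Starting from any state, augment at each stage a source which is not dead, with priority given by an
exhausting sequence of finite subsets `Bs k` of a base of `N`.  An element which stays free forever
is eventually dead; the elements eventually dead form a wave.  So in a system without waves every
element is eventually spanned.
-/

namespace Vale.Agent.P068.Gen

open Set Matroid

variable {α : Type*} {M N : Matroid α} {H : Set α}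

/-- An exhausting sequence of finite sets. -/
structure FamOK (N : Matroid α) (Bs : ℕ → Set α) : Prop where
  fin : ∀ k, (Bs k).Finite
  mono : Monotone Bs
  sub : ∀ k, Bs k ⊆ N.E
  span : ∀ z ∈ N.E, ∃ k, z ∈ N.closure (Bs k)

/-- The relative rank of `B` over `H`. -/
noncomputable def rho (N : Matroid α) (H B : Set α) : ℕ :=
  sInf {n | ∃ F, F ⊆ B ∧ F.Finite ∧ F.ncard = n ∧ B ⊆ N.closure (H ∪ F)}

lemma rho_spec {B : Set α} (hfin : B.Finite) (hBE : B ⊆ N.E) :
    ∃ F, F ⊆ B ∧ F.Finite ∧ F.ncard = rho N H B ∧ B ⊆ N.closure (H ∪ F) := by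
  have hne : {n | ∃ F, F ⊆ B ∧ F.Finite ∧ F.ncard = n ∧ B ⊆ N.closure (H ∪ F)}.Nonempty :=
    ⟨B.ncard, B, Subset.rfl, hfin, rfl, fun y hy => N.mem_closure_of_mem' (Or.inr hy) (hBE hy)⟩
  exact Nat.sInf_mem hne

lemma rho_mono {H' B : Set α} (hfin : B.Finite) (hBE : B ⊆ N.E) (hHE : H ⊆ N.E)
    (hcl : N.closure H ⊆ N.closure H') : rho N H' B ≤ rho N H B := by
  obtain ⟨F, hFB, hFfin, hFn, hF⟩ := rho_spec (H := H) hfin hBE
  refine Nat.sInf_le ⟨F, hFB, hFfin, hFn, hF.trans ?_⟩
  refine N.closure_subset_closure_of_subset_closure (union_subset ?_ ?_)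
  · exact (N.subset_closure H hHE).trans (hcl.trans (N.closure_subset_closure subset_union_left))
  · intro y hy
    exact N.mem_closure_of_mem' (Or.inr hy) (hBE (hFB hy))

lemma exists_exch {H F : Set α} (hF : F.Finite) {d : α} :
    d ∈ N.closure (H ∪ F) → d ∉ N.closure H →
      ∃ f ∈ F, f ∈ N.closure (insert d (H ∪ (F \ {f}))) := by
  induction F, hF using Set.Finite.induction_on with
  | empty =>
    intro h1 h2
    simp only [union_empty] at h1
    exact absurd h1 h2
  | @insert a G haG _ ih =>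
    intro h1 h2
    by_cases hd : d ∈ N.closure (H ∪ G)
    · obtain ⟨f, hf, hf2⟩ := ih hd h2
      refine ⟨f, mem_insert_of_mem _ hf, N.closure_subset_closure ?_ hf2⟩
      rintro y (rfl | hy | ⟨hy1, hy2⟩)
      · exact mem_insert _ _
      · exact Or.inr (Or.inl hy)
      · exact Or.inr (Or.inr ⟨Or.inr hy1, hy2⟩)
    · rw [union_insert] at h1
      have h3 := mem_closure_insert hd h1
      refine ⟨a, mem_insert _ _, ?_⟩
      have heq : insert a G \ {a} = G := by simp [haG]
      rw [heq]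
      exact h3

lemma rho_drop {H' B : Set α} (hfin : B.Finite) (hBE : B ⊆ N.E) (hHE : H ⊆ N.E)
    (hcl : N.closure H ⊆ N.closure H') {d : α} (hd1 : d ∈ N.closure (H ∪ B))
    (hd2 : d ∉ N.closure H) (hd3 : d ∈ N.closure H') : rho N H' B < rho N H B := by
  obtain ⟨F, hFB, hFfin, hFn, hF⟩ := rho_spec (H := H) hfin hBE
  have hFE : F ⊆ N.E := hFB.trans hBE
  have hd4 : d ∈ N.closure (H ∪ F) := by
    have hsub : H ∪ B ⊆ N.closure (H ∪ F) := by
      refine union_subset ?_ hF
      exact N.subset_closure_of_subset subset_union_left (union_subset hHE hFE)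
    exact N.closure_subset_closure_of_subset_closure hsub hd1
  obtain ⟨f, hf, hf2⟩ := exists_exch hFfin hd4 hd2
  have hlt : (F \ {f}).ncard < F.ncard := ncard_sdiff_singleton_lt_of_mem hf hFfin
  rw [← hFn]
  refine lt_of_le_of_lt (Nat.sInf_le ⟨F \ {f}, sdiff_subset.trans hFB, hFfin.subset sdiff_subset, rfl,
    ?_⟩) hlt
  have hFfE : F \ {f} ⊆ N.closure (H' ∪ (F \ {f})) := fun y hy =>
    N.mem_closure_of_mem' (Or.inr hy) (hFE hy.1)
  have hHH' : H ⊆ N.closure (H' ∪ (F \ {f})) :=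
    (N.subset_closure H hHE).trans (hcl.trans (N.closure_subset_closure subset_union_left))
  have hins : insert d (H ∪ (F \ {f})) ⊆ N.closure (H' ∪ (F \ {f})) := by
    refine insert_subset (N.closure_subset_closure subset_union_left hd3) (union_subset hHH' hFfE)
  have hstep : H ∪ F ⊆ N.closure (H' ∪ (F \ {f})) := by
    refine union_subset hHH' ?_
    intro y hy
    by_cases hyf : y = f
    · subst hyf
      exact N.closure_subset_closure_of_subset_closure hins hf2
    · exact hFfE ⟨hy, hyf⟩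
  exact hF.trans (N.closure_subset_closure_of_subset_closure hstep)

/-- A candidate source. -/
def Cand (M N : Matroid α) (H B : Set α) (d : α) : Prop :=
  d ∈ M.E ∧ d ∈ N.closure (H ∪ B) ∧ d ∉ N.closure H ∧ d ∉ Dead M N H

/-- One step of the process. -/
lemma step_exists [M.Finitary] [N.Finitary] (hE : M.E = N.E) {Bs : ℕ → Set α} (hBs : FamOK N Bs)
    (hS : St M N H) :
    ∃ H', St M N H' ∧ N.closure H ⊆ N.closure H' ∧
      (∀ w ∈ Dead M N H, (w ∈ H ↔ w ∈ H')) ∧
      (∀ y ∈ Dead M N H, y ∈ H → ∀ z, z ∈ N.closure H → z ∉ N.closure (H \ {y}) →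
        z ∉ N.closure (H' \ {y})) ∧
      (∀ k, (∃ d, Cand M N H (Bs k) d) →
        ∃ d, d ∈ N.closure (H ∪ Bs k) ∧ d ∉ N.closure H ∧ d ∈ N.closure H') := by
  classical
  by_cases hex : ∃ k, ∃ d, Cand M N H (Bs k) d
  · obtain ⟨d, hdE, hd1, hd2, hd3⟩ := Nat.find_spec hex
    obtain ⟨H', h1, h2, h3, h4, h5⟩ := step hE hS hdE hd2 hd3
    refine ⟨H', h1, h3, h4, h5, fun k hk => ⟨d, ?_, hd2, h2⟩⟩
    have hle : Nat.find hex ≤ k := Nat.find_min' hex hk
    exact N.closure_subset_closure (union_subset_union_right _ (hBs.mono hle)) hd1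
  · refine ⟨H, hS, Subset.rfl, fun _ _ => Iff.rfl, fun y _ _ z _ h2 => h2, fun k hk => ?_⟩
    exact absurd ⟨k, hk⟩ hex

/-- A run of the process. -/
structure Run (M N : Matroid α) (Hs : ℕ → Set α) (Bs : ℕ → Set α) : Prop where
  st : ∀ j, St M N (Hs j)
  mono : ∀ j, N.closure (Hs j) ⊆ N.closure (Hs (j + 1))
  dead : ∀ j, ∀ w ∈ Dead M N (Hs j), (w ∈ Hs j ↔ w ∈ Hs (j + 1))
  arc : ∀ j, ∀ y ∈ Dead M N (Hs j), y ∈ Hs j → ∀ z, z ∈ N.closure (Hs j) →
    z ∉ N.closure (Hs j \ {y}) → z ∉ N.closure (Hs (j + 1) \ {y})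
  prog : ∀ j k, (∃ d, Cand M N (Hs j) (Bs k) d) →
    ∃ d, d ∈ N.closure (Hs j ∪ Bs k) ∧ d ∉ N.closure (Hs j) ∧ d ∈ N.closure (Hs (j + 1))

lemma exists_run [M.Finitary] [N.Finitary] (hE : M.E = N.E) {Bs : ℕ → Set α} (hBs : FamOK N Bs)
    (hS : St M N H) : ∃ Hs, Hs 0 = H ∧ Run M N Hs Bs := by
  classical
  let St' := {H : Set α // St M N H}
  have hstep : ∀ s : St', ∃ s' : St', N.closure s.1 ⊆ N.closure s'.1 ∧
      (∀ w ∈ Dead M N s.1, (w ∈ s.1 ↔ w ∈ s'.1)) ∧
      (∀ y ∈ Dead M N s.1, y ∈ s.1 → ∀ z, z ∈ N.closure s.1 → z ∉ N.closure (s.1 \ {y}) →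
        z ∉ N.closure (s'.1 \ {y})) ∧
      (∀ k, (∃ d, Cand M N s.1 (Bs k) d) →
        ∃ d, d ∈ N.closure (s.1 ∪ Bs k) ∧ d ∉ N.closure s.1 ∧ d ∈ N.closure s'.1) := by
    rintro ⟨H0, hH0⟩
    obtain ⟨H', h1, h2, h3, h4, h5⟩ := step_exists hE hBs hH0
    exact ⟨⟨H', h1⟩, h2, h3, h4, h5⟩
  choose next h1 h2 h3 h4 using hstep
  let s : ℕ → St' := fun n => Nat.rec ⟨H, hS⟩ (fun _ sn => next sn) n
  have hss : ∀ n, s (n + 1) = next (s n) := fun _ => rfl
  refine ⟨fun n => (s n).1, rfl, ⟨fun j => (s j).2, fun j => ?_, fun j => ?_, fun j => ?_,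
    fun j => ?_⟩⟩
  · simp only [hss]; exact h1 _
  · simp only [hss]; exact h2 _
  · simp only [hss]; exact h3 _
  · simp only [hss]; exact h4 _

namespace Run

variable {Hs Bs : ℕ → Set α}

lemma closure_mono (hR : Run M N Hs Bs) {i j : ℕ} (h : i ≤ j) :
    N.closure (Hs i) ⊆ N.closure (Hs j) := by
  induction h with
  | refl => exact Subset.rfl
  | step _ ih => exact ih.trans (hR.mono _)

/-- Eventually there are no candidates in the `k`-th flat. -/
lemma eventually_no_cand (hR : Run M N Hs Bs) (hBs : FamOK N Bs) (k : ℕ) :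
    ∃ j0, ∀ j, j0 ≤ j → ¬ ∃ d, Cand M N (Hs j) (Bs k) d := by
  set f : ℕ → ℕ := fun j => rho N (Hs j) (Bs k) with hf
  refine ⟨Function.argmin f, fun j hj hcand => ?_⟩
  obtain ⟨d, hd1, hd2, hd3⟩ := hR.prog j k hcand
  have hHE : Hs j ⊆ N.E := (hR.st j).ni.subset_ground
  have hlt : f (j + 1) < f j := rho_drop (hBs.fin k) (hBs.sub k) hHE (hR.mono j) hd1 hd2 hd3
  have hanti : f j ≤ f (Function.argmin f) :=
    rho_mono (hBs.fin k) (hBs.sub k) (hR.st _).ni.subset_ground (hR.closure_mono hj)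
  have hmin : f (Function.argmin f) ≤ f (j + 1) := Function.argmin_le f (j + 1)
  omega

/-- The elements eventually dead. -/
def DD (M N : Matroid α) (Hs : ℕ → Set α) : Set α :=
  {z | z ∈ M.E ∧ ∃ j0, ∀ j, j0 ≤ j → z ∈ Dead M N (Hs j)}

/-- The elements eventually dead and eventually in the set. -/
def II (M N : Matroid α) (Hs : ℕ → Set α) : Set α :=
  {z | z ∈ DD M N Hs ∧ ∃ j0, ∀ j, j0 ≤ j → z ∈ Hs j}

/-- Every element free at a late stage is dead at this stage. -/
lemma dead_of_free (hR : Run M N Hs Bs) (hBs : FamOK N Bs) (hE : M.E = N.E) {z : α} (hz : z ∈ M.E) :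
    ∃ j0, ∀ j, j0 ≤ j → z ∉ N.closure (Hs j) → z ∈ Dead M N (Hs j) := by
  obtain ⟨k, hk⟩ := hBs.span z (hE ▸ hz)
  obtain ⟨j0, hj0⟩ := hR.eventually_no_cand hBs k
  refine ⟨j0, fun j hj hfree => ?_⟩
  by_contra hnd
  refine hj0 j hj ⟨z, hz, ?_, hfree, hnd⟩
  exact N.closure_subset_closure subset_union_right hk

/-- An element outside `DD` is eventually spanned. -/
lemma spanned_of_not_DD (hR : Run M N Hs Bs) (hBs : FamOK N Bs) (hE : M.E = N.E) {z : α}
    (hz : z ∈ M.E) (hzD : z ∉ DD M N Hs) : ∃ j, z ∈ N.closure (Hs j) := by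
  by_contra hcon
  push Not at hcon
  obtain ⟨j0, hj0⟩ := hR.dead_of_free hBs hE hz
  exact hzD ⟨hz, j0, fun j hj => hj0 j hj (hcon j)⟩

lemma mem_stable (hR : Run M N Hs Bs) {z : α} {j0 : ℕ}
    (hz : ∀ j, j0 ≤ j → z ∈ Dead M N (Hs j)) {j1 : ℕ} (h1 : j0 ≤ j1) (hin : z ∈ Hs j1) :
    ∀ j, j1 ≤ j → z ∈ Hs j := by
  intro j hj
  induction hj with
  | refl => exact hin
  | @step m hm ih =>
    exact (hR.dead m z (hz m (h1.trans hm))).1 ih

/-- The limit is a wave. -/
lemma isWave (hR : Run M N Hs Bs) (hBs : FamOK N Bs) (hE : M.E = N.E) [M.Finitary] [N.Finitary] :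
    IsWave M N (DD M N Hs) (II M N Hs) := by
  classical
  have hev : ∀ F : Set α, F.Finite → F ⊆ II M N Hs →
      ∃ j0, ∀ j, j0 ≤ j → F ⊆ Hs j ∩ Dead M N (Hs j) := by
    intro F hF
    induction F, hF using Set.Finite.induction_on with
    | empty => exact fun _ => ⟨0, fun _ _ => empty_subset _⟩
    | @insert x F _ _ ih =>
      intro hsub
      obtain ⟨j1, hj1⟩ := ih ((subset_insert _ _).trans hsub)
      obtain ⟨⟨_, j2, hj2⟩, j3, hj3⟩ := hsub (mem_insert x F)
      refine ⟨max j1 (max j2 j3), fun j hj => insert_subset ?_ (hj1 j (by omega))⟩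
      exact ⟨hj3 j (by omega), hj2 j (by omega)⟩
  have hIM : M.Indep (II M N Hs) := by
    refine indep_of_forall_finite_subset_indep _ fun F hFI hF => ?_
    obtain ⟨j0, hj0⟩ := hev F hF hFI
    exact (hR.st j0).mi.subset ((hj0 j0 le_rfl).trans inter_subset_left)
  have hIE : II M N Hs ⊆ M.E := hIM.subset_ground
  refine ⟨fun z hz => hz.1, fun z hz => hz.1, hIM, ?_, ?_⟩
  · -- the span
    rintro x ⟨hxE, j0, hj0⟩
    by_cases hxI : x ∈ II M N Hs
    · exact M.subset_closure _ hIE hxI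
    have hxnot : ∀ j, j0 ≤ j → x ∉ Hs j := by
      intro j hj hin
      exact hxI ⟨⟨hxE, j0, hj0⟩, j, hR.mem_stable hj0 hj hin⟩
    have hcl : ∀ j, j0 ≤ j → x ∈ M.closure (Hs j ∩ Dead M N (Hs j)) := fun j hj =>
      closed_dead.mspan x (hj0 j hj) (hxnot j hj)
    let Fs : ℕ → Set α := fun j => {z | z ∈ Hs j ∧ x ∉ M.closure (Hs j \ {z})}
    have hFdead : ∀ j, j0 ≤ j → Fs j ⊆ Hs j ∩ Dead M N (Hs j) := by
      rintro j hj z ⟨hz1, hz2⟩
      refine ⟨hz1, ?_⟩
      by_contra hzd
      apply hz2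
      refine M.closure_subset_closure ?_ (hcl j hj)
      rintro w ⟨hw1, hw2⟩
      refine ⟨hw1, ?_⟩
      rintro rfl
      exact hzd hw2
    have hFspan : ∀ j, j0 ≤ j → x ∈ M.closure (Fs j) := by
      intro j hj
      have hxH : x ∈ M.closure (Hs j) := M.closure_subset_closure inter_subset_left (hcl j hj)
      refine mem_closure_of_forall_sdiff (hR.st j).mi (fun z hz => hz.1) hxH ?_
      rintro y ⟨hy1, hy2⟩
      by_contra hy3
      exact hy2 ⟨hy1, hy3⟩
    have hFstep : ∀ j, j0 ≤ j → Fs j ⊆ Fs (j + 1) := by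
      intro j hj z hz
      have hsubF : Fs j ⊆ Hs (j + 1) := fun w hw =>
        (hR.dead j w (hFdead j hj hw).2).1 hw.1
      refine ⟨hsubF hz, fun hcon => ?_⟩
      have h1 := mem_closure_inter (hR.st (j + 1)).mi hsubF sdiff_subset (hFspan j hj) hcon
      apply hz.2
      refine M.closure_subset_closure ?_ h1
      rintro w ⟨hw1, _, hw2⟩
      exact ⟨hw1.1, hw2⟩
    have hFmono : ∀ j, j0 ≤ j → Fs j0 ⊆ Fs j := by
      intro j hj
      induction hj with
      | refl => exact Subset.rfl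
      | @step m hm ih => exact ih.trans (hFstep m hm)
    have hFII : Fs j0 ⊆ II M N Hs := by
      intro z hz
      have hzE : z ∈ M.E := (hR.st j0).mi.subset_ground hz.1
      refine ⟨⟨hzE, j0, fun j hj => (hFdead j hj (hFmono j hj hz)).2⟩, j0, fun j hj => ?_⟩
      exact (hFmono j hj hz).1
    exact M.closure_subset_closure hFII (hFspan j0 le_rfl)
  · -- skewness
    rintro e heI hcon
    obtain ⟨F, hFsub, hFfin, -, heF⟩ := exists_mem_finite_closure_of_mem_closure hcon
    obtain ⟨⟨_, j2, hj2⟩, j3, hj3⟩ := heI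
    have hkey : ∀ f ∈ F, ∃ j0, ∀ j, j0 ≤ j → f ∈ N.closure (Hs j \ {e}) := by
      intro f hf
      rcases hFsub hf with ⟨hfI, hfe⟩ | ⟨hfE, hfD⟩
      · obtain ⟨_, j4, hj4⟩ := hfI
        refine ⟨j4, fun j hj => ?_⟩
        exact N.subset_closure _ (sdiff_subset.trans (hR.st j).ni.subset_ground) ⟨hj4 j hj, hfe⟩
      · have hfE' : f ∈ M.E := hE ▸ hfE
        obtain ⟨j5, hj5⟩ := hR.spanned_of_not_DD hBs hE hfE' hfD
        refine ⟨max j5 (max j2 j3), fun j hj => ?_⟩
        by_contra hnot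
        have hj5' : j5 ≤ j := by omega
        have hj2' : j2 ≤ j := by omega
        have hj3' : j3 ≤ j := by omega
        -- from here on, `f` stays attached to `e`
        have hstay : ∀ m, j ≤ m → f ∉ N.closure (Hs m \ {e}) := by
          intro m hm
          induction hm with
          | refl => exact hnot
          | @step m' hm' ih =>
            exact hR.arc m' e (hj2 m' (hj2'.trans hm')) (hj3 m' (hj3'.trans hm')) f
              (hR.closure_mono (hj5'.trans hm') hj5) ih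
        apply hfD
        refine ⟨hfE', j, fun m hm => ?_⟩
        exact closed_dead.nclosed e (hj2 m (hj2'.trans hm)) (hj3 m (hj3'.trans hm)) f hfE'
          (hR.closure_mono (hj5'.trans hm) hj5) (hstay m hm)
    choose! J hJ using hkey
    obtain ⟨jm, hjm⟩ := (hFfin.image J).bddAbove
    let j := max jm (max j2 j3)
    have hsub : F ⊆ N.closure (Hs j \ {e}) := by
      intro f hf
      have : J f ≤ jm := hjm ⟨f, hf, rfl⟩
      exact hJ f hf j (by simp only [j]; omega)
    have hee : e ∈ Hs j := hj3 j (by simp only [j]; omega)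
    exact (hR.st j).ni.notMem_closure_sdiff_of_mem hee
      (N.closure_subset_closure_of_subset_closure hsub heF)

end Run

/-- The initial state of a system without waves. -/
lemma st_empty (hE : M.E = N.E) (hno : NoWave M N) : St M N ∅ := by
  have h0 : M.closure ∅ = ∅ := by
    apply eq_empty_of_forall_notMem
    intro z hz
    have hzE : z ∈ M.E := M.closure_subset_ground _ hz
    have hw : IsWave M N {z} ∅ :=
      ⟨singleton_subset_iff.2 hzE, empty_subset _, M.empty_indep, singleton_subset_iff.2 hz,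
        fun e he => absurd he (notMem_empty e)⟩
    exact singleton_ne_empty z (hno _ _ hw)
  refine ⟨M.empty_indep, N.empty_indep, ?_, ?_⟩
  · have h1 : PM M ∅ = M := by rw [PM, h0, contract_empty]
    have h2 : PN M N ∅ = N := by
      rw [PN, h0, contract_empty, sdiff_empty, hE, restrict_ground_eq_self]
    rw [h1, h2]
    exact hno
  · rw [Good, h0, sdiff_empty, empty_union, hE]
    exact N.subset_closure N.E

/-- The demand lemma: in a system without waves, any finite set can be spanned by a state. -/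
theorem demand [M.Finitary] [N.Finitary] (hE : M.E = N.E) (hno : NoWave M N) {Bs : ℕ → Set α}
    (hBs : FamOK N Bs) {F : Set α} (hF : F.Finite) (hFE : F ⊆ M.E) :
    ∃ H, St M N H ∧ F ⊆ N.closure H := by
  classical
  obtain ⟨Hs, -, hR⟩ := exists_run hE hBs (st_empty hE hno)
  have hDD : Run.DD M N Hs = ∅ := hno _ _ (hR.isWave hBs hE)
  have hall : ∀ z ∈ F, ∃ j, z ∈ N.closure (Hs j) := by
    intro z hz
    refine hR.spanned_of_not_DD hBs hE (hFE hz) ?_
    rw [hDD]
    exact notMem_empty z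
  choose! J hJ using hall
  obtain ⟨jm, hjm⟩ := (hF.image J).bddAbove
  refine ⟨Hs jm, hR.st jm, fun z hz => ?_⟩
  exact hR.closure_mono (hjm ⟨z, hz, rfl⟩) (hJ z hz)

end Vale.Agent.P068.Gen
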