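import Vale.Agent.P068.Gen3
import Vale.Agent.P068.Cap

/-!
# The outer iteration: solutions for wave-free finitary pairs with `N` of countable rank.
-/

namespace Vale.Agent.P068.Gen

open Set Matroid

variable {α : Type*} {M N : Matroid α} {H : Set α}

/-- Exhausting family from countable independent sets. -/
lemma famOK_of_countable (N : Matroid α) [N.Finitary] (hc : ∀ I, N.Indep I → I.Countable) :
    ∃ Bs, FamOK N Bs := by
  classical
  obtain ⟨B, hB⟩ := N.exists_isBase
  have hBc : B.Countable := hc B hB.indep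
  by_cases hne : B.Nonempty
  · obtain ⟨f, hf⟩ := hBc.exists_eq_range hne
    refine ⟨fun k => f '' (Iio k), ⟨fun k => (finite_Iio k).image f, ?_, ?_, ?_⟩⟩
    · intro a b hab
      exact image_mono (Iio_subset_Iio hab)
    · rintro k _ ⟨i, _, rfl⟩
      exact hB.subset_ground (hf ▸ mem_range_self i)
    · intro z hz
      have hzcl : z ∈ N.closure B := by rw [hB.closure_eq]; exact hz
      obtain ⟨I, hIB, hIfin, -, hzI⟩ := exists_mem_finite_closure_of_mem_closure hzcl
      have hidx : ∀ y ∈ I, ∃ i, f i = y := by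
        intro y hy
        have := hIB hy
        rw [hf] at this
        exact this
      choose! g hg using hidx
      obtain ⟨k, hk⟩ := (hIfin.image g).bddAbove
      refine ⟨k + 1, N.closure_mono ?_ hzI⟩
      intro y hy
      refine ⟨g y, ?_, hg y hy⟩
      exact Nat.lt_succ_of_le (hk ⟨y, hy, rfl⟩)
  · rw [not_nonempty_iff_eq_empty] at hne
    subst hne
    refine ⟨fun _ => ∅, ⟨fun _ => finite_empty, fun _ _ _ => Subset.rfl, fun _ => empty_subset _, ?_⟩⟩
    intro z hz
    exact ⟨0, by rw [hB.closure_eq]; exact hz⟩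

/-- A countable base forces all independent sets to be countable. -/
lemma countable_indep_of_base (N : Matroid α) [N.Finitary] {B : Set α} (hB : N.IsBase B)
    (hBc : B.Countable) {I : Set α} (hI : N.Indep I) : I.Countable := by
  classical
  by_cases hne : B.Nonempty
  · obtain ⟨f, hf⟩ := hBc.exists_eq_range hne
    have hcov : I ⊆ ⋃ k : ℕ, I ∩ N.closure (f '' (Iio k)) := by
      intro z hz
      have hzcl : z ∈ N.closure B := by rw [hB.closure_eq]; exact hI.subset_ground hz
      obtain ⟨K, hKB, hKfin, -, hzK⟩ := exists_mem_finite_closure_of_mem_closure hzcl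
      have hidx : ∀ y ∈ K, ∃ i, f i = y := by
        intro y hy
        have := hKB hy
        rw [hf] at this
        exact this
      choose! g hg using hidx
      obtain ⟨k, hk⟩ := (hKfin.image g).bddAbove
      refine mem_iUnion.2 ⟨k + 1, hz, N.closure_mono ?_ hzK⟩
      intro y hy
      exact ⟨g y, Nat.lt_succ_of_le (hk ⟨y, hy, rfl⟩), hg y hy⟩
    refine Countable.mono hcov (countable_iUnion fun k => ?_)
    have hfin : (f '' (Iio k)).Finite := (finite_Iio k).image f
    have hle : (I ∩ N.closure (f '' (Iio k))).encard ≤ (f '' (Iio k)).encard := by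
      have h1 := (hI.inter_right (N.closure (f '' (Iio k)))).encard_le_eRk_of_subset
        (inter_subset_right (s := I))
      rw [eRk_closure_eq] at h1
      exact h1.trans (N.eRk_le_encard _)
    have : (I ∩ N.closure (f '' (Iio k))).encard ≠ ⊤ :=
      ne_top_of_le_ne_top hfin.encard_lt_top.ne hle
    exact (encard_ne_top_iff.1 this).countable
  · rw [not_nonempty_iff_eq_empty] at hne
    subst hne
    have hsub : I ⊆ N.closure ∅ := by
      rw [hB.closure_eq]
      exact hI.subset_ground
    have h1 := hI.encard_le_eRk_of_subset hsub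
    rw [eRk_closure_eq] at h1
    have h2 := h1.trans (N.eRk_le_encard _)
    have hfin : I.Finite := by
      rw [← encard_ne_top_iff]
      exact ne_top_of_le_ne_top (by simp) h2
    exact hfin.countable

/-- The state of the outer iteration. -/
structure OS (M0 N0 M' N' : Matroid α) (J : Set α) : Prop where
  mf : M'.Finitary
  nf : N'.Finitary
  hE : M'.E = N'.E
  nw : NoWave M' N'
  cr : ∀ I, N'.Indep I → I.Countable
  mi : ∀ S, M'.Indep S → M0.Indep (S ∪ J)
  ni : ∀ S, N'.Indep S → N0.Indep (S ∪ J)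
  sub : M'.E ⊆ M0.E
  ncl : ∀ X, X ⊆ M'.E → ∀ e ∈ M'.E, e ∈ N'.closure X → e ∈ N0.closure (X ∪ J)
  span : M0.E ⊆ N0.closure (J ∪ M'.E)

/-- The step of the outer iteration. -/
lemma OS.step {M0 N0 M' N' : Matroid α} [N0.Finitary] {J : Set α}
    (hS : OS M0 N0 M' N' J) (hE0 : M0.E = N0.E) {b : α} (hb : b ∈ M0.E) :
    ∃ M'' N'' J', OS M0 N0 M'' N'' J' ∧ J ⊆ J' ∧ b ∈ N0.closure J' := by
  classical
  have := hS.mf
  have := hS.nf
  obtain ⟨Bs, hBs⟩ := famOK_of_countable N' hS.cr
  obtain ⟨I, hIsub, hIfin, -, hbI⟩ := exists_mem_finite_closure_of_mem_closure (hS.span hb)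
  set F := I ∩ M'.E with hF
  have hFfin : F.Finite := hIfin.inter_of_left _
  obtain ⟨H, hSt, hFH⟩ := demand hS.hE hS.nw hBs hFfin inter_subset_right
  have hHE : H ⊆ M'.E := hSt.mi.subset_ground
  have hFcl : F ⊆ N0.closure (H ∪ J) := by
    intro f hf
    exact hS.ncl H hHE f hf.2 (hFH hf)
  refine ⟨PM M' H, PN M' N' H, H ∪ J, ⟨inferInstance, inferInstance, rfl, hSt.nw, ?_, ?_, ?_, ?_, ?_,
    ?_⟩, subset_union_right, ?_⟩
  · intro S hSi
    have := hS.cr _ (PN_indep_of hSt.ni hSi)
    exact this.mono subset_union_left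
  · intro S hSi
    have h1 := hS.mi _ ((PM_indep hSt.mi).1 hSi).1
    rwa [union_assoc] at h1
  · intro S hSi
    have h1 := hS.ni _ (PN_indep_of hSt.ni hSi)
    rwa [union_assoc] at h1
  · exact sdiff_subset.trans hS.sub
  · intro X hX e he hecl
    have h1 : e ∈ N'.closure (X ∪ H) := (mem_PN_closure hS.hE hSt.mi hX he).1 hecl
    have hXH : X ∪ H ⊆ M'.E := union_subset (hX.trans sdiff_subset) hHE
    have h2 := hS.ncl _ hXH e he.1 h1
    rwa [union_assoc] at h2
  · -- spanning
    intro z hz
    have h1 := hS.span hz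
    have hsub : J ∪ M'.E ⊆ N0.closure ((H ∪ J) ∪ (PM M' H).E) := by
      have hJE : J ⊆ N0.E := by
        have := hS.ni ∅ N'.empty_indep
        exact (this.subset subset_union_right).subset_ground
      have hM'E : M'.E ⊆ N0.E := hS.sub.trans hE0.subset
      rintro y (hy | hy)
      · exact N0.subset_closure _ (union_subset (union_subset (hSt.ni.subset_ground.trans
          (hS.hE.symm.subset.trans hM'E)) hJE) (sdiff_subset.trans hM'E))
          (Or.inl (Or.inr hy))
      · have hgood := hSt.gd hy
        have hX : H ∪ (M'.E \ M'.closure H) ⊆ M'.E := union_subset hHE sdiff_subset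
        have h2 := hS.ncl _ hX y hy hgood
        have hset : H ∪ (M'.E \ M'.closure H) ∪ J = (H ∪ J) ∪ (PM M' H).E := by
          rw [PM_E]
          ext w
          simp only [mem_union]
          tauto
        rwa [hset] at h2
    exact N0.closure_subset_closure_of_subset_closure hsub h1
  · have hJE : J ⊆ N0.E := by
      have := hS.ni ∅ N'.empty_indep
      exact (this.subset subset_union_right).subset_ground
    have hM'E : M'.E ⊆ N0.E := hS.sub.trans hE0.subset
    have hHJE : H ∪ J ⊆ N0.E := union_subset (hHE.trans hM'E) hJE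
    have hsub : I ⊆ N0.closure (H ∪ J) := by
      intro y hy
      rcases hIsub hy with hyJ | hyE
      · exact N0.subset_closure _ hHJE (Or.inr hyJ)
      · exact hFcl ⟨hy, hyE⟩
    exact N0.closure_subset_closure_of_subset_closure hsub hbI

/-- The initial state. -/
lemma OS.init {M0 N0 : Matroid α} [M0.Finitary] [N0.Finitary] (hE : M0.E = N0.E)
    (hno : NoWave M0 N0) (hcr : ∀ I, N0.Indep I → I.Countable) : OS M0 N0 M0 N0 ∅ := by
  refine ⟨inferInstance, inferInstance, hE, hno, hcr, ?_, ?_, Subset.rfl, ?_, ?_⟩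
  · intro S hS; rwa [union_empty]
  · intro S hS; rwa [union_empty]
  · intro X _ e _ he; rwa [union_empty]
  · rw [empty_union]
    rw [hE]
    exact N0.subset_closure N0.E

/-- A wave-free finitary pair with `N` of countable rank has a common independent `N`-spanning set. -/
theorem nowave_solution {M0 N0 : Matroid α} [M0.Finitary] [N0.Finitary] (hE : M0.E = N0.E)
    (hno : NoWave M0 N0) (hcr : ∀ I, N0.Indep I → I.Countable) :
    ∃ J, M0.Indep J ∧ N0.Indep J ∧ N0.E ⊆ N0.closure J := by
  classical
  obtain ⟨B0, hB0⟩ := N0.exists_isBase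
  have hB0c : B0.Countable := hcr B0 hB0.indep
  have : Countable B0 := hB0c.to_subtype
  obtain ⟨e, he⟩ := exists_surjective_nat (Option B0)
  let S := {s : Matroid α × Matroid α × Set α // OS M0 N0 s.1 s.2.1 s.2.2}
  have step' : ∀ (s : S) (x : Option B0), ∃ s' : S, s.1.2.2 ⊆ s'.1.2.2 ∧
      ∀ y : B0, x = some y → y.1 ∈ N0.closure s'.1.2.2 := by
    rintro s x
    cases x with
    | none =>
      exact ⟨s, Subset.rfl, fun y hy => by simp at hy⟩
    | some x =>
      have hxE : x.1 ∈ M0.E := hE.symm ▸ hB0.subset_ground x.2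
      obtain ⟨M'', N'', J', hOS, hsub, hb⟩ := s.2.step hE hxE
      refine ⟨⟨(M'', N'', J'), hOS⟩, hsub, fun y hy => ?_⟩
      rw [Option.some.injEq] at hy
      subst hy
      exact hb
  choose next hsub hx using step'
  let s : ℕ → S := fun n => Nat.rec ⟨(M0, N0, ∅), OS.init hE hno hcr⟩ (fun n sn => next sn (e n)) n
  have hss : ∀ n, s (n + 1) = next (s n) (e n) := fun _ => rfl
  let Js : ℕ → Set α := fun n => (s n).1.2.2
  have hmono : Monotone Js := by
    refine monotone_nat_of_le_succ fun n => ?_
    show (s n).1.2.2 ⊆ (s (n + 1)).1.2.2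
    rw [hss]
    exact hsub _ _
  have hMi : ∀ n, M0.Indep (Js n) := by
    intro n
    have h1 := (s n).2.mi ∅ (s n).1.1.empty_indep
    rwa [empty_union] at h1
  have hNi : ∀ n, N0.Indep (Js n) := by
    intro n
    have h1 := (s n).2.ni ∅ (s n).1.2.1.empty_indep
    rwa [empty_union] at h1
  have hfinsub : ∀ K : Set α, K ⊆ ⋃ n, Js n → K.Finite → ∃ n, K ⊆ Js n := by
    intro K hK hKf
    have hidx : ∀ y ∈ K, ∃ n, y ∈ Js n := fun y hy => mem_iUnion.1 (hK hy)
    choose! g hg using hidx
    obtain ⟨k, hk⟩ := (hKf.image g).bddAbove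
    exact ⟨k, fun y hy => hmono (hk ⟨y, hy, rfl⟩) (hg y hy)⟩
  refine ⟨⋃ n, Js n, ?_, ?_, ?_⟩
  · refine indep_of_forall_finite_subset_indep _ fun K hK hKf => ?_
    obtain ⟨n, hn⟩ := hfinsub K hK hKf
    exact (hMi n).subset hn
  · refine indep_of_forall_finite_subset_indep _ fun K hK hKf => ?_
    obtain ⟨n, hn⟩ := hfinsub K hK hKf
    exact (hNi n).subset hn
  · have hJE : (⋃ n, Js n) ⊆ N0.E := iUnion_subset fun n => (hNi n).subset_ground
    have hB : B0 ⊆ N0.closure (⋃ n, Js n) := by
      intro y hy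
      obtain ⟨n, hn⟩ := he (some ⟨y, hy⟩)
      have h1 : y ∈ N0.closure (Js (n + 1)) := by
        show y ∈ N0.closure (s (n + 1)).1.2.2
        rw [hss]
        exact hx (s n) (e n) ⟨y, hy⟩ hn
      exact N0.closure_mono (subset_iUnion Js (n + 1)) h1
    have := N0.closure_subset_closure_of_subset_closure hB
    rwa [hB0.closure_eq] at this

/-- The full statement for finitary pairs with `N` of countable rank. -/
theorem finitary_cr {M N : Matroid α} [M.Finitary] [N.Finitary] (hE : M.E = N.E)
    (hcr : ∀ I, N.Indep I → I.Countable) : SatisfiesIntersection M N := by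
  classical
  obtain ⟨W, I, hwave, hno⟩ := exists_max_wave hE
  have hB : M.IsBasis I W := hwave.indep.isBasis_of_subset_of_subset_closure hwave.IW hwave.span
  have hE1 : (M ／ W).E = (N ↾ (N.E \ W)).E := by
    rw [contract_ground, restrict_ground_eq, hE]
  have hcr1 : ∀ S, (N ↾ (N.E \ W)).Indep S → S.Countable := fun S hS =>
    hcr S (restrict_indep_iff.1 hS).1
  obtain ⟨J1, hJ1M, hJ1N, hJ1s⟩ := nowave_solution hE1 hno hcr1
  have hJ1N' : N.Indep J1 := (restrict_indep_iff.1 hJ1N).1
  have hJ1R : J1 ⊆ N.E \ W := (restrict_indep_iff.1 hJ1N).2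
  have hMi := (hB.contract_indep_iff).1 hJ1M
  have hdisj : Disjoint I J1 := by
    refine disjoint_left.2 fun x hxI hxJ => (hJ1R hxJ).2 (hwave.IW hxI)
  refine ⟨I ∪ J1, I, J1, ?_, ?_, rfl, hdisj, ?_⟩
  · rw [union_comm]; exact hMi.1
  · rw [indep_iff_forall_notMem_closure_sdiff']
    refine ⟨union_subset (hwave.indep.subset_ground.trans hE.subset) hJ1N'.subset_ground, ?_⟩
    rintro e (heI | heJ)
    · have h1 := hwave.skew e heI
      intro hcon
      refine h1 (N.closure_mono ?_ hcon)
      rintro x ⟨hx | hx, hne⟩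
      · exact Or.inl ⟨hx, hne⟩
      · exact Or.inr (hJ1R hx)
    · have h1 : e ∉ N.closure (J1 \ {e}) := hJ1N'.notMem_closure_sdiff_of_mem heJ
      have h2 := notMem_closure_union_of_skew (A := J1 \ {e}) (R := N.E \ W) (I := I)
        (sdiff_subset.trans hJ1R) (hJ1R heJ) h1 hwave.skew
      intro hcon
      refine h2 (N.closure_mono ?_ hcon)
      rintro x ⟨hx | hx, hne⟩
      · exact Or.inr hx
      · exact Or.inl ⟨hx, hne⟩
  · refine Subset.antisymm (union_subset (M.closure_subset_ground _) ?_) ?_
    · rw [hE]; exact N.closure_subset_ground _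
    · intro z hz
      by_cases hzW : z ∈ W
      · exact Or.inl (hwave.span hzW)
      · right
        have hzR : z ∈ N.E \ W := ⟨hE ▸ hz, hzW⟩
        have h1 := hJ1s hzR
        rw [restrict_closure_eq _ hJ1R sdiff_subset] at h1
        exact h1.1

/-- General `M`: all we need is that circuits of `M` which are `N`-independent are finite. -/
theorem main_cr {M N : Matroid α} [N.Finitary] (hE : M.E = N.E)
    (hM : ∀ C, M.IsCircuit C → N.Indep C → C.Finite)
    (hcr : ∀ I, N.Indep I → I.Countable) : SatisfiesIntersection M N := by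
  classical
  obtain ⟨J, JM, JN, hJM, hJN, hJ, hdisj, hcl⟩ :=
    finitary_cr (M := finitize M) (N := N) (by rw [finitize_E]; exact hE) hcr
  have hind : M.Indep J := by
    by_contra hnot
    have hJE : J ⊆ M.E := hJM.subset_ground
    have hdep : M.Dep J := (not_indep_iff hJE).1 hnot
    obtain ⟨C, hCJ, hC⟩ := hdep.exists_isCircuit_subset
    have hCf := hM C hC (hJN.subset hCJ)
    exact hC.dep.not_indep (hJM C hCJ hCf)
  have hJMs : JM ⊆ J := hJ ▸ subset_union_left
  refine ⟨J, JM, JN, hind, hJN, hJ, hdisj, ?_⟩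
  refine Subset.antisymm (union_subset (M.closure_subset_ground _) ?_) ?_
  · rw [hE]; exact N.closure_subset_ground _
  · intro z hz
    have hz' : z ∈ (finitize M).closure JM ∪ N.closure JN := by
      rw [hcl]; exact hz
    rcases hz' with h | h
    · exact Or.inl (closure_finitize_subset (hind.subset hJMs) h)
    · exact Or.inr h

end Vale.Agent.P068.Gen
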