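import Vale.Agent.P068.Gen4

/-!
# Finite repair: finite defects are removed by finitely many augmentations.
-/

namespace Vale.Agent.P068.Gen

open Set Matroid

variable {α : Type*} {M N : Matroid α}

lemma isBasis_sdiff_comm {M : Matroid α} {X A B : Set α} (hA : M.IsBasis A X) (hB : M.IsBasis B X) :
    (A \ B).encard = (B \ A).encard :=
  (hA.isBase_restrict).encard_sdiff_comm hB.isBase_restrict

/-- Counting inside the closure of an independent set and a finite set. -/
lemma count {M : Matroid α} {I B F : Set α} (hI : M.Indep I) (hB : M.Indep B) (hF : F ⊆ M.E)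
    (hIcl : I ⊆ M.closure (B ∪ F)) :
    (I \ B).encard ≤ (B \ I).encard + F.encard + F.encard := by
  have hBF : B ∪ F ⊆ M.E := union_subset hB.subset_ground hF
  obtain ⟨B', hB', hBB'⟩ := hB.subset_isBasis_of_subset (subset_union_left (t := F)) hBF
  have hB'sub : B' ⊆ B ∪ F := hB'.subset
  have hB'E : B' ⊆ M.E := hB'.indep.subset_ground
  have hIcl' : I ⊆ M.closure B' := by rw [hB'.closure_eq_closure]; exact hIcl
  have hXE : I ∪ B' ⊆ M.E := union_subset hI.subset_ground hB'E
  obtain ⟨I', hI', hII'⟩ := hI.subset_isBasis_of_subset (subset_union_left (t := B')) hXE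
  have hB'X : M.IsBasis B' (I ∪ B') :=
    hB'.indep.isBasis_of_subset_of_subset_closure subset_union_right
      (union_subset hIcl' (M.subset_closure B' hB'E))
  have hcomm := isBasis_sdiff_comm hI' hB'X
  have h1 : I \ B ⊆ (I' \ B') ∪ F := by
    rintro x ⟨hxI, hxB⟩
    by_cases hxB' : x ∈ B'
    · rcases hB'sub hxB' with h | h
      · exact absurd h hxB
      · exact Or.inr h
    · exact Or.inl ⟨hII' hxI, hxB'⟩
  have h2 : B' \ I' ⊆ (B \ I) ∪ F := by
    rintro x ⟨hxB', hxI'⟩
    rcases hB'sub hxB' with h | h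
    · exact Or.inl ⟨h, fun h' => hxI' (hII' h')⟩
    · exact Or.inr h
  calc (I \ B).encard ≤ ((I' \ B') ∪ F).encard := encard_le_encard h1
    _ ≤ (I' \ B').encard + F.encard := encard_union_le _ _
    _ = (B' \ I').encard + F.encard := by rw [hcomm]
    _ ≤ ((B \ I) ∪ F).encard + F.encard := by gcongr
    _ ≤ (B \ I).encard + F.encard + F.encard := by
        gcongr
        exact encard_union_le _ _

/-- An independent set differs boundedly from a set with a finite defect. -/
lemma gain_bound {M N : Matroid α} {HM HN F K : Set α} (hE : M.E = N.E) (hMi : M.Indep (HM ∪ HN))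
    (hFE : F ⊆ M.E) (hdisj : Disjoint HM HN) (hNi : N.Indep (HM ∪ HN))
    (hcov : M.E ⊆ M.closure (HM ∪ F) ∪ N.closure (HN ∪ F)) (hKM : M.Indep K) (hKN : N.Indep K) :
    (K \ (HM ∪ HN)).encard ≤ ((HM ∪ HN) \ K).encard + 6 * F.encard := by
  classical
  set A := M.closure (HM ∪ F) with hA
  have hHME : HM ⊆ M.E := subset_union_left.trans hMi.subset_ground
  have hHMA : HM ⊆ A := (M.subset_closure (HM ∪ F) (union_subset hHME hFE)).trans' subset_union_left
  have hHMi : M.Indep HM := hMi.subset subset_union_left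
  have hHNi : N.Indep HN := hNi.subset subset_union_right
  have hFN : F ⊆ N.E := hE ▸ hFE
  -- the two parts of `K`
  have h1 : ((K ∩ A) \ HM).encard ≤ (HM \ (K ∩ A)).encard + F.encard + F.encard :=
    count (hKM.subset inter_subset_left) hHMi hFE inter_subset_right
  have hKB : K \ A ⊆ N.closure (HN ∪ F) := by
    rintro x ⟨hxK, hxA⟩
    rcases hcov (hKM.subset_ground hxK) with h | h
    · exact absurd h hxA
    · exact h
  have h2 : ((K \ A) \ HN).encard ≤ (HN \ (K \ A)).encard + F.encard + F.encard :=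
    count (hKN.subset sdiff_subset) hHNi hFN hKB
  -- the part of `HN` spanned on the `M` side
  have h3 : (HN ∩ A).encard ≤ F.encard + F.encard := by
    have hsub : HM ∪ (HN ∩ A) ⊆ HM ∪ HN := union_subset_union_right _ inter_subset_left
    have h := count (hMi.subset hsub) hHMi hFE (union_subset hHMA inter_subset_right)
    have e1 : (HM ∪ (HN ∩ A)) \ HM = HN ∩ A := by
      ext x
      constructor
      · rintro ⟨h | h, hx⟩
        · exact absurd h hx
        · exact h
      · intro h
        exact ⟨Or.inr h, fun hx => disjoint_left.1 hdisj hx h.1⟩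
    have e2 : HM \ (HM ∪ (HN ∩ A)) = ∅ := by
      ext x
      simp only [mem_sdiff, mem_union, mem_empty_iff_false, iff_false, not_and, not_or]
      intro hx hcon
      exact absurd hx hcon
    rw [e1, e2, encard_empty, zero_add] at h
    exact h
  -- assembling
  have hcov1 : K \ (HM ∪ HN) ⊆ ((K ∩ A) \ HM) ∪ ((K \ A) \ HN) := by
    rintro x ⟨hxK, hx⟩
    by_cases hxA : x ∈ A
    · exact Or.inl ⟨⟨hxK, hxA⟩, fun h => hx (Or.inl h)⟩
    · exact Or.inr ⟨⟨hxK, hxA⟩, fun h => hx (Or.inr h)⟩
  have hs1 : HM \ (K ∩ A) ⊆ HM \ K := by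
    rintro x ⟨hx, hx2⟩
    exact ⟨hx, fun h => hx2 ⟨h, hHMA hx⟩⟩
  have hs2 : HN \ (K \ A) ⊆ (HN \ K) ∪ (HN ∩ A) := by
    rintro x ⟨hx, hx2⟩
    by_cases hxK : x ∈ K
    · by_cases hxA : x ∈ A
      · exact Or.inr ⟨hx, hxA⟩
      · exact absurd ⟨hxK, hxA⟩ hx2
    · exact Or.inl ⟨hx, hxK⟩
  have hdd : (HM \ K).encard + (HN \ K).encard = ((HM ∪ HN) \ K).encard := by
    rw [union_sdiff_distrib]
    refine (encard_union_eq ?_).symm
    exact disjoint_of_subset sdiff_subset sdiff_subset hdisj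
  calc (K \ (HM ∪ HN)).encard ≤ (((K ∩ A) \ HM) ∪ ((K \ A) \ HN)).encard := encard_le_encard hcov1
    _ ≤ ((K ∩ A) \ HM).encard + ((K \ A) \ HN).encard := encard_union_le _ _
    _ ≤ ((HM \ (K ∩ A)).encard + F.encard + F.encard) +
        ((HN \ (K \ A)).encard + F.encard + F.encard) := add_le_add h1 h2
    _ ≤ ((HM \ K).encard + F.encard + F.encard) +
        (((HN \ K) ∪ (HN ∩ A)).encard + F.encard + F.encard) := by
        gcongr
    _ ≤ ((HM \ K).encard + F.encard + F.encard) +
        ((HN \ K).encard + (F.encard + F.encard) + F.encard + F.encard) := by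
        gcongr
        exact (encard_union_le _ _).trans (by gcongr)
    _ = ((HM \ K).encard + (HN \ K).encard) + 6 * F.encard := by ring
    _ = ((HM ∪ HN) \ K).encard + 6 * F.encard := by rw [hdd]

/-- A common independent set all of whose sources are dead solves the problem. -/
lemma solution_of_dead {H : Set α} (hE : M.E = N.E) (hM : M.Indep H) (hN : N.Indep H)
    (hsrc : ∀ z ∈ M.E, z ∉ N.closure H → z ∈ Dead M N H) : SatisfiesIntersection M N := by
  classical
  set Q := Dead M N H with hQ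
  have hcd : Closed M N H Q := closed_dead
  refine ⟨H, H ∩ Q, H \ Q, hM, hN, (inter_union_sdiff H Q).symm, ?_, ?_⟩
  · exact disjoint_left.2 fun x hx1 hx2 => hx2.2 hx1.2
  · refine Subset.antisymm (union_subset (M.closure_subset_ground _) ?_) ?_
    · rw [hE]; exact N.closure_subset_ground _
    · intro z hz
      by_cases hzQ : z ∈ Q
      · left
        by_cases hzH : z ∈ H
        · exact M.subset_closure _ (inter_subset_left.trans hM.subset_ground) ⟨hzH, hzQ⟩
        · exact hcd.mspan z hzQ hzH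
      · right
        have hzcl : z ∈ N.closure H := by
          by_contra hcon
          exact hzQ (hsrc z hz hcon)
        refine mem_closure_of_forall_sdiff hN sdiff_subset hzcl ?_
        rintro y ⟨hyH, hyQ⟩
        by_contra hcon
        refine hzQ (hcd.nclosed y ?_ hyH z hz hzcl hcon)
        by_contra hyQ'
        exact hyQ ⟨hyH, hyQ'⟩

/-- Differences of cardinalities through a finite window. -/
lemma diff_card {X Y U : Set α} (hU : U.Finite) (h1 : X \ Y ⊆ U) (h2 : Y \ X ⊆ U) :
    (((X \ Y).ncard : ℤ) - ((Y \ X).ncard : ℤ)) = ((X ∩ U).ncard : ℤ) - ((Y ∩ U).ncard : ℤ) := by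
  have hc : (X ∩ Y ∩ U).Finite := hU.inter_of_right _
  have e1 : X ∩ U = (X \ Y) ∪ (X ∩ Y ∩ U) := by
    ext x
    constructor
    · rintro ⟨hx, hxU⟩
      by_cases hxY : x ∈ Y
      · exact Or.inr ⟨⟨hx, hxY⟩, hxU⟩
      · exact Or.inl ⟨hx, hxY⟩
    · rintro (⟨hx, hxY⟩ | ⟨⟨hx, _⟩, hxU⟩)
      · exact ⟨hx, h1 ⟨hx, hxY⟩⟩
      · exact ⟨hx, hxU⟩
  have e2 : Y ∩ U = (Y \ X) ∪ (X ∩ Y ∩ U) := by
    ext x
    constructor
    · rintro ⟨hx, hxU⟩
      by_cases hxX : x ∈ X
      · exact Or.inr ⟨⟨hxX, hx⟩, hxU⟩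
      · exact Or.inl ⟨hx, hxX⟩
    · rintro (⟨hx, hxX⟩ | ⟨⟨_, hx⟩, hxU⟩)
      · exact ⟨hx, h2 ⟨hx, hxX⟩⟩
      · exact ⟨hx, hxU⟩
  have d1 : Disjoint (X \ Y) (X ∩ Y ∩ U) :=
    disjoint_left.2 fun x hx hx' => hx.2 hx'.1.2
  have d2 : Disjoint (Y \ X) (X ∩ Y ∩ U) :=
    disjoint_left.2 fun x hx hx' => hx.2 hx'.1.1
  have c1 := ncard_union_eq d1 (hU.subset h1) hc
  have c2 := ncard_union_eq d2 (hU.subset h2) hc
  rw [e1, e2, c1, c2]
  push_cast
  ring

/-- The gain of one augmentation. -/
lemma gain_step {H K K' : Set α} {d : α} (hK' : N.Indep K') (hins : N.Indep (insert d K))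
    (hcl : N.closure K' = N.closure (insert d K)) (hdK' : d ∈ K') (hdK : d ∉ K)
    (f1 : (K \ H).Finite) (f2 : (H \ K).Finite) (f3 : (K' \ H).Finite) (f4 : (H \ K').Finite) :
    (((K' \ H).ncard : ℤ) - ((H \ K').ncard : ℤ)) = ((K \ H).ncard : ℤ) - ((H \ K).ncard : ℤ) + 1 := by
  classical
  set U := (K \ H) ∪ (H \ K) ∪ (K' \ H) ∪ (H \ K') with hU
  have hUf : U.Finite := ((f1.union f2).union f3).union f4
  have s1 : K' \ K ⊆ U := by
    rintro x ⟨hx, hxK⟩
    by_cases hxH : x ∈ H
    · exact Or.inl (Or.inl (Or.inr ⟨hxH, hxK⟩))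
    · exact Or.inl (Or.inr ⟨hx, hxH⟩)
  have s2 : K \ K' ⊆ U := by
    rintro x ⟨hx, hxK⟩
    by_cases hxH : x ∈ H
    · exact Or.inr ⟨hxH, hxK⟩
    · exact Or.inl (Or.inl (Or.inl ⟨hx, hxH⟩))
  have a1 := diff_card (X := K') (Y := H) hUf (fun x hx => Or.inl (Or.inr hx)) (fun x hx => Or.inr hx)
  have a2 := diff_card (X := K) (Y := H) hUf (fun x hx => Or.inl (Or.inl (Or.inl hx)))
    (fun x hx => Or.inl (Or.inl (Or.inr hx)))
  have a3 := diff_card (X := K') (Y := K) hUf s1 s2
  -- the exchange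
  have hb1 : N.IsBasis K' (N.closure (insert d K)) := by
    rw [← hcl]; exact hK'.isBasis_closure
  have hb2 : N.IsBasis (insert d K) (N.closure (insert d K)) := hins.isBasis_closure
  have hcomm := isBasis_sdiff_comm hb1 hb2
  have e1 : K' \ insert d K = (K' \ K) \ {d} := by
    ext x
    simp only [mem_sdiff, mem_insert_iff, mem_singleton_iff, not_or]
    tauto
  have e2 : insert d K \ K' = K \ K' := by
    ext x
    simp only [mem_sdiff, mem_insert_iff]
    constructor
    · rintro ⟨rfl | hx, hx2⟩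
      · exact absurd hdK' hx2
      · exact ⟨hx, hx2⟩
    · rintro ⟨hx, hx2⟩
      exact ⟨Or.inr hx, hx2⟩
  rw [e1, e2] at hcomm
  have f5 : ((K' \ K) \ {d}).Finite := (hUf.subset s1).subset sdiff_subset
  have f6 : (K \ K').Finite := hUf.subset s2
  have hn : ((K' \ K) \ {d}).ncard = (K \ K').ncard := by
    rw [← Nat.cast_inj (R := ℕ∞), f5.cast_ncard_eq, f6.cast_ncard_eq]
    exact hcomm
  have hd : d ∈ K' \ K := ⟨hdK', hdK⟩
  have hn2 : ((K' \ K) \ {d}).ncard + 1 = (K' \ K).ncard := by
    rw [ncard_sdiff_singleton_of_mem hd]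
    have : 0 < (K' \ K).ncard := (ncard_pos (hUf.subset s1)).2 ⟨d, hd⟩
    omega
  have : ((K' \ K).ncard : ℤ) = (K \ K').ncard + 1 := by
    rw [← hn2, hn]
    push_cast
    ring
  linarith

/-- The repair theorem. -/
theorem repair {HM HN F : Set α} (hE : M.E = N.E) (hMi : M.Indep (HM ∪ HN)) (hNi : N.Indep (HM ∪ HN))
    (hFE : F ⊆ M.E) (hFf : F.Finite) (hdisj : Disjoint HM HN)
    (hcov : M.E ⊆ M.closure (HM ∪ F) ∪ N.closure (HN ∪ F)) : SatisfiesIntersection M N := by
  classical
  set H := HM ∪ HN with hH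
  set C : ℕ := 6 * F.ncard with hC
  have hbound : ∀ K, M.Indep K → N.Indep K → (K \ H).Finite → (H \ K).Finite →
      (K \ H).ncard ≤ (H \ K).ncard + C := by
    intro K h1 h2 f1 f2
    have h := gain_bound hE hMi hFE hdisj hNi hcov h1 h2
    rw [← f1.cast_ncard_eq, ← f2.cast_ncard_eq, ← hFf.cast_ncard_eq] at h
    have h' : (((K \ H).ncard : ℕ) : ℕ∞) ≤ (((H \ K).ncard + 6 * F.ncard : ℕ) : ℕ∞) := by
      push_cast
      exact h
    exact_mod_cast h'
  have key : ∀ n : ℕ, ∀ K, M.Indep K → N.Indep K → (K \ H).Finite → (H \ K).Finite →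
      (H \ K).ncard + C ≤ (K \ H).ncard + n → SatisfiesIntersection M N := by
    intro n
    induction n with
    | zero =>
      intro K h1 h2 f1 f2 hg
      by_cases hsrc : ∀ z ∈ M.E, z ∉ N.closure K → z ∈ Dead M N K
      · exact solution_of_dead hE h1 h2 hsrc
      · push Not at hsrc
        obtain ⟨d, hdE, hdN, hdD⟩ := hsrc
        obtain ⟨K', s, a1, a2, a3, a4, _, _, _, _, _, _, _, a5, a6⟩ := aug hE h1 h2 hdE hdN hdD
        have hdK : d ∉ K := fun h => hdN (N.subset_closure K h2.subset_ground h)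
        have hins : N.Indep (insert d K) :=
          h2.insert_indep_iff.2 (Or.inl ⟨hE ▸ hdE, hdN⟩)
        have f3 : (K' \ H).Finite := (a5.union f1).subset (by
          rintro x ⟨hx, hxH⟩
          by_cases hxK : x ∈ K
          · exact Or.inr ⟨hxK, hxH⟩
          · exact Or.inl ⟨hx, hxK⟩)
        have f4 : (H \ K').Finite := (f2.union a6).subset (by
          rintro x ⟨hx, hxK'⟩
          by_cases hxK : x ∈ K
          · exact Or.inr ⟨hxK, hxK'⟩
          · exact Or.inl ⟨hx, hxK⟩)
        have hs := gain_step (H := H) a2 hins a3 a4 hdK f1 f2 f3 f4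
        have hb := hbound K' a1 a2 f3 f4
        omega
    | succ n ih =>
      intro K h1 h2 f1 f2 hg
      by_cases hsrc : ∀ z ∈ M.E, z ∉ N.closure K → z ∈ Dead M N K
      · exact solution_of_dead hE h1 h2 hsrc
      · push Not at hsrc
        obtain ⟨d, hdE, hdN, hdD⟩ := hsrc
        obtain ⟨K', s, a1, a2, a3, a4, _, _, _, _, _, _, _, a5, a6⟩ := aug hE h1 h2 hdE hdN hdD
        have hdK : d ∉ K := fun h => hdN (N.subset_closure K h2.subset_ground h)
        have hins : N.Indep (insert d K) :=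
          h2.insert_indep_iff.2 (Or.inl ⟨hE ▸ hdE, hdN⟩)
        have f3 : (K' \ H).Finite := (a5.union f1).subset (by
          rintro x ⟨hx, hxH⟩
          by_cases hxK : x ∈ K
          · exact Or.inr ⟨hxK, hxH⟩
          · exact Or.inl ⟨hx, hxK⟩)
        have f4 : (H \ K').Finite := (f2.union a6).subset (by
          rintro x ⟨hx, hxK'⟩
          by_cases hxK : x ∈ K
          · exact Or.inr ⟨hxK, hxK'⟩
          · exact Or.inl ⟨hx, hxK⟩)
        have hs := gain_step (H := H) a2 hins a3 a4 hdK f1 f2 f3 f4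
        refine ih K' a1 a2 f3 f4 ?_
        omega
  refine key C H hMi hNi ?_ ?_ ?_
  · simp
  · simp
  · simp

/-- The closure in the finitarization of a finitarily independent set is contained in the closure
in the matroid itself. -/
lemma closure_finitize_mono {M : Matroid α} {S : Set α} {x : α} (hS : (finitize M).Indep S)
    (hx : x ∈ (finitize M).closure S) : x ∈ M.closure S := by
  classical
  have hSE : S ⊆ M.E := hS.subset_ground
  by_cases hxS : x ∈ S
  · exact M.subset_closure S hSE hxS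
  have hxE : x ∈ M.E := (finitize M).closure_subset_ground S hx
  have hnot : ¬ (finitize M).Indep (insert x S) := by
    intro hins
    exact ((hS.insert_indep_iff_of_notMem hxS).1 hins).2 hx
  rw [finitize_indep_iff] at hnot
  push Not at hnot
  obtain ⟨T, hT, hTf, hTn⟩ := hnot
  have hT' : T \ {x} ⊆ S := by
    rintro y ⟨hy, hyx⟩
    rcases hT hy with h | h
    · exact absurd h hyx
    · exact h
  have hTi : M.Indep (T \ {x}) := hS _ hT' (hTf.subset sdiff_subset)
  have hxT : x ∈ T := by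
    by_contra hcon
    rw [sdiff_singleton_eq_self hcon] at hTi
    exact hTn hTi
  have hcl : x ∈ M.closure (T \ {x}) := by
    by_contra hcon
    have h1 : M.Indep (insert x (T \ {x})) :=
      (hTi.insert_indep_iff_of_notMem (by simp)).2 ⟨hxE, hcon⟩
    rw [insert_sdiff_singleton, insert_eq_of_mem hxT] at h1
    exact hTn h1
  exact M.closure_mono hT' hcl

/-- The main theorem: everything reduces to the finitarizations, provided the defect is finite. -/
theorem main_excess (hE : M.E = N.E)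
    (hcr : ∀ I, (∀ F, F ⊆ I → F.Finite → N.Indep F) → I.Countable)
    (hX : ∀ J, (∀ F, F ⊆ J → F.Finite → M.Indep F ∧ N.Indep F) →
      ∃ J', J' ⊆ J ∧ (J \ J').Finite ∧ M.Indep J' ∧ N.Indep J') :
    SatisfiesIntersection M N := by
  classical
  obtain ⟨J, JM, JN, hJM, hJN, hJ, hdisj, hcl⟩ :=
    finitary_cr (M := finitize M) (N := finitize N) (by rw [finitize_E, finitize_E]; exact hE)
      (fun I hI => hcr I hI)
  obtain ⟨J', hJ'sub, hfin, hM', hN'⟩ := hX J fun F hF hff => ⟨hJM F hF hff, hJN F hF hff⟩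
  have hJMs : JM ⊆ J := hJ ▸ subset_union_left
  have hJNs : JN ⊆ J := hJ ▸ subset_union_right
  have hunion : (JM ∩ J') ∪ (JN ∩ J') = J' := by
    rw [← union_inter_distrib_right, ← hJ]
    exact inter_eq_right.2 hJ'sub
  have hFE : J \ J' ⊆ M.E := sdiff_subset.trans hJM.subset_ground
  refine repair (HM := JM ∩ J') (HN := JN ∩ J') (F := J \ J') hE (by rw [hunion]; exact hM')
    (by rw [hunion]; exact hN') hFE hfin
    (disjoint_of_subset inter_subset_left inter_subset_left hdisj) ?_
  intro z hz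
  have hz' : z ∈ (finitize M).closure JM ∪ (finitize N).closure JN := by
    rw [hcl]; exact hz
  rcases hz' with h | h
  · left
    refine M.closure_mono ?_ (closure_finitize_mono (hJM.subset hJMs) h)
    intro x hx
    by_cases hxJ' : x ∈ J'
    · exact Or.inl ⟨hx, hxJ'⟩
    · exact Or.inr ⟨hJMs hx, hxJ'⟩
  · right
    refine N.closure_mono ?_ (closure_finitize_mono (hJN.subset hJNs) h)
    intro x hx
    by_cases hxJ' : x ∈ J'
    · exact Or.inl ⟨hx, hxJ'⟩
    · exact Or.inr ⟨hJNs hx, hxJ'⟩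

end Vale.Agent.P068.Gen
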