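import Mathlib

/-!
# Two hypotheses on matroids used in the statements for P068.
-/

namespace Vale.Agent.P068

open Set Matroid

variable {β : Type*}

/-- A matroid is nearly finitary if every set all of whose finite subsets are independent becomes
independent after the removal of finitely many of its elements. -/
def IsNearlyFinitary (M : Matroid β) : Prop :=
  ∀ J : Set β, (∀ F : Set β, F ⊆ J → F.Finite → M.Indep F) →
    ∃ X : Set β, X ⊆ J ∧ X.Finite ∧ M.Indep (J \ X)

/-- Every set all of whose finite subsets are independent is countable: the finitarization of the
matroid has countable rank. -/
def HasCountableFinRank (M : Matroid β) : Prop :=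
  ∀ J : Set β, (∀ F : Set β, F ⊆ J → F.Finite → M.Indep F) → J.Countable

end Vale.Agent.P068
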