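import Vale.Agent.P068.Twin
import Vale.Agent.P068.NearlyDefs

/-!
# Direct sums of nearly finitary and nearly cofinitary matroids on countable sets.
-/

namespace Vale.Agent.P068.Gen

open Set Matroid

variable {α β : Type*}

lemma finSub_ground {M : Matroid β} {J : Set β}
    (hJ : ∀ F : Set β, F ⊆ J → F.Finite → M.Indep F) : J ⊆ M.E := fun x hx =>
  (hJ {x} (singleton_subset_iff.2 hx) (finite_singleton x)).subset_ground rfl

lemma nf_sum {P Q : Matroid β} (hP : IsNearlyFinitary P) (hQ : IsNearlyFinitary Q)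
    (h : Disjoint P.E Q.E) : IsNearlyFinitary (P.disjointSum Q h) := by
  intro J hJ
  have hJE := finSub_ground hJ
  rw [disjointSum_ground_eq] at hJE
  have hJP : ∀ F : Set β, F ⊆ J ∩ P.E → F.Finite → P.Indep F := by
    intro F hF hFf
    have h1 := (disjointSum_indep_iff.1 (hJ F (hF.trans inter_subset_left) hFf)).1
    rwa [inter_eq_left.2 (hF.trans inter_subset_right)] at h1
  have hJQ : ∀ F : Set β, F ⊆ J ∩ Q.E → F.Finite → Q.Indep F := by
    intro F hF hFf
    have h1 := (disjointSum_indep_iff.1 (hJ F (hF.trans inter_subset_left) hFf)).2.1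
    rwa [inter_eq_left.2 (hF.trans inter_subset_right)] at h1
  obtain ⟨X, hX, hXf, hXi⟩ := hP _ hJP
  obtain ⟨Y, hY, hYf, hYi⟩ := hQ _ hJQ
  refine ⟨X ∪ Y, union_subset (hX.trans inter_subset_left) (hY.trans inter_subset_left),
    hXf.union hYf, ?_⟩
  rw [disjointSum_indep_iff]
  refine ⟨hXi.subset ?_, hYi.subset ?_, sdiff_subset.trans hJE⟩
  · rintro x ⟨⟨hx, hxn⟩, hxP⟩
    exact ⟨⟨hx, hxP⟩, fun h' => hxn (Or.inl h')⟩
  · rintro x ⟨⟨hx, hxn⟩, hxQ⟩
    exact ⟨⟨hx, hxQ⟩, fun h' => hxn (Or.inr h')⟩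

lemma nf_map {γ : Type*} {Q : Matroid γ} (hQ : IsNearlyFinitary Q) (f : γ ↪ β) :
    IsNearlyFinitary (Q.mapEmbedding f) := by
  intro J hJ
  have hJ' : ∀ F : Set γ, F ⊆ f ⁻¹' J → F.Finite → Q.Indep F := by
    intro F hF hFf
    have h1 := hJ (f '' F) (image_subset_iff.2 hF) (hFf.image f)
    have h2 := (mapEmbedding_indep_iff.1 h1).1
    rwa [preimage_image_eq _ f.injective] at h2
  obtain ⟨X, hX, hXf, hXi⟩ := hQ _ hJ'
  refine ⟨f '' X, image_subset_iff.2 hX, hXf.image f, ?_⟩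
  rw [mapEmbedding_indep_iff]
  constructor
  · refine hXi.subset ?_
    rintro x ⟨hx, hxn⟩
    exact ⟨hx, fun h' => hxn ⟨x, h', rfl⟩⟩
  · rintro x ⟨hx, _⟩
    have h1 := finSub_ground hJ hx
    rw [mapEmbedding_ground_eq] at h1
    obtain ⟨a, _, rfl⟩ := h1
    exact mem_range_self a

lemma isNearlyFinitary_cap {ι : Type*} (G : Set β) (c : β → ι) (r : ι → ℕ∞) :
    IsNearlyFinitary (capMatroid G c r) := by
  intro J hJ
  refine ⟨∅, empty_subset _, finite_empty, ?_⟩
  rw [sdiff_empty]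
  exact capIndep_compact J fun F hF hFf => hJ F hF hFf

/-- The nearly finitary theorem, in terms of the two predicates. -/
theorem nearlyFin_countable {M N : Matroid β} (hE : M.E = N.E) (hcr : HasCountableFinRank N)
    (hM : IsNearlyFinitary M) (hN : IsNearlyFinitary N) : SatisfiesIntersection M N := by
  refine main_excess hE hcr ?_
  · intro J hJ
    obtain ⟨X, -, hXf, hX⟩ := hM J fun F hF hFf => (hJ F hF hFf).1
    obtain ⟨Y, -, hYf, hY⟩ := hN J fun F hF hFf => (hJ F hF hFf).2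
    refine ⟨J \ (X ∪ Y), sdiff_subset, ?_, ?_, ?_⟩
    · refine (hXf.union hYf).subset ?_
      rintro x ⟨hx, hx2⟩
      by_contra hcon
      exact hx2 ⟨hx, hcon⟩
    · exact hX.subset (sdiff_subset_sdiff_right subset_union_left)
    · exact hY.subset (sdiff_subset_sdiff_right subset_union_right)

lemma cr_sum {P Q : Matroid β} (hP : HasCountableFinRank P)
    (hQ : HasCountableFinRank Q) (h : Disjoint P.E Q.E) :
    HasCountableFinRank (P.disjointSum Q h) := by
  intro J hJ
  have hJE := finSub_ground hJ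
  rw [disjointSum_ground_eq] at hJE
  have hJP : ∀ F : Set β, F ⊆ J ∩ P.E → F.Finite → P.Indep F := by
    intro F hF hFf
    have h1 := (disjointSum_indep_iff.1 (hJ F (hF.trans inter_subset_left) hFf)).1
    rwa [inter_eq_left.2 (hF.trans inter_subset_right)] at h1
  have hJQ : ∀ F : Set β, F ⊆ J ∩ Q.E → F.Finite → Q.Indep F := by
    intro F hF hFf
    have h1 := (disjointSum_indep_iff.1 (hJ F (hF.trans inter_subset_left) hFf)).2.1
    rwa [inter_eq_left.2 (hF.trans inter_subset_right)] at h1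
  refine ((hP _ hJP).union (hQ _ hJQ)).mono ?_
  intro x hx
  rcases hJE hx with h' | h'
  · exact Or.inl ⟨hx, h'⟩
  · exact Or.inr ⟨hx, h'⟩

lemma cr_map {γ : Type*} {Q : Matroid γ} (hQ : HasCountableFinRank Q)
    (f : γ ↪ β) : HasCountableFinRank (Q.mapEmbedding f) := by
  intro J hJ
  have hJ' : ∀ F : Set γ, F ⊆ f ⁻¹' J → F.Finite → Q.Indep F := by
    intro F hF hFf
    have h1 := hJ (f '' F) (image_subset_iff.2 hF) (hFf.image f)
    have h2 := (mapEmbedding_indep_iff.1 h1).1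
    rwa [preimage_image_eq _ f.injective] at h2
  refine ((hQ _ hJ').image f).mono ?_
  intro x hx
  have h1 := finSub_ground hJ hx
  rw [mapEmbedding_ground_eq] at h1
  obtain ⟨a, _, rfl⟩ := h1
  exact ⟨a, hx, rfl⟩

lemma hasCountableFinRank_of_countable {M : Matroid β} (hc : M.E.Countable) :
    HasCountableFinRank M := fun _ hI => hc.mono (finSub_ground hI)

lemma si_symm {M N : Matroid β} (hE : M.E = N.E) (h : SatisfiesIntersection M N) :
    SatisfiesIntersection N M := by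
  obtain ⟨J, JM, JN, hJM, hJN, hJ, hd, hcl⟩ := h
  exact ⟨J, JN, JM, hJN, hJM, by rw [hJ, union_comm], hd.symm, by
    rw [union_comm, hcl, hE]⟩

/-- Intersection descends along embeddings. -/
lemma si_of_map {γ : Type*} {A B : Matroid γ} (f : γ ↪ β)
    (h : SatisfiesIntersection (A.mapEmbedding f) (B.mapEmbedding f)) :
    SatisfiesIntersection A B := by
  obtain ⟨J, JM, JN, hJM, hJN, hJ, hd, hcl⟩ := h
  refine ⟨f ⁻¹' J, f ⁻¹' JM, f ⁻¹' JN, (mapEmbedding_indep_iff.1 hJM).1,
    (mapEmbedding_indep_iff.1 hJN).1, by rw [hJ, preimage_union], hd.preimage f, ?_⟩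
  ext x
  have hx : f x ∈ (A.mapEmbedding f).closure JM ∪ (B.mapEmbedding f).closure JN ↔
      f x ∈ (A.mapEmbedding f).E := by rw [hcl]
  rw [mapEmbedding_ground_eq, f.injective.mem_set_image] at hx
  rw [← hx, mapEmbedding, mapEmbedding, map_closure_eq, map_closure_eq]
  simp only [mem_union, f.injective.mem_set_image]

/-- Mapping commutes with disjoint sums. -/
lemma map_disjointSum {γ : Type*} (A B : Matroid γ) (h : Disjoint A.E B.E) (f : γ ↪ β)
    (h' : Disjoint (A.mapEmbedding f).E (B.mapEmbedding f).E) :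
    (A.disjointSum B h).mapEmbedding f = (A.mapEmbedding f).disjointSum (B.mapEmbedding f) h' := by
  refine ext_indep ?_ ?_
  · simp only [mapEmbedding_ground_eq, disjointSum_ground_eq, image_union]
  · intro I _
    simp only [mapEmbedding_indep_iff, disjointSum_indep_iff, mapEmbedding_ground_eq]
    constructor
    · rintro ⟨⟨h1, h2, h3⟩, h4⟩
      refine ⟨⟨?_, inter_subset_right.trans (image_subset_range _ _)⟩,
        ⟨?_, inter_subset_right.trans (image_subset_range _ _)⟩, ?_⟩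
      · rwa [preimage_inter, preimage_image_eq _ f.injective]
      · rwa [preimage_inter, preimage_image_eq _ f.injective]
      · intro x hx
        obtain ⟨a, rfl⟩ := h4 hx
        rcases h3 hx with h5 | h5
        · exact Or.inl ⟨a, h5, rfl⟩
        · exact Or.inr ⟨a, h5, rfl⟩
    · rintro ⟨⟨h1, h2⟩, ⟨h3, h4⟩, h5⟩
      rw [preimage_inter, preimage_image_eq _ f.injective] at h1 h3
      refine ⟨⟨h1, h3, ?_⟩, ?_⟩
      · intro x hx
        rcases h5 hx with ⟨a, ha, he⟩ | ⟨a, ha, he⟩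
        · rw [← f.injective he]; exact Or.inl ha
        · rw [← f.injective he]; exact Or.inr ha
      · intro x hx
        rcases h5 hx with ⟨a, _, rfl⟩ | ⟨a, _, rfl⟩ <;> exact mem_range_self a

/-- Rearranging a threefold disjoint sum. -/
lemma disjointSum_rearrange {A B C : Matroid β} (hAB : Disjoint A.E B.E) (hAC : Disjoint A.E C.E)
    (_hBC : Disjoint B.E C.E) (h1 : Disjoint (A.disjointSum B hAB).E C.E)
    (h2 : Disjoint (A.disjointSum C hAC).E B.E) :
    (A.disjointSum B hAB).disjointSum C h1 = (A.disjointSum C hAC).disjointSum B h2 := by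
  refine ext_indep ?_ ?_
  · simp only [disjointSum_ground_eq]
    rw [union_assoc, union_assoc, union_comm B.E]
  · intro I _
    have e1 : I ∩ (A.E ∪ B.E) ∩ A.E = I ∩ A.E := by
      ext x; simp only [mem_inter_iff, mem_union]; tauto
    have e2 : I ∩ (A.E ∪ B.E) ∩ B.E = I ∩ B.E := by
      ext x; simp only [mem_inter_iff, mem_union]; tauto
    have e3 : I ∩ (A.E ∪ C.E) ∩ A.E = I ∩ A.E := by
      ext x; simp only [mem_inter_iff, mem_union]; tauto
    have e4 : I ∩ (A.E ∪ C.E) ∩ C.E = I ∩ C.E := by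
      ext x; simp only [mem_inter_iff, mem_union]; tauto
    simp only [disjointSum_indep_iff, disjointSum_ground_eq, e1, e2, e3, e4]
    constructor
    · rintro ⟨⟨h3, h4, _⟩, h5, h6⟩
      refine ⟨⟨h3, h5, inter_subset_right⟩, h4, ?_⟩
      intro x hx
      rcases h6 hx with (h7 | h7) | h7
      · exact Or.inl (Or.inl h7)
      · exact Or.inr h7
      · exact Or.inl (Or.inr h7)
    · rintro ⟨⟨h3, h5, _⟩, h4, h6⟩
      refine ⟨⟨h3, h4, inter_subset_right⟩, h5, ?_⟩
      intro x hx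
      rcases h6 hx with (h7 | h7) | h7
      · exact Or.inl (Or.inl h7)
      · exact Or.inr h7
      · exact Or.inl (Or.inr h7)

lemma disj_of_ne {X Y : Set (α × Fin 3)} {t : Fin 3} (hX : ∀ x ∈ X, x.2 ≠ t) (hY : ∀ y ∈ Y, y.2 = t) :
    Disjoint X Y :=
  disjoint_left.2 fun x hx hy => hX x hx (hY x hy)

lemma tag_mem {t : Fin 3} {X : Set α} : ∀ x ∈ tagE t '' X, x.2 = t := by
  rintro _ ⟨a, _, rfl⟩
  rfl

/-- The gadget: the pair after the first summands have been tagged. -/
theorem mixed_aux {m1 n1 : Matroid (α × Fin 3)} {M₂ N₂ : Matroid α}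
    (hm1t : ∀ x ∈ m1.E, x.2 = 0) (hn1t : ∀ x ∈ n1.E, x.2 = 0)
    (hdm : Disjoint m1.E (M₂.mapEmbedding (tagE 0)).E)
    (hdn : Disjoint n1.E (N₂.mapEmbedding (tagE 0)).E)
    (hE : m1.E ∪ tagE 0 '' M₂.E = n1.E ∪ tagE 0 '' N₂.E)
    (hcr1 : HasCountableFinRank n1) (hcr2 : HasCountableFinRank M₂✶) (hcN : N₂.E.Countable)
    (h1 : IsNearlyFinitary m1) (h2 : IsNearlyFinitary M₂✶) (h3 : IsNearlyFinitary n1) (h4 : IsNearlyFinitary N₂✶) :
    SatisfiesIntersection (m1.disjointSum (M₂.mapEmbedding (tagE 0)) hdm)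
      (n1.disjointSum (N₂.mapEmbedding (tagE 0)) hdn) := by
  classical
  have t01 : (0 : Fin 3) ≠ 1 := by decide
  have t02 : (0 : Fin 3) ≠ 2 := by decide
  have t12 : (1 : Fin 3) ≠ 2 := by decide
  have t10 : (1 : Fin 3) ≠ 0 := by decide
  have t20 : (2 : Fin 3) ≠ 0 := by decide
  have hm2E : (M₂.mapEmbedding (tagE 0)).E = tagE 0 '' M₂.E := by simp
  have hn2E : (N₂.mapEmbedding (tagE 0)).E = tagE 0 '' N₂.E := by simp
  have hD2E : ((N₂✶).mapEmbedding (tagE 1)).E = tagE 1 '' N₂.E := by simp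
  have hD3E : ((M₂✶).mapEmbedding (tagE 2)).E = tagE 2 '' M₂.E := by simp
  -- first twin
  have d1 : Disjoint (m1.disjointSum (M₂.mapEmbedding (tagE 0)) hdm).E
      ((N₂✶).mapEmbedding (tagE 1)).E := by
    rw [hD2E, disjointSum_ground_eq, hm2E]
    refine disj_of_ne (t := 1) ?_ tag_mem
    rintro x (hx | hx)
    · rw [hm1t x hx]; exact t01
    · rw [tag_mem x hx]; exact t01
  have d2 : Disjoint n1.E
      (capMatroid (tagE 0 '' N₂.E ∪ tagE 1 '' N₂.E) Prod.fst (fun _ => (1 : ℕ∞))).E := by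
    rw [capMatroid_E, disjoint_union_right]
    refine ⟨hn2E ▸ hdn, disj_of_ne (t := 1) ?_ tag_mem⟩
    intro x hx
    rw [hn1t x hx]; exact t01
  refine twin (Q := N₂) (t := 1) t10 hdn ?_ ?_ d1 d2 ?_
  · rw [disjointSum_ground_eq, hm2E, hn2E]; exact hE
  · intro x hx
    rw [disjointSum_ground_eq, hm2E] at hx
    rcases hx with hx | hx
    · rw [hm1t x hx]; exact t01
    · rw [tag_mem x hx]; exact t01
  -- rearrangement
  have d3 : Disjoint m1.E ((N₂✶).mapEmbedding (tagE 1)).E := by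
    rw [hD2E]
    refine disj_of_ne (t := 1) ?_ tag_mem
    intro x hx
    rw [hm1t x hx]; exact t01
  have d4 : Disjoint (M₂.mapEmbedding (tagE 0)).E ((N₂✶).mapEmbedding (tagE 1)).E := by
    rw [hD2E, hm2E]
    exact disj_of_ne (t := 1) (fun x hx => by rw [tag_mem x hx]; exact t01) tag_mem
  have d5 : Disjoint (m1.disjointSum ((N₂✶).mapEmbedding (tagE 1)) d3).E
      (M₂.mapEmbedding (tagE 0)).E := by
    rw [disjointSum_ground_eq, disjoint_union_left]
    exact ⟨hdm, d4.symm⟩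
  rw [disjointSum_rearrange hdm d3 d4 d1 d5]
  -- second twin
  have d6 : Disjoint (n1.disjointSum (capMatroid (tagE 0 '' N₂.E ∪ tagE 1 '' N₂.E) Prod.fst
      (fun _ => (1 : ℕ∞))) d2).E ((M₂✶).mapEmbedding (tagE 2)).E := by
    rw [hD3E, disjointSum_ground_eq, capMatroid_E]
    refine disj_of_ne (t := 2) ?_ tag_mem
    rintro x (hx | hx | hx)
    · rw [hn1t x hx]; exact t02
    · rw [tag_mem x hx]; exact t02
    · rw [tag_mem x hx]; exact t12
  have d7 : Disjoint (m1.disjointSum ((N₂✶).mapEmbedding (tagE 1)) d3).E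
      (capMatroid (tagE 0 '' M₂.E ∪ tagE 2 '' M₂.E) Prod.fst (fun _ => (1 : ℕ∞))).E := by
    rw [capMatroid_E, disjoint_union_right, disjointSum_ground_eq, hD2E, disjoint_union_left]
    refine ⟨⟨hm2E ▸ hdm, ?_⟩, ?_⟩
    · exact disj_of_ne (t := 0) (fun x hx => by rw [tag_mem x hx]; exact t10) tag_mem
    · refine disj_of_ne (t := 2) ?_ tag_mem
      rintro x (hx | hx)
      · rw [hm1t x hx]; exact t02
      · rw [tag_mem x hx]; exact t12
  have hEE : (n1.disjointSum (capMatroid (tagE 0 '' N₂.E ∪ tagE 1 '' N₂.E) Prod.fst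
      (fun _ => (1 : ℕ∞))) d2).E = (m1.disjointSum ((N₂✶).mapEmbedding (tagE 1)) d3).E ∪
        (M₂.mapEmbedding (tagE 0)).E := by
    rw [disjointSum_ground_eq, disjointSum_ground_eq, capMatroid_E, hD2E, hm2E]
    ext x
    have := Set.ext_iff.1 hE x
    simp only [mem_union] at this ⊢
    tauto
  refine si_symm (hEE.trans disjointSum_ground_eq.symm) ?_
  refine twin (Q := M₂) (t := 2) t20 d5 hEE ?_ d6 d7 ?_
  · intro x hx
    rw [disjointSum_ground_eq, capMatroid_E] at hx
    rcases hx with hx | hx | hx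
    · rw [hn1t x hx]; exact t02
    · rw [tag_mem x hx]; exact t02
    · rw [tag_mem x hx]; exact t12
  -- the final pair is nearly finitary
  have hEfin : ((n1.disjointSum (capMatroid (tagE 0 '' N₂.E ∪ tagE 1 '' N₂.E) Prod.fst
      (fun _ => (1 : ℕ∞))) d2).disjointSum ((M₂✶).mapEmbedding (tagE 2)) d6).E =
      ((m1.disjointSum ((N₂✶).mapEmbedding (tagE 1)) d3).disjointSum
        (capMatroid (tagE 0 '' M₂.E ∪ tagE 2 '' M₂.E) Prod.fst (fun _ => (1 : ℕ∞))) d7).E := by
    rw [disjointSum_ground_eq, disjointSum_ground_eq, disjointSum_ground_eq, disjointSum_ground_eq,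
      capMatroid_E, capMatroid_E, hD2E, hD3E]
    ext x
    have := Set.ext_iff.1 hE x
    simp only [mem_union] at this ⊢
    tauto
  refine si_symm hEfin.symm ?_
  refine nearlyFin_countable hEfin.symm ?_ ?_ ?_
  · refine cr_sum (cr_sum hcr1 ?_ d2) (cr_map hcr2 _) d6
    refine hasCountableFinRank_of_countable ?_
    rw [capMatroid_E]
    exact (hcN.image _).union (hcN.image _)
  · exact nf_sum (nf_sum h1 (nf_map h4 _) d3) (isNearlyFinitary_cap _ _ _) d7
  · exact nf_sum (nf_sum h3 (isNearlyFinitary_cap _ _ _) d2) (nf_map h2 _) d6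

/-- The main theorem on sums. -/
theorem mixed_general (M₁ M₂ N₁ N₂ : Matroid α) (hM : Disjoint M₁.E M₂.E)
    (hN : Disjoint N₁.E N₂.E) (hE : M₁.E ∪ M₂.E = N₁.E ∪ N₂.E)
    (hcr1 : HasCountableFinRank N₁) (hcr2 : HasCountableFinRank M₂✶) (hcN : N₂.E.Countable)
    (h1 : IsNearlyFinitary M₁) (h2 : IsNearlyFinitary M₂✶) (h3 : IsNearlyFinitary N₁)
    (h4 : IsNearlyFinitary N₂✶) :
    SatisfiesIntersection (M₁.disjointSum M₂ hM) (N₁.disjointSum N₂ hN) := by
  classical
  have hm : Disjoint (M₁.mapEmbedding (tagE 0)).E (M₂.mapEmbedding (tagE 0)).E := by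
    simp only [mapEmbedding_ground_eq]
    exact (disjoint_image_iff (tagE 0).injective).2 hM
  have hn : Disjoint (N₁.mapEmbedding (tagE 0)).E (N₂.mapEmbedding (tagE 0)).E := by
    simp only [mapEmbedding_ground_eq]
    exact (disjoint_image_iff (tagE 0).injective).2 hN
  refine si_of_map (tagE 0) ?_
  rw [map_disjointSum _ _ hM _ hm, map_disjointSum _ _ hN _ hn]
  refine mixed_aux ?_ ?_ hm hn ?_ (cr_map hcr1 _) hcr2 hcN (nf_map h1 _) h2 (nf_map h3 _) h4
  · intro x hx
    rw [mapEmbedding_ground_eq] at hx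
    exact tag_mem x hx
  · intro x hx
    rw [mapEmbedding_ground_eq] at hx
    exact tag_mem x hx
  · rw [mapEmbedding_ground_eq, mapEmbedding_ground_eq, ← image_union, ← image_union, hE]

/-- The countable case. -/
theorem mixed_countable (M₁ M₂ N₁ N₂ : Matroid α) (hM : Disjoint M₁.E M₂.E)
    (hN : Disjoint N₁.E N₂.E) (hE : M₁.E ∪ M₂.E = N₁.E ∪ N₂.E) (hc : (M₁.E ∪ M₂.E).Countable)
    (h1 : IsNearlyFinitary M₁) (h2 : IsNearlyFinitary M₂✶) (h3 : IsNearlyFinitary N₁)
    (h4 : IsNearlyFinitary N₂✶) :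
    SatisfiesIntersection (M₁.disjointSum M₂ hM) (N₁.disjointSum N₂ hN) := by
  have hc' : (N₁.E ∪ N₂.E).Countable := hE ▸ hc
  exact mixed_general M₁ M₂ N₁ N₂ hM hN hE
    (hasCountableFinRank_of_countable (hc'.mono subset_union_left))
    (hasCountableFinRank_of_countable (hc.mono subset_union_right))
    (hc'.mono subset_union_right) h1 h2 h3 h4

end Vale.Agent.P068.Gen
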