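import Vale.Agent.P068.Gen5

namespace Vale.Agent.P068.Gen
open Set Matroid
variable {α β : Type*}

lemma mem_closure_disjointSum_left {P Q : Matroid β} {h : Disjoint P.E Q.E} {S : Set β} {z : β}
    (hz : z ∈ P.E) : z ∈ (P.disjointSum Q h).closure S ↔ z ∈ P.closure (S ∩ P.E) := by
  classical
  obtain ⟨I, hI⟩ := P.exists_isBasis (S ∩ P.E) inter_subset_right
  obtain ⟨I', hI'⟩ := Q.exists_isBasis (S ∩ Q.E) inter_subset_right
  have hzD : z ∈ (P.disjointSum Q h).E := by
    rw [disjointSum_ground_eq]; exact Or.inl hz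
  have hIP : I ⊆ P.E := hI.indep.subset_ground
  have hIQ : I' ⊆ Q.E := hI'.indep.subset_ground
  have hIS : I ⊆ S := hI.subset.trans inter_subset_left
  have hIS' : I' ⊆ S := hI'.subset.trans inter_subset_left
  have e1 : I ∩ P.E = I := inter_eq_left.2 hIP
  have e2 : I' ∩ Q.E = I' := inter_eq_left.2 hIQ
  have e3 : I ∩ Q.E = ∅ := by
    ext x
    simp only [mem_inter_iff, mem_empty_iff_false, iff_false, not_and]
    exact fun hx hx2 => disjoint_left.1 h (hIP hx) hx2
  have e4 : I' ∩ P.E = ∅ := by
    ext x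
    simp only [mem_inter_iff, mem_empty_iff_false, iff_false, not_and]
    exact fun hx hx2 => disjoint_left.1 h hx2 (hIQ hx)
  constructor
  · intro hcl
    by_contra hcon
    rw [← hI.closure_eq_closure] at hcon
    have hzI : z ∉ I := fun hzI => hcon (P.subset_closure I hIP hzI)
    have hzI' : z ∉ I' := fun hzI' => disjoint_left.1 h hz (hIQ hzI')
    have hins : P.Indep (insert z I) := hI.indep.insert_indep_iff.2 (Or.inl ⟨hz, hcon⟩)
    have hD : (P.disjointSum Q h).Indep (I ∪ I') := by
      rw [disjointSum_indep_iff]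
      refine ⟨?_, ?_, union_subset_union hIP hIQ⟩
      · rw [union_inter_distrib_right, e1, e4, union_empty]; exact hI.indep
      · rw [union_inter_distrib_right, e2, e3, empty_union]; exact hI'.indep
    have hD2 : (P.disjointSum Q h).Indep (insert z (I ∪ I')) := by
      rw [disjointSum_indep_iff]
      refine ⟨?_, ?_, ?_⟩
      · have : insert z (I ∪ I') ∩ P.E = insert z I := by
          rw [insert_inter_of_mem hz, union_inter_distrib_right, e1, e4, union_empty]
        rw [this]; exact hins
      · have : insert z (I ∪ I') ∩ Q.E = I' := by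
          rw [insert_inter_of_notMem (fun hq => disjoint_left.1 h hz hq),
            union_inter_distrib_right, e2, e3, empty_union]
        rw [this]; exact hI'.indep
      · exact insert_subset (Or.inl hz) (union_subset_union hIP hIQ)
    have hb : (P.disjointSum Q h).IsBasis (I ∪ I') (S ∩ (P.disjointSum Q h).E) := by
      rw [disjointSum_isBasis_iff]
      have e5 : S ∩ (P.disjointSum Q h).E ∩ P.E = S ∩ P.E := by
        rw [disjointSum_ground_eq]
        ext x
        simp only [mem_inter_iff, mem_union]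
        tauto
      have e6 : S ∩ (P.disjointSum Q h).E ∩ Q.E = S ∩ Q.E := by
        rw [disjointSum_ground_eq]
        ext x
        simp only [mem_inter_iff, mem_union]
        tauto
      refine ⟨?_, ?_, ?_, ?_⟩
      · rw [e5, union_inter_distrib_right, e1, e4, union_empty]; exact hI
      · rw [e6, union_inter_distrib_right, e2, e3, empty_union]; exact hI'
      · refine union_subset (fun x hx => ⟨hIS hx, ?_⟩) (fun x hx => ⟨hIS' hx, ?_⟩)
        · rw [disjointSum_ground_eq]; exact Or.inl (hIP hx)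
        · rw [disjointSum_ground_eq]; exact Or.inr (hIQ hx)
      · rw [← disjointSum_ground_eq (h := h)]; exact inter_subset_right
    have hcl2 : z ∈ (P.disjointSum Q h).closure (I ∪ I') := by
      rw [hb.closure_eq_closure, closure_inter_ground]; exact hcl
    have hzn : z ∉ I ∪ I' := fun hc => hc.elim hzI hzI'
    exact ((hD.insert_indep_iff_of_notMem hzn).1 hD2).2 hcl2
  · intro hcl
    by_contra hcon
    have hD : (P.disjointSum Q h).Indep I := by
      rw [disjointSum_indep_iff]
      refine ⟨?_, ?_, hIP.trans subset_union_left⟩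
      · rw [e1]; exact hI.indep
      · rw [e3]; exact Q.empty_indep
    have hcon2 : z ∉ (P.disjointSum Q h).closure I := fun hc => hcon (closure_subset_closure _ hIS hc)
    have hins := hD.insert_indep_iff.2 (Or.inl ⟨hzD, hcon2⟩)
    rw [disjointSum_indep_iff] at hins
    have e7 : insert z I ∩ P.E = insert z I := inter_eq_left.2 (insert_subset hz hIP)
    have h1 := hins.1
    rw [e7] at h1
    rw [← hI.closure_eq_closure] at hcl
    by_cases hzI : z ∈ I
    · exact hcon2 (closure_subset_closure _ (singleton_subset_iff.2 hzI)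
        ((P.disjointSum Q h).mem_closure_self z hzD))
    · exact ((hI.indep.insert_indep_iff_of_notMem hzI).1 h1).2 hcl

lemma mem_closure_disjointSum_right {P Q : Matroid β} {h : Disjoint P.E Q.E} {S : Set β} {z : β}
    (hz : z ∈ Q.E) : z ∈ (P.disjointSum Q h).closure S ↔ z ∈ Q.closure (S ∩ Q.E) := by
  rw [disjointSum_comm]
  exact mem_closure_disjointSum_left hz


/-- In a partition matroid of rank-one classes, independent sets meet each class at most once. -/
lemma cap_unique {ι : Type*} {G : Set β} {c : β → ι} {I : Set β}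
    (hI : (capMatroid G c (fun _ => 1)).Indep I) {x y : β} (hx : x ∈ I) (hy : y ∈ I)
    (hxy : c x = c y) : x = y := by
  by_contra hne
  have h := ((capMatroid_indep_iff).1 hI).2 (c x)
  have hsub : ({x, y} : Set β) ⊆ I ∩ c ⁻¹' {c x} := by
    rintro w (rfl | hw)
    · exact ⟨hx, rfl⟩
    · rw [mem_singleton_iff] at hw
      subst hw
      exact ⟨hy, hxy.symm⟩
  have h2 : ({x, y} : Set β).encard = 2 := encard_pair hne
  have h3 := encard_le_encard hsub
  rw [h2] at h3
  have h4 := h3.trans h
  exact absurd h4 (by norm_num)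

/-- The closure in a partition matroid of rank-one classes. -/
lemma cap_closure {ι : Type*} {G : Set β} {c : β → ι} {X : Set β} {z : β}
    (hz : z ∈ (capMatroid G c (fun _ => 1)).closure X) : ∃ y ∈ X, c y = c z := by
  classical
  by_contra hcon
  push Not at hcon
  set P := capMatroid G c (fun _ => 1) with hP
  have hzE : z ∈ P.E := P.closure_subset_ground X hz
  obtain ⟨I, hI⟩ := P.exists_isBasis (X ∩ P.E) inter_subset_right
  have hIX : I ⊆ X := hI.subset.trans inter_subset_left
  have hzI : z ∉ I := fun h => hcon z (hIX h) rfl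
  have hcl : z ∈ P.closure I := by
    rw [hI.closure_eq_closure, closure_inter_ground]; exact hz
  have hins : P.Indep (insert z I) := by
    rw [hP, capMatroid_indep_iff]
    have hI' := (capMatroid_indep_iff).1 hI.indep
    refine ⟨insert_subset hzE hI'.1, fun i => ?_⟩
    by_cases hi : i = c z
    · subst hi
      have : insert z I ∩ c ⁻¹' {c z} = {z} := by
        ext w
        simp only [mem_inter_iff, mem_insert_iff, mem_preimage, mem_singleton_iff]
        constructor
        · rintro ⟨rfl | hw, h2⟩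
          · rfl
          · exact absurd h2 (hcon w (hIX hw))
        · rintro rfl
          exact ⟨Or.inl rfl, rfl⟩
      rw [this, encard_singleton]
    · have : insert z I ∩ c ⁻¹' {i} = I ∩ c ⁻¹' {i} := by
        ext w
        simp only [mem_inter_iff, mem_insert_iff, mem_preimage, mem_singleton_iff]
        constructor
        · rintro ⟨rfl | hw, h2⟩
          · exact absurd h2.symm hi
          · exact ⟨hw, h2⟩
        · rintro ⟨hw, h2⟩
          exact ⟨Or.inr hw, h2⟩
      rw [this]
      exact hI'.2 i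
  exact ((hI.indep.insert_indep_iff_of_notMem hzI).1 hins).2 hcl

/-- The tag embeddings into the ambient type of the gadget. -/
def tagE (t : Fin 3) : α ↪ α × Fin 3 := ⟨fun a => (a, t), fun _ _ h => (Prod.mk.inj h).1⟩

@[simp] lemma tagE_apply (t : Fin 3) (a : α) : tagE t a = (a, t) := rfl

/-- The twin lemma: a summand `Q` of the second matroid may be replaced by rank-one classes
`{(a, 0), (a, t)}`, at the price of adding the dual of `Q` on the copies `(a, t)` to the first
matroid. -/
theorem twin {M NA : Matroid (α × Fin 3)} {Q : Matroid α} {t : Fin 3} (ht : t ≠ 0)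
    (hd : Disjoint NA.E (Q.mapEmbedding (tagE 0)).E)
    (hE : M.E = NA.E ∪ (Q.mapEmbedding (tagE 0)).E)
    (hM : ∀ x ∈ M.E, x.2 ≠ t)
    (hd1 : Disjoint M.E ((Q✶).mapEmbedding (tagE t)).E)
    (hd2 : Disjoint NA.E
      (capMatroid (tagE 0 '' Q.E ∪ tagE t '' Q.E) Prod.fst (fun _ => (1 : ℕ∞))).E)
    (hsol : SatisfiesIntersection (M.disjointSum ((Q✶).mapEmbedding (tagE t)) hd1)
      (NA.disjointSum (capMatroid (tagE 0 '' Q.E ∪ tagE t '' Q.E) Prod.fst (fun _ => (1 : ℕ∞))) hd2)) :
    SatisfiesIntersection M (NA.disjointSum (Q.mapEmbedding (tagE 0)) hd) := by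
  classical
  obtain ⟨J, JM, JN, hJM, hJN, hJ, hdisj, hcl⟩ := hsol
  set D := (Q✶).mapEmbedding (tagE t) with hD
  set G := tagE 0 '' Q.E ∪ tagE t '' Q.E with hG
  set P := capMatroid G Prod.fst (fun _ => (1 : ℕ∞)) with hP
  set Mp := M.disjointSum D hd1 with hMp
  set Np := NA.disjointSum P hd2 with hNp
  have hDE : D.E = tagE t '' Q.E := by rw [hD, mapEmbedding_ground_eq, dual_ground]
  have hPE : P.E = G := by rw [hP, capMatroid_E]
  have hQE : (Q.mapEmbedding (tagE 0)).E = tagE 0 '' Q.E := by rw [mapEmbedding_ground_eq]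
  have hJMs : JM ⊆ J := hJ ▸ subset_union_left
  have hJNs : JN ⊆ J := hJ ▸ subset_union_right
  have hi0M : ∀ a ∈ Q.E, ((a, 0) : α × Fin 3) ∈ M.E := fun a ha => by
    rw [hE, hQE]
    exact Or.inr ⟨a, ha, rfl⟩
  have hfD : ∀ a ∈ Q.E, ((a, t) : α × Fin 3) ∈ D.E := fun a ha => by
    rw [hDE]; exact ⟨a, ha, rfl⟩
  have hiP : ∀ a ∈ Q.E, ((a, 0) : α × Fin 3) ∈ P.E := fun a ha => by
    rw [hPE]; exact Or.inl ⟨a, ha, rfl⟩
  have hfP : ∀ a ∈ Q.E, ((a, t) : α × Fin 3) ∈ P.E := fun a ha => by
    rw [hPE]; exact Or.inr ⟨a, ha, rfl⟩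
  have hMpE : Mp.E = M.E ∪ D.E := by rw [hMp, disjointSum_ground_eq]
  -- independence facts
  have hJ1 := hJM
  rw [hMp, disjointSum_indep_iff] at hJ1
  obtain ⟨h1, h2, h3⟩ := hJ1
  have hJ2 := hJN
  rw [hNp, disjointSum_indep_iff] at hJ2
  obtain ⟨h4, h5, h6⟩ := hJ2
  -- copies in `J`
  have hfJ : ∀ {a : α}, ((a, t) : α × Fin 3) ∈ J → a ∈ Q.E := by
    intro a ha
    rcases h3 ha with h | h
    · exact absurd rfl (hM _ h)
    · rw [hDE] at h
      obtain ⟨a', ha', he⟩ := h
      rw [tagE_apply] at he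
      rwa [← (Prod.mk.inj he).1]
  -- the class of an element
  have hclass : ∀ {a : α}, a ∈ Q.E → ((a, 0) : α × Fin 3) ∈ J → ((a, t) : α × Fin 3) ∈ J → False := by
    intro a ha h7 h8
    have := cap_unique h5 (x := ((a, 0) : α × Fin 3)) (y := ((a, t) : α × Fin 3))
      ⟨h7, hiP a ha⟩ ⟨h8, hfP a ha⟩ rfl
    exact ht (Prod.mk.inj this).2.symm
  have hNclass : ∀ {a : α} {u : Fin 3}, a ∈ Q.E → ((a, u) : α × Fin 3) ∈ P.E →
      ((a, u) : α × Fin 3) ∈ Np.closure JN → ((a, 0) : α × Fin 3) ∈ JN ∨ ((a, t) : α × Fin 3) ∈ JN := by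
    intro a u _ hu hcl2
    rw [hNp, mem_closure_disjointSum_right hu] at hcl2
    obtain ⟨y, hy, hyc⟩ := cap_closure hcl2
    have hyG : y ∈ G := by rw [← hPE]; exact hy.2
    obtain ⟨y1, y2⟩ := y
    have hy1 : y1 = a := hyc
    subst hy1
    rcases hyG with ⟨a', _, he⟩ | ⟨a', _, he⟩
    · rw [tagE_apply] at he
      have := (Prod.mk.inj he).2
      subst this
      exact Or.inl hy.1
    · rw [tagE_apply] at he
      have := (Prod.mk.inj he).2
      subst this
      exact Or.inr hy.1
  -- the coindependent set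
  set L : Set α := {a | ((a, t) : α × Fin 3) ∈ JM} with hL
  set U : Set α := {a | ((a, t) : α × Fin 3) ∈ J} with hU
  have hLU : L ⊆ U := fun a ha => hJMs ha
  have hUind : Q✶.Indep U := by
    have h8 := (mapEmbedding_indep_iff.1 h2).1
    refine h8.subset ?_
    intro a ha
    exact ⟨ha, hfD a (hfJ ha)⟩
  have hUE : U ⊆ Q.E := fun a ha => hfJ ha
  have hLind : Q✶.Indep L := hUind.subset hLU
  obtain ⟨B0, hB0, hB0U⟩ := (dual_indep_iff_exists' (M := Q)).1 hUind |>.2
  set W : Set α := {a | a ∈ Q.E ∧ ((a, t) : α × Fin 3) ∈ Mp.closure JM} with hW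
  have hLW : ∀ a ∈ L, a ∈ Q.E → a ∈ W := fun a ha haE =>
    ⟨haE, Mp.subset_closure JM (hJMs.trans hJM.subset_ground) ha⟩
  have hWcl : ∀ a ∈ W, a ∈ Q✶.closure L := by
    rintro a ⟨haE, hac⟩
    rw [hMp, mem_closure_disjointSum_right (hfD a haE), hD] at hac
    rw [mapEmbedding, map_closure_eq] at hac
    obtain ⟨a', ha', he⟩ := hac
    have : a' = a := (tagE t).injective he
    subst this
    refine closure_subset_closure _ ?_ ha'
    intro x hx
    exact hx.1
  -- elements of `W \ L` are coloops outside `L`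
  have hcol : ∀ y ∈ W, y ∉ L → y ∉ Q.closure ((Q.E \ L) \ {y}) := by
    intro y hy hyL hcon
    have hspan : Q.Spanning (Q.E \ insert y L) := by
      have hsub : Q.E \ insert y L ⊆ Q.E := sdiff_subset
      rw [spanning_iff_ground_subset_closure hsub]
      have e : Q.E \ insert y L = (Q.E \ L) \ {y} := by
        ext x
        simp only [mem_sdiff, mem_insert_iff, mem_singleton_iff, not_or]
        tauto
      rw [e]
      have hB : B0 ⊆ insert y ((Q.E \ L) \ {y}) := by
        intro x hx
        by_cases hxy : x = y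
        · exact Or.inl hxy
        · refine Or.inr ⟨⟨hB0.subset_ground hx, fun hxL => ?_⟩, hxy⟩
          exact disjoint_left.1 hB0U (hLU hxL) hx
      have h9 := Q.closure_subset_closure hB
      rw [closure_insert_eq_of_mem_closure hcon, hB0.closure_eq] at h9
      exact h9
    have hco : Q✶.Indep (insert y L) := by
      have hsub : insert y L ⊆ Q.E := insert_subset hy.1 (hLU.trans hUE)
      exact (coindep_iff_compl_spanning hsub).2 hspan
    exact ((hLind.insert_indep_iff_of_notMem hyL).1 hco).2 (hWcl y hy)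
  have hWB0 : ∀ y ∈ W, y ∉ L → y ∈ B0 := by
    intro y hy hyL
    by_contra hyB
    refine hcol y hy hyL ?_
    have hsub : B0 ⊆ (Q.E \ L) \ {y} := by
      intro x hx
      refine ⟨⟨hB0.subset_ground hx, fun hxL => disjoint_left.1 hB0U (hLU hxL) hx⟩, ?_⟩
      rintro rfl
      exact hyB hx
    refine Q.closure_subset_closure hsub ?_
    rw [hB0.closure_eq]
    exact hy.1
  set B1 : Set α := B0 \ W with hB1
  have hB1N : ∀ a ∈ B1, ((a, 0) : α × Fin 3) ∈ JN := by
    rintro a ⟨haB, haW⟩
    have haE : a ∈ Q.E := hB0.subset_ground haB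
    have hnot : ((a, t) : α × Fin 3) ∉ Mp.closure JM := fun h => haW ⟨haE, h⟩
    have hin : ((a, t) : α × Fin 3) ∈ Mp.closure JM ∪ Np.closure JN := by
      rw [hcl, hMpE]
      exact Or.inr (hfD a haE)
    have h9 : ((a, t) : α × Fin 3) ∈ Np.closure JN := hin.resolve_left hnot
    rcases hNclass haE (hfP a haE) h9 with h | h
    · exact h
    · exact absurd haB (disjoint_left.1 hB0U (hJNs h))
  have hLnotZ : ∀ {z : α}, z ∈ Q.E → z ∉ W → z ∉ L := by
    intro z hz hzW hzL
    exact hzW (hLW z hzL hz)
  have hZ : ∀ z ∈ Q.E, z ∉ W → z ∈ Q.closure B1 := by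
    intro z hzE hzW
    have hz0 : z ∈ Q.closure B0 := by rw [hB0.closure_eq]; exact hzE
    refine mem_closure_of_forall_sdiff hB0.indep sdiff_subset hz0 ?_
    rintro y ⟨hyB, hyB1⟩
    by_contra hcon
    have hyW : y ∈ W := by
      by_contra hyW
      exact hyB1 ⟨hyB, hyW⟩
    have hyL : y ∉ L := fun h => disjoint_left.1 hB0U (hLU h) hyB
    have h9 : z ∈ Q.closure (insert y (B0 \ {y})) := by
      rw [insert_sdiff_singleton, insert_eq_of_mem hyB]; exact hz0
    have h10 := mem_closure_insert hcon h9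
    refine hcol y hyW hyL (Q.closure_subset_closure ?_ h10)
    intro x hx
    rcases hx with rfl | hx
    · refine ⟨⟨hzE, hLnotZ hzE hzW⟩, ?_⟩
      rintro rfl
      exact hzW hyW
    · exact ⟨⟨hB0.subset_ground hx.1, fun hxL => disjoint_left.1 hB0U (hLU hxL) hx.1⟩, hx.2⟩
  -- the new solution
  set JNn : Set (α × Fin 3) := (JN ∩ NA.E) ∪ (tagE 0 '' B1) ∪ (JN ∩ tagE 0 '' W) with hJNn
  have hNAM : NA.E ⊆ M.E := by rw [hE]; exact subset_union_left
  have hJNnJN : JNn ⊆ JN := by
    rintro x ((hx | ⟨a, ha, rfl⟩) | hx)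
    · exact hx.1
    · exact hB1N a ha
    · exact hx.1
  have hQM : ∀ a ∈ Q.E, tagE 0 a ∈ M.E := fun a ha => hi0M a ha
  have hJNnM : JNn ⊆ M.E := by
    rintro x ((hx | ⟨a, ha, rfl⟩) | ⟨_, a, ha, rfl⟩)
    · exact hNAM hx.2
    · exact hQM a (hB0.subset_ground ha.1)
    · exact hQM a ha.1
  have hEN : (NA.disjointSum (Q.mapEmbedding (tagE 0)) hd).E = M.E := by
    rw [disjointSum_ground_eq, hE]
  have hnotL : ∀ {a : α}, a ∈ Q.E → ((a, 0) : α × Fin 3) ∈ J → a ∉ L := by
    intro a ha h7 h8
    exact hclass ha h7 (hJMs h8)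
  have hJMW : ∀ {a : α}, a ∈ Q.E → ((a, 0) : α × Fin 3) ∈ JM → a ∈ W := by
    intro a ha h7
    by_contra hnot
    have hnot' : ((a, t) : α × Fin 3) ∉ Mp.closure JM := fun h => hnot ⟨ha, h⟩
    have hin : ((a, t) : α × Fin 3) ∈ Mp.closure JM ∪ Np.closure JN := by
      rw [hcl, hMpE]
      exact Or.inr (hfD a ha)
    have h9 := hin.resolve_left hnot'
    rcases hNclass ha (hfP a ha) h9 with h | h
    · exact disjoint_left.1 hdisj h7 h
    · exact hclass ha (hJMs h7) (hJNs h)
  refine ⟨(JM ∩ M.E) ∪ JNn, JM ∩ M.E, JNn, ?_, ?_, rfl, ?_, ?_⟩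
  · refine h1.subset (union_subset ?_ ?_)
    · exact inter_subset_inter_left _ hJMs
    · exact fun x hx => ⟨hJNs (hJNnJN hx), hJNnM hx⟩
  · rw [disjointSum_indep_iff]
    refine ⟨?_, ?_, ?_⟩
    · refine h4.subset ?_
      rintro x ⟨hx | hx, hxA⟩
      · exact ⟨hJMs hx.1, hxA⟩
      · exact ⟨hJNs (hJNnJN hx), hxA⟩
    · rw [mapEmbedding_indep_iff]
      refine ⟨hB0.indep.subset ?_, ?_⟩
      · rintro a ⟨hx, hxQ⟩
        rw [hQE] at hxQ
        obtain ⟨a', ha', he⟩ := hxQ
        have haE : a ∈ Q.E := (tagE 0).injective he ▸ ha'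
        rcases hx with hx | hx
        · have h7 : ((a, 0) : α × Fin 3) ∈ JM := hx.1
          exact hWB0 a (hJMW haE h7) (hnotL haE (hJMs h7))
        · rcases hx with (hx | ⟨a2, ha2, he2⟩) | hx
          · exact absurd hx.2 (fun hA => disjoint_left.1 hd hA (by rw [hQE]; exact ⟨a, haE, rfl⟩))
          · rw [← (tagE 0).injective he2]; exact ha2.1
          · have hx1 := hx.1
            obtain ⟨_, a2, ha2, he2⟩ := hx
            have : a2 = a := (tagE 0).injective he2
            subst this
            exact hWB0 a2 ha2 (hnotL haE (hJNs hx1))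
      · rintro x ⟨_, hxQ⟩
        rw [hQE] at hxQ
        obtain ⟨a', _, rfl⟩ := hxQ
        exact mem_range_self a'
    · rw [← hE]
      exact union_subset inter_subset_right hJNnM
  · exact disjoint_of_subset inter_subset_left hJNnJN hdisj
  · refine Subset.antisymm (union_subset (M.closure_subset_ground _) ?_) ?_
    · rw [← hEN]; exact Matroid.closure_subset_ground _ _
    · intro z hz
      have hin : z ∈ Mp.closure JM ∪ Np.closure JN := by
        rw [hcl, hMpE]; exact Or.inl hz
      rcases hin with hzc | hzc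
      · left
        rw [hMp, mem_closure_disjointSum_left hz] at hzc
        exact hzc
      · right
        have hz' := hz
        rw [hE] at hz'
        rcases hz' with hzA | hzQ
        · rw [hNp, mem_closure_disjointSum_left hzA] at hzc
          rw [mem_closure_disjointSum_left hzA]
          refine NA.closure_subset_closure ?_ hzc
          rintro x ⟨hx, hxA⟩
          exact ⟨Or.inl (Or.inl ⟨hx, hxA⟩), hxA⟩
        · rw [mem_closure_disjointSum_right hzQ]
          rw [hQE] at hzQ
          obtain ⟨a, haE, rfl⟩ := hzQ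
          rw [mapEmbedding, map_closure_eq]
          refine ⟨a, ?_, rfl⟩
          by_cases haW : a ∈ W
          · -- the element itself lies in the set
            have hz2 : ((a, 0) : α × Fin 3) ∈ Np.closure JN := hzc
            have hmem : ((a, 0) : α × Fin 3) ∈ JN := by
              rcases hNclass haE (hiP a haE) hz2 with h | h
              · exact h
              · exfalso
                have hnm : ((a, t) : α × Fin 3) ∉ JM := fun h' => disjoint_left.1 hdisj h' h
                have hsub : JM ⊆ J \ {((a, t) : α × Fin 3)} := fun x hx =>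
                  ⟨hJMs hx, by
                    rintro rfl
                    exact hnm hx⟩
                exact hJM.notMem_closure_sdiff_of_mem (hJNs h)
                  (Mp.closure_subset_closure hsub haW.2)
            refine Q.subset_closure _ ?_ ?_
            · rintro x ⟨_, hx⟩
              have hx' : tagE 0 x ∈ tagE 0 '' Q.E := hx
              obtain ⟨a', ha', he⟩ := hx'
              rwa [← (tagE 0).injective he]
            · exact ⟨Or.inr ⟨hmem, a, haW, rfl⟩, ⟨a, haE, rfl⟩⟩
          · refine Q.closure_subset_closure ?_ (hZ a haE haW)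
            intro x hx
            have hxE : x ∈ Q.E := hB0.subset_ground hx.1
            exact ⟨Or.inl (Or.inr ⟨x, hx, rfl⟩), ⟨x, hxE, rfl⟩⟩

end Vale.Agent.P068.Gen
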