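import Vale.Agent.P068.Core

/-!
# Maximal waves in finitary matroids, one step of the construction, and the countable limit.
-/

namespace Vale.Agent.P068

open Set Matroid

variable {α ι : Type*}

lemma wave_empty (M : Matroid α) (c : α → ι) : IsWave M c ∅ ∅ :=
  ⟨empty_subset _, fun _ he => he.elim, Subset.rfl, M.empty_indep, injOn_empty _, empty_subset _⟩

/-- The extension order on waves. -/
def WaveLE {M : Matroid α} {c : α → ι}
    (p q : {p : Set α × Set α // IsWave M c p.1 p.2}) : Prop :=
  p.1.1 ⊆ q.1.1 ∧ p.1.2 = q.1.2 ∩ p.1.1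

lemma WaveLE.trans' {M : Matroid α} {c : α → ι}
    {p q r : {p : Set α × Set α // IsWave M c p.1 p.2}} (h1 : WaveLE p q) (h2 : WaveLE q r) :
    WaveLE p r := by
  refine ⟨h1.1.trans h2.1, ?_⟩
  rw [h1.2, h2.2, inter_assoc, inter_eq_right.2 h1.1]

/-- Chains of waves have upper bounds, for finitary matroids. -/
lemma wave_chain_bound (M : Matroid α) [M.Finitary] (c : α → ι)
    (C : Set {p : Set α × Set α // IsWave M c p.1 p.2}) (hC : IsChain WaveLE C) :
    ∃ ub, ∀ a ∈ C, WaveLE a ub := by
  classical
  have hcmp : ∀ p ∈ C, ∀ q ∈ C, p.1.2 ⊆ q.1.2 ∨ q.1.2 ⊆ p.1.2 := by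
    intro p hp q hq
    by_cases hpq : p = q
    · subst hpq; exact Or.inl Subset.rfl
    · rcases hC hp hq hpq with h | h
      · left
        rw [h.2]; exact inter_subset_left
      · right
        rw [h.2]; exact inter_subset_left
  set W := ⋃ p ∈ C, p.1.1 with hW
  set J := ⋃ p ∈ C, p.1.2 with hJ
  have hfin : ∀ F : Set α, F.Finite → F ⊆ J → F = ∅ ∨ ∃ p ∈ C, F ⊆ p.1.2 := by
    intro F hF
    induction F, hF using Set.Finite.induction_on with
    | empty => intro _; exact Or.inl rfl
    | @insert x F _ _ ih =>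
      intro hsub
      right
      have hx : x ∈ J := hsub (mem_insert _ _)
      obtain ⟨p, hp, hxp⟩ := mem_iUnion₂.1 hx
      rcases ih ((subset_insert _ _).trans hsub) with rfl | ⟨q, hq, hFq⟩
      · exact ⟨p, hp, by simpa using hxp⟩
      · rcases hcmp p hp q hq with h | h
        · exact ⟨q, hq, insert_subset (h hxp) hFq⟩
        · exact ⟨p, hp, insert_subset hxp (hFq.trans h)⟩
  have hind : M.Indep J := by
    refine indep_of_forall_finite_subset_indep _ fun F hFJ hF => ?_
    rcases hfin F hF hFJ with rfl | ⟨p, _, hp⟩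
    · exact M.empty_indep
    · exact p.2.indep.subset hp
  have hWave : IsWave M c W J := by
    refine ⟨iUnion₂_subset fun p _ => p.2.sub, ?_, iUnion₂_subset fun p hp => ?_, hind, ?_, ?_⟩
    · intro e he f hf hcf
      obtain ⟨p, hp, hep⟩ := mem_iUnion₂.1 he
      exact mem_iUnion₂.2 ⟨p, hp, p.2.sat e hep f hf hcf⟩
    · exact p.2.JW.trans (subset_biUnion_of_mem (u := fun p => p.1.1) hp)
    · intro x hx y hy hxy
      obtain ⟨p, hp, hxp⟩ := mem_iUnion₂.1 hx
      obtain ⟨q, hq, hyq⟩ := mem_iUnion₂.1 hy
      rcases hcmp p hp q hq with h | h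
      · exact q.2.inj (h hxp) hyq hxy
      · exact p.2.inj hxp (h hyq) hxy
    · refine iUnion₂_subset fun p hp => p.2.span.trans (M.closure_subset_closure ?_)
      exact subset_biUnion_of_mem (u := fun p => p.1.2) hp
  refine ⟨⟨(W, J), hWave⟩, fun a ha => ?_⟩
  refine ⟨subset_biUnion_of_mem (u := fun p => p.1.1) ha, ?_⟩
  apply Subset.antisymm
  · exact subset_inter (subset_biUnion_of_mem (u := fun p => p.1.2) ha) a.2.JW
  · rintro x ⟨hxJ, hxa⟩
    obtain ⟨q, hq, hxq⟩ := mem_iUnion₂.1 hxJ
    by_cases haq : a = q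
    · subst haq; exact hxq
    · rcases hC ha hq haq with h | h
      · rw [h.2]; exact ⟨hxq, hxa⟩
      · rw [h.2] at hxq; exact hxq.1

/-- Existence of a wave after whose contraction no nonempty wave remains. -/
lemma exists_max_wave (M : Matroid α) [M.Finitary] (c : α → ι) :
    ∃ W J, IsWave M c W J ∧ NoWave (M ／ W) c := by
  obtain ⟨m, hm⟩ := exists_maximal_of_chains_bounded (r := WaveLE (M := M) (c := c))
    (wave_chain_bound M c) (fun h1 h2 => h1.trans' h2)
  obtain ⟨⟨W, J⟩, hwave⟩ := m
  refine ⟨W, J, hwave, ?_⟩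
  intro W' J' hw'
  simp only at hwave hm
  have hB : M.IsBasis J W := hwave.indep.isBasis_of_subset_of_subset_closure hwave.JW hwave.span
  have hsubE : W' ⊆ M.E \ W := hw'.sub
  have hdisj : Disjoint W W' := disjoint_left.2 fun x hx hx' => (hsubE hx').2 hx
  have hind := (hB.contract_indep_iff).1 hw'.indep
  have hspan' : W' ⊆ M.closure (J' ∪ J) := by
    intro x hx
    have h1 := hw'.span hx
    rw [contract_closure_eq] at h1
    refine M.closure_subset_closure_of_subset_closure ?_ h1.1
    rintro y (hy | hy)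
    · exact M.subset_closure (J' ∪ J) hind.1.subset_ground (Or.inl hy)
    · exact M.closure_subset_closure subset_union_right (hwave.span hy)
  have hW2 : IsWave M c (W ∪ W') (J' ∪ J) := by
    refine ⟨union_subset hwave.sub (hsubE.trans sdiff_subset), ?_, ?_, hind.1, ?_, ?_⟩
    · rintro e (he | he) f hf hcf
      · exact Or.inl (hwave.sat e he f hf hcf)
      · by_cases hfW : f ∈ W
        · exact Or.inl hfW
        · exact Or.inr (hw'.sat e he f ⟨hf, hfW⟩ hcf)
    · exact union_subset (hw'.JW.trans subset_union_right) (hwave.JW.trans subset_union_left)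
    · have hfresh : ∀ x ∈ J', ∀ y ∈ J, c x ≠ c y := by
        intro x hx y hy hxy
        have hxE := hsubE (hw'.JW hx)
        exact hxE.2 (hwave.sat y (hwave.JW hy) x hxE.1 hxy)
      rintro x (hx | hx) y (hy | hy) hxy
      · exact hw'.inj hx hy hxy
      · exact absurd hxy (hfresh x hx y hy)
      · exact absurd hxy.symm (hfresh y hy x hx)
      · exact hwave.inj hx hy hxy
    · refine union_subset ?_ hspan'
      exact hwave.span.trans (M.closure_subset_closure subset_union_right)
  have hle : WaveLE (⟨(W, J), hwave⟩ : {p : Set α × Set α // IsWave M c p.1 p.2})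
      ⟨(W ∪ W', J' ∪ J), hW2⟩ := by
    refine ⟨subset_union_left, ?_⟩
    simp only
    apply Subset.antisymm
    · exact subset_inter subset_union_right hwave.JW
    · rintro x ⟨hx | hx, hxW⟩
      · exact absurd hxW (hsubE (hw'.JW hx)).2
      · exact hx
  have hge := hm _ hle
  have hsub : W ∪ W' ⊆ W := hge.1
  apply eq_empty_of_forall_notMem
  intro x hx
  exact (hsubE hx).2 (hsub (Or.inr hx))

/-- The relation between a system and the next system. -/
structure Rel (M M' : Matroid α) (c : α → ι) (T : Set α) : Prop where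
  inj : InjOn c T
  indep : ∀ S, M'.Indep S → M.Indep (S ∪ T)
  ground : M'.E ⊆ M.E
  removed : ∀ e ∈ M.E, e ∉ M'.E → ∃ t ∈ T, c t = c e
  fresh : ∀ e ∈ M'.E, ∀ t ∈ T, c t ≠ c e

/-- One step: handle the class `x`. -/
lemma step (M : Matroid α) [M.Finitary] (c : α → ι) (hu : Unhind M c) (x : ι) :
    ∃ (M' : Matroid α) (T : Set α), M'.Finitary ∧ Unhind M' c ∧ Rel M M' c T ∧
      ∀ e ∈ M'.E, c e ≠ x := by
  classical
  obtain ⟨W, J, hwave, hno⟩ := exists_max_wave M c
  have hB : M.IsBasis J W := hwave.indep.isBasis_of_subset_of_subset_closure hwave.JW hwave.span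
  set M1 := M ／ W with hM1
  have hE1 : M1.E = M.E \ W := rfl
  have hfresh1 : ∀ e ∈ M1.E, ∀ t ∈ J, c t ≠ c e := by
    intro e he t ht hte
    rw [hE1] at he
    exact he.2 (hwave.sat t (hwave.JW ht) e he.1 hte.symm)
  have hrem1 : ∀ e ∈ M.E, e ∉ M1.E → ∃ t ∈ J, c t = c e := by
    intro e he he1
    have : e ∈ W := by
      by_contra h
      exact he1 ⟨he, h⟩
    exact hu W J hwave e this
  have hind1 : ∀ S, M1.Indep S → M.Indep (S ∪ J) := fun S hS => (hB.contract_indep_iff.1 hS).1
  by_cases hx : ∃ e ∈ M1.E, c e = x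
  · -- class `x` is still there; pick a nonloop
    set X := {e ∈ M1.E | c e = x} with hX
    have hXsat : Sat M1 c X := by
      intro e he f hf hcf
      exact ⟨hf, hcf.trans he.2⟩
    obtain ⟨a, haX, hanl⟩ : ∃ a ∈ X, a ∉ M1.closure ∅ := by
      by_contra hcon
      push Not at hcon
      have hwX : IsWave M1 c X ∅ :=
        ⟨fun y hy => hy.1, hXsat, empty_subset _, M1.empty_indep, injOn_empty _, hcon⟩
      have hempty := hno X ∅ hwX
      obtain ⟨e, he, hce⟩ := hx
      have : e ∈ X := ⟨he, hce⟩
      rw [hempty] at this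
      exact this
    have hnl : M1.IsNonloop a := by
      rw [← indep_singleton, ← insert_empty_eq a]
      exact M1.empty_indep.insert_indep_iff.2 (Or.inl ⟨haX.1, hanl⟩)
    set M' := M1 ／ {a} ＼ X with hM'
    have hE' : M'.E = M1.E \ X := by
      ext y
      simp only [hM', delete_ground, contract_ground, mem_sdiff, mem_singleton_iff]
      constructor
      · rintro ⟨⟨h1, _⟩, h3⟩; exact ⟨h1, h3⟩
      · rintro ⟨h1, h3⟩
        refine ⟨⟨h1, ?_⟩, h3⟩
        rintro rfl
        exact h3 haX
    have hnotx : ∀ e ∈ M'.E, c e ≠ x := by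
      intro e he hce
      rw [hE'] at he
      exact he.2 ⟨he.1, hce⟩
    have hind' : ∀ S, M'.Indep S → a ∉ S ∧ M1.Indep (insert a S) ∧ Disjoint S X := by
      intro S hS
      have h1 := delete_indep_iff.1 hS
      have h2 := hnl.contractElem_indep_iff.1 h1.1
      exact ⟨h2.1, h2.2, h1.2⟩
    refine ⟨M', J ∪ {a}, ?_, ?_, ?_, hnotx⟩
    · infer_instance
    · -- unhindered via `good`
      intro W' J' hw' e he
      obtain ⟨haJ', hindJ', _⟩ := hind' J' hw'.indep
      have hW'E : W' ⊆ M1.E := fun y hy => by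
        have := hw'.sub hy
        rw [hE'] at this
        exact this.1
      have hW'sat : Sat M1 c W' := by
        intro y hy f hf hcf
        refine hw'.sat y hy f ?_ hcf
        rw [hE']
        refine ⟨hf, fun hfX => ?_⟩
        exact hnotx y (hw'.sub hy) (hcf.symm.trans hfX.2)
      have hspan : W' ⊆ M1.closure (insert a J') := by
        intro y hy
        have h1 := hw'.span hy
        rw [hM', delete_closure_eq, contract_closure_eq] at h1
        refine M1.closure_subset_closure ?_ h1.1.1
        rintro z (hz | hz)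
        · exact Or.inr hz.1
        · exact Or.inl hz
      exact good hno hW'E hW'sat hw'.JW hindJ' haJ' hw'.inj hspan e he
    · -- the relation
      refine ⟨?_, ?_, ?_, ?_, ?_⟩
      · -- injectivity
        have haf : ∀ t ∈ J, c t ≠ c a := fun t ht => hfresh1 a haX.1 t ht
        rintro u (hu1 | hu1) v (hv | hv) huv
        · exact hwave.inj hu1 hv huv
        · rw [mem_singleton_iff] at hv; subst hv
          exact absurd huv (haf u hu1)
        · rw [mem_singleton_iff] at hu1; subst hu1
          exact absurd huv.symm (haf v hv)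
        · rw [mem_singleton_iff] at hu1 hv; rw [hu1, hv]
      · intro S hS
        obtain ⟨_, h2, _⟩ := hind' S hS
        have := hind1 _ h2
        convert this using 1
        ext y; simp only [mem_union, mem_insert_iff, mem_singleton_iff]; tauto
      · intro y hy
        rw [hE'] at hy
        exact hy.1.1
      · intro e he he'
        by_cases he1 : e ∈ M1.E
        · have heX : e ∈ X := by
            by_contra h
            exact he' (by rw [hE']; exact ⟨he1, h⟩)
          exact ⟨a, Or.inr rfl, haX.2.trans heX.2.symm⟩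
        · obtain ⟨t, ht, hte⟩ := hrem1 e he he1
          exact ⟨t, Or.inl ht, hte⟩
      · rintro e he t (ht | ht)
        · rw [hE'] at he
          exact hfresh1 e he.1 t ht
        · rw [mem_singleton_iff] at ht; subst ht
          intro hce
          exact hnotx e he (hce.symm.trans haX.2)
  · -- class `x` is gone
    push Not at hx
    refine ⟨M1, J, inferInstance, hno.unhind, ⟨hwave.inj, hind1, sdiff_subset, hrem1, hfresh1⟩, hx⟩

end Vale.Agent.P068
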